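import Crest.Agent.R168.Prob

set_option autoImplicit false

/-!
Scalar analysis: hyperbolic functions, the message map, the observation channel.
-/

namespace Crest.Agent.R160

open Real MeasureTheory Set Filter
open Crest.Agent.R168 (clamp mu0 clamp_nonneg clamp_le_one clamp_of_mem measurable_clamp)

lemma tanh_add' (a b : ℝ) : tanh (a + b) = (tanh a + tanh b) / (1 + tanh a * tanh b) := by
  have ha := cosh_pos a
  have hb := cosh_pos b
  have hab := cosh_pos (a + b)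
  rw [cosh_add] at hab
  simp only [tanh_eq_sinh_div_cosh, sinh_add, cosh_add]
  have : 1 + sinh a / cosh a * (sinh b / cosh b) =
      (cosh a * cosh b + sinh a * sinh b) / (cosh a * cosh b) := by field_simp
  rw [this]; field_simp

lemma tanh_sub_eq (a b : ℝ) : tanh a - tanh b = sinh (a - b) / (cosh a * cosh b) := by
  have ha := cosh_pos a
  have hb := cosh_pos b
  simp only [tanh_eq_sinh_div_cosh, sinh_sub]; field_simp

lemma one_sub_tanh_sq (a : ℝ) : 1 - tanh a ^ 2 = 1 / cosh a ^ 2 := by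
  have ha := cosh_pos a
  have := cosh_sq a
  rw [tanh_eq_sinh_div_cosh]; field_simp; linarith

lemma hasDerivAt_tanh (a : ℝ) : HasDerivAt tanh (1 - tanh a ^ 2) a := by
  have ha := cosh_pos a
  have := (hasDerivAt_sinh a).div (hasDerivAt_cosh a) ha.ne'
  have e : tanh = sinh / cosh := by funext x; simp [tanh_eq_sinh_div_cosh]
  have e2 : 1 - tanh a ^ 2 = (cosh a * cosh a - sinh a * sinh a) / cosh a ^ 2 := by
    rw [tanh_eq_sinh_div_cosh]; field_simp
  rw [e2, e]; exact this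

@[fun_prop] lemma continuous_tanh : Continuous tanh :=
  continuous_iff_continuousAt.2 fun a => (hasDerivAt_tanh a).continuousAt

@[fun_prop] lemma measurable_tanh : Measurable tanh := continuous_tanh.measurable

lemma abs_sub_le_of_deriv {f f' : ℝ → ℝ} (hf : ∀ x, HasDerivAt f (f' x) x) {C : ℝ}
    (hC : ∀ x, |f' x| ≤ C) (a b : ℝ) : |f a - f b| ≤ C * |a - b| :=
  Convex.norm_image_sub_le_of_norm_hasDerivWithin_le (s := univ)
    (fun x _ => (hf x).hasDerivWithinAt) (fun x _ => hC x) convex_univ (mem_univ b) (mem_univ a)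

lemma abs_tanh_sub_le (a b : ℝ) : |tanh a - tanh b| ≤ |a - b| := by
  simpa using abs_sub_le_of_deriv hasDerivAt_tanh (C := 1) (fun x => by
    have := tanh_sq_lt_one x
    have := sq_nonneg (tanh x)
    rw [abs_le]; constructor <;> linarith) a b

lemma abs_le_abs_sinh (x : ℝ) : |x| ≤ |sinh x| := by
  rw [abs_sinh]; exact self_le_sinh_iff.2 (abs_nonneg x)

lemma cosh_le_of_abs {a K : ℝ} (ha : |a| ≤ K) : cosh a ≤ cosh K :=
  cosh_le_cosh.2 (ha.trans (le_abs_self K))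

lemma abs_sub_le_tanh {a b K : ℝ} (ha : |a| ≤ K) (hb : |b| ≤ K) :
    |a - b| ≤ cosh K ^ 2 * |tanh a - tanh b| := by
  have h1 := cosh_pos a
  have h2 := cosh_pos b
  rw [tanh_sub_eq, abs_div, abs_of_pos (mul_pos h1 h2), ← mul_div_assoc, le_div_iff₀ (mul_pos h1 h2),
    mul_comm]
  refine mul_le_mul ?_ (abs_le_abs_sinh _) (abs_nonneg _) (by positivity)
  rw [sq]
  exact mul_le_mul (cosh_le_of_abs ha) (cosh_le_of_abs hb) h2.le (cosh_pos K).le

lemma inv_le_one_sub_tanh_sq {a K : ℝ} (ha : |a| ≤ K) : 1 / cosh K ^ 2 ≤ 1 - tanh a ^ 2 := by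
  rw [one_sub_tanh_sq]
  have := cosh_pos a
  have := cosh_le_of_abs ha
  gcongr

lemma abs_tanh_le_abs (a : ℝ) : |tanh a| ≤ |a| := by simpa using abs_tanh_sub_le a 0

lemma abs_tanh_le_one (a : ℝ) : |tanh a| ≤ 1 := (abs_tanh_lt_one a).le

lemma tanh_sign {s : ℝ} (hs : s = 1 ∨ s = -1) (a : ℝ) : tanh (s * a) = s * tanh a := by
  rcases hs with rfl | rfl <;> simp

lemma tanh_eq_exp (a : ℝ) : tanh a = (exp (2 * a) - 1) / (exp (2 * a) + 1) := by
  have h := exp_pos a
  rw [tanh_eq, exp_neg, show 2 * a = a + a by ring, exp_add]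
  field_simp

lemma artanh_neg' (x : ℝ) : artanh (-x) = -artanh x := by
  unfold artanh
  rw [← log_inv, ← sqrt_inv, inv_div]
  congr 2; ring

lemma artanh_sign {s : ℝ} (hs : s = 1 ∨ s = -1) (a : ℝ) : artanh (s * a) = s * artanh a := by
  rcases hs with rfl | rfl <;> simp [artanh_neg']

@[fun_prop] lemma measurable_artanh : Measurable artanh := by
  unfold artanh; fun_prop

lemma abs_artanh_le {x : ℝ} (hx : |x| ≤ 3 / 4) : |artanh x| ≤ 1 := by
  have h1 : (3 / 4 : ℝ) ≤ tanh 1 := by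
    rw [tanh_eq_exp, le_div_iff₀ (by positivity)]
    have := exp_one_gt_d9
    have h2 : exp (2 * 1) = exp 1 * exp 1 := by rw [← exp_add]; norm_num
    rw [h2]; nlinarith
  obtain ⟨h3, h4⟩ := abs_le.1 hx
  rw [abs_le]; constructor
  · have := artanh_le_artanh (x := tanh (-1)) (y := x) (neg_one_lt_tanh _) (by linarith)
      (by rw [tanh_neg]; linarith)
    rwa [artanh_tanh] at this
  · have := artanh_le_artanh (x := x) (y := tanh 1) (by linarith) (tanh_lt_one _) (by linarith)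
    rwa [artanh_tanh] at this

lemma abs_log_sub_le {a b L : ℝ} (hL : 0 < L) (ha : 1 / L ≤ a) (hb : 1 / L ≤ b) :
    |log a - log b| ≤ L * |a - b| := by
  have key : ∀ a b : ℝ, 1 / L ≤ a → 1 / L ≤ b → log a - log b ≤ L * |a - b| := by
    intro a b ha hb
    have h0 : 0 < 1 / L := by positivity
    have ha0 : 0 < a := by linarith
    have hb0 : 0 < b := by linarith
    rw [← log_div ha0.ne' hb0.ne']
    have h1 := log_le_sub_one_of_pos (div_pos ha0 hb0)
    have h2 : a / b - 1 = (a - b) / b := by field_simp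
    have h3 : (a - b) / b ≤ |a - b| / b := by gcongr; exact le_abs_self _
    have h4 : |a - b| / b ≤ |a - b| / (1 / L) := by gcongr
    have h5 : |a - b| / (1 / L) = L * |a - b| := by field_simp
    linarith
  rw [abs_le]; constructor
  · have := key b a hb ha
    rw [abs_sub_comm] at this; linarith
  · exact key a b ha hb

lemma abs_exp_sub_le {a b : ℝ} : |exp a - exp b| ≤ max (exp a) (exp b) * |a - b| := by
  have key : ∀ a b : ℝ, b ≤ a → exp a - exp b ≤ exp a * (a - b) := by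
    intro a b _
    have := add_one_le_exp (b - a)
    have h2 : exp b = exp a * exp (b - a) := by rw [← exp_add]; congr 1; ring
    have := exp_pos a
    rw [h2]; nlinarith
  rcases le_total b a with h | h
  · have h1 := exp_le_exp.2 h
    rw [abs_of_nonneg (by linarith), abs_of_nonneg (by linarith), max_eq_left h1]
    exact key a b h
  · have h1 := exp_le_exp.2 h
    rw [abs_sub_comm, abs_sub_comm a, abs_of_nonneg (by linarith), abs_of_nonneg (by linarith),
      max_eq_right h1]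
    exact key b a h

/-! ### the message map -/

/-- the message sent along an edge -/
noncomputable def uu (θ H : ℝ) : ℝ := artanh (θ * tanh H)

/-- the normalised derivative of the message map -/
noncomputable def GG (θ H : ℝ) : ℝ := (1 - tanh H ^ 2) / (1 - θ ^ 2 * tanh H ^ 2)

@[fun_prop] lemma measurable_uu (θ : ℝ) : Measurable (uu θ) := by unfold uu; fun_prop

@[fun_prop] lemma measurable_GG (θ : ℝ) : Measurable (GG θ) := by unfold GG; fun_prop

lemma uu_sign (θ : ℝ) {s : ℝ} (hs : s = 1 ∨ s = -1) (a : ℝ) : uu θ (s * a) = s * uu θ a := by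
  unfold uu; rw [tanh_sign hs, ← artanh_sign hs]; congr 1; ring

lemma uu_zero (θ : ℝ) : uu θ 0 = 0 := by simp [uu]

lemma GG_sign (θ : ℝ) {s : ℝ} (hs : s = 1 ∨ s = -1) (a : ℝ) : GG θ (s * a) = GG θ a := by
  rcases hs with rfl | rfl <;> simp [GG]

lemma alg1 (a b θ D E : ℝ) (hD : D = 1 + a * (θ * b)) (hE : E = 1 - θ ^ 2 * a ^ 2) (hD0 : D ≠ 0)
    (hE0 : E ≠ 0) : (a + θ * b) / D = a * (1 - θ ^ 2) / E + θ * ((1 - a ^ 2) / E) * ((b + θ * a) / D) := by
  field_simp; subst hD hE; ring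

lemma alg2 (a b θ D E F : ℝ) (hD : D = 1 + a * (θ * b)) (hE : E = 1 - θ ^ 2 * a ^ 2)
    (hF : F = 1 - θ ^ 2 * b ^ 2) (hD0 : D ≠ 0) (hE0 : E ≠ 0) (hF0 : F ≠ 0) :
    (1 - ((a + θ * b) / D) ^ 2) * ((1 - b ^ 2) / F) =
      (1 - ((b + θ * a) / D) ^ 2) * ((1 - a ^ 2) / E) := by
  field_simp; subst hD hE hF; ring

/-- admissible parameters -/
structure Adm (θ : ℝ) : Prop where
  nonneg : 0 ≤ θ
  sq_le : θ ^ 2 ≤ 1 / 2

section Adm

variable {θ : ℝ} (hθ : Adm θ)
include hθ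

lemma Adm.le : θ ≤ 3 / 4 := by nlinarith [hθ.nonneg, hθ.sq_le]

lemma abs_mul_tanh (H : ℝ) : |θ * tanh H| ≤ 3 / 4 := by
  rw [abs_mul, abs_of_nonneg hθ.nonneg]
  have := abs_tanh_le_one H
  have := hθ.le
  have := hθ.nonneg
  nlinarith [abs_nonneg (tanh H)]

lemma mul_tanh_mem (H : ℝ) : θ * tanh H ∈ Ioo (-1 : ℝ) 1 := by
  have := abs_le.1 (abs_mul_tanh hθ H)
  constructor <;> linarith [this.1, this.2]

lemma tanh_uu (H : ℝ) : tanh (uu θ H) = θ * tanh H := tanh_artanh (mul_tanh_mem hθ H)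

lemma abs_uu_le (H : ℝ) : |uu θ H| ≤ 1 := abs_artanh_le (abs_mul_tanh hθ H)

lemma den_ge (H : ℝ) : 1 / 2 ≤ 1 - θ ^ 2 * tanh H ^ 2 := by
  have := tanh_sq_lt_one H
  have := hθ.sq_le
  nlinarith [sq_nonneg θ, sq_nonneg (tanh H)]

lemma GG_pos (H : ℝ) : 0 < GG θ H :=
  div_pos (by linarith [tanh_sq_lt_one H]) (by linarith [den_ge hθ H])

lemma one_sub_GG (H : ℝ) : GG θ H ≤ 1 - tanh H ^ 2 / 2 := by
  have h1 := den_ge hθ H
  unfold GG
  rw [div_le_iff₀ (by linarith)]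
  have := tanh_sq_lt_one H
  have := hθ.sq_le
  have h2 := sq_nonneg (tanh H)
  have h3 := sq_nonneg θ
  nlinarith [mul_nonneg h2 h2, mul_nonneg h3 (mul_nonneg h2 h2)]

lemma GG_le_one (H : ℝ) : GG θ H ≤ 1 := by
  have := one_sub_GG hθ H
  nlinarith [sq_nonneg (tanh H)]

lemma hasDerivAt_uu (H : ℝ) : HasDerivAt (uu θ) (θ * GG θ H) H := by
  have e : uu θ = fun H => 1 / 2 * (log (1 + θ * tanh H) - log (1 - θ * tanh H)) := by
    funext x
    have := mul_tanh_mem hθ x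
    unfold uu
    rw [artanh_eq_half_log ⟨this.1.le, this.2.le⟩, log_div (by linarith [this.1]) (by linarith [this.2])]
  have := mul_tanh_mem hθ H
  have h1 : 1 + θ * tanh H ≠ 0 := by linarith [this.1]
  have h2 : 1 - θ * tanh H ≠ 0 := by linarith [this.2]
  have h3 := den_ge hθ H
  rw [e]
  have := (((((hasDerivAt_tanh H).const_mul θ).const_add 1).log h1).sub
    ((((hasDerivAt_tanh H).const_mul θ).const_sub 1).log h2)).const_mul (1 / 2)
  refine this.congr_deriv ?_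
  unfold GG
  have h4 : 1 - θ ^ 2 * tanh H ^ 2 = (1 + θ * tanh H) * (1 - θ * tanh H) := by ring
  rw [h4]; field_simp; ring

lemma continuous_uu : Continuous (uu θ) :=
  continuous_iff_continuousAt.2 fun a => (hasDerivAt_uu hθ a).continuousAt

lemma abs_uu_sub_le (a b : ℝ) : |uu θ a - uu θ b| ≤ 3 / 4 * |a - b| :=
  abs_sub_le_of_deriv (hasDerivAt_uu hθ) (fun x => by
    have := GG_pos hθ x
    have := GG_le_one hθ x
    have := hθ.le
    have := hθ.nonneg
    rw [abs_of_nonneg (by positivity)]; nlinarith) a b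

lemma exp_two_uu (H : ℝ) :
    (1 + θ) / 2 * exp (2 * H) + (1 - θ) / 2 =
      exp (2 * uu θ H) * ((1 + θ) / 2 + (1 - θ) / 2 * exp (2 * H)) := by
  have h := tanh_uu hθ H
  rw [tanh_eq_exp, tanh_eq_exp] at h
  have h1 := exp_pos (2 * H)
  have h2 := exp_pos (2 * uu θ H)
  field_simp at h
  nlinarith

/-- the two-site identity -/
lemma two_site (H H' : ℝ) : tanh (H + uu θ H') =
    tanh H * (1 - θ ^ 2) / (1 - θ ^ 2 * tanh H ^ 2) + θ * GG θ H * tanh (H' + uu θ H) := by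
  rw [tanh_add', tanh_add', tanh_uu hθ, tanh_uu hθ]
  have h1 := den_ge hθ H
  have h2 : 1 + tanh H * (θ * tanh H') ≠ 0 := by
    have h3 := abs_mul_tanh hθ H'
    have h4 := abs_tanh_le_one H
    have : |tanh H * (θ * tanh H')| ≤ 1 * (3 / 4) := by rw [abs_mul]; gcongr
    linarith [(abs_le.1 this).1]
  rw [show 1 + tanh H' * (θ * tanh H) = 1 + tanh H * (θ * tanh H') by ring]
  exact alg1 _ _ _ _ _ rfl rfl h2 (by linarith)

lemma two_site_symm (H H' : ℝ) : (1 - tanh (H + uu θ H') ^ 2) * GG θ H' =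
    (1 - tanh (H' + uu θ H) ^ 2) * GG θ H := by
  rw [tanh_add', tanh_add', tanh_uu hθ, tanh_uu hθ]
  have h1 := den_ge hθ H
  have h1' := den_ge hθ H'
  have h2 : 1 + tanh H * (θ * tanh H') ≠ 0 := by
    have h3 := abs_mul_tanh hθ H'
    have h4 := abs_tanh_le_one H
    have : |tanh H * (θ * tanh H')| ≤ 1 * (3 / 4) := by rw [abs_mul]; gcongr
    linarith [(abs_le.1 this).1]
  rw [show 1 + tanh H' * (θ * tanh H) = 1 + tanh H * (θ * tanh H') by ring]
  exact alg2 _ _ _ _ _ _ rfl rfl rfl h2 (by linarith) (by linarith)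

lemma abs_log_GG_sub {a b K lam : ℝ} (ha : |a| ≤ K) (hb : |b| ≤ K) (ha' : |tanh a| ≤ lam)
    (hb' : |tanh b| ≤ lam) :
    |log (GG θ a) - log (GG θ b)| ≤ 4 * cosh K ^ 2 * lam * |a - b| := by
  have hK := one_le_cosh K
  have hL : 0 < cosh K ^ 2 := by positivity
  have h1 := abs_log_sub_le hL (inv_le_one_sub_tanh_sq ha) (inv_le_one_sub_tanh_sq hb)
  have h2 := abs_log_sub_le (L := 2) two_pos (den_ge hθ a) (den_ge hθ b)
  have h3 : |tanh a ^ 2 - tanh b ^ 2| ≤ 2 * lam * |a - b| := by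
    rw [sq_sub_sq, abs_mul]
    refine mul_le_mul ((abs_add_le _ _).trans (by linarith)) (abs_tanh_sub_le a b) (abs_nonneg _) ?_
    linarith [abs_nonneg (tanh a)]
  have e1 : 1 - tanh a ^ 2 - (1 - tanh b ^ 2) = -(tanh a ^ 2 - tanh b ^ 2) := by ring
  have e2 : 1 - θ ^ 2 * tanh a ^ 2 - (1 - θ ^ 2 * tanh b ^ 2) =
      -(θ ^ 2 * (tanh a ^ 2 - tanh b ^ 2)) := by ring
  rw [e1, abs_neg] at h1
  rw [e2, abs_neg, abs_mul, abs_of_nonneg (sq_nonneg θ)] at h2
  unfold GG
  rw [log_div (by linarith [tanh_sq_lt_one a]) (by linarith [den_ge hθ a]),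
    log_div (by linarith [tanh_sq_lt_one b]) (by linarith [den_ge hθ b])]
  have h4 := hθ.sq_le
  have h5 := abs_nonneg (tanh a ^ 2 - tanh b ^ 2)
  have h6 : 1 ≤ cosh K ^ 2 := one_le_pow₀ hK
  calc _ = |(log (1 - tanh a ^ 2) - log (1 - tanh b ^ 2)) -
        (log (1 - θ ^ 2 * tanh a ^ 2) - log (1 - θ ^ 2 * tanh b ^ 2))| := by congr 1; ring
    _ ≤ cosh K ^ 2 * |tanh a ^ 2 - tanh b ^ 2| + cosh K ^ 2 * |tanh a ^ 2 - tanh b ^ 2| := by
        refine (abs_sub _ _).trans (add_le_add h1 (h2.trans ?_))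
        nlinarith
    _ ≤ _ := by nlinarith

lemma abs_log_GG_le {a K : ℝ} (ha : |a| ≤ K) : |log (GG θ a)| ≤ 4 * cosh K ^ 2 * K := by
  have := abs_log_GG_sub hθ ha (b := 0) (lam := 1) (by simpa using (abs_nonneg a).trans ha)
    (abs_tanh_le_one a) (abs_tanh_le_one 0)
  simp only [GG, tanh_zero, sub_zero, mul_one] at this
  norm_num at this
  refine this.trans ?_
  gcongr

lemma GG_avg {x u K : ℝ} (hx : |x| ≤ K) (hu : |u| ≤ 1) :
    (1 + θ) / 2 * GG θ (x + u) + (1 - θ) / 2 * GG θ (x - u) ≤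
      1 - u ^ 2 / (8 * cosh (K + 1) ^ 4) := by
  have h1 := one_sub_GG hθ (x + u)
  have h2 := one_sub_GG hθ (x - u)
  have h3 := abs_sub_le_tanh (a := x + u) (b := 0) (K := K + 1)
    ((abs_add_le _ _).trans (by linarith)) (by simp; linarith [abs_nonneg x])
  have h4 := abs_sub_le_tanh (a := x - u) (b := 0) (K := K + 1)
    ((abs_sub _ _).trans (by linarith)) (by simp; linarith [abs_nonneg x])
  simp only [sub_zero, tanh_zero] at h3 h4
  have hc := cosh_pos (K + 1)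
  have h5 : (x + u) ^ 2 ≤ cosh (K + 1) ^ 4 * tanh (x + u) ^ 2 := by
    have := pow_le_pow_left₀ (abs_nonneg _) h3 2
    rwa [sq_abs, mul_pow, sq_abs, ← pow_mul] at this
  have h6 : (x - u) ^ 2 ≤ cosh (K + 1) ^ 4 * tanh (x - u) ^ 2 := by
    have := pow_le_pow_left₀ (abs_nonneg _) h4 2
    rwa [sq_abs, mul_pow, sq_abs, ← pow_mul] at this
  have h7 : u ^ 2 / (8 * cosh (K + 1) ^ 4) ≤ (tanh (x + u) ^ 2 + tanh (x - u) ^ 2) / 16 := by
    rw [div_le_div_iff₀ (by positivity) (by positivity)]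
    nlinarith [sq_nonneg x]
  have := hθ.le
  have := hθ.nonneg
  nlinarith [sq_nonneg (tanh (x + u)), sq_nonneg (tanh (x - u))]

lemma sq_le_uu_sq (H : ℝ) : θ ^ 2 * tanh H ^ 2 ≤ uu θ H ^ 2 := by
  have := abs_tanh_le_abs (uu θ H)
  rw [tanh_uu hθ] at this
  rw [← mul_pow, ← sq_abs, ← sq_abs (uu θ H)]
  gcongr

end Adm

lemma abs_log_one_sub_sq {a b K lam : ℝ} (ha : |a| ≤ K) (hb : |b| ≤ K) (ha' : |tanh a| ≤ lam)
    (hb' : |tanh b| ≤ lam) :
    |log (1 - tanh a ^ 2) - log (1 - tanh b ^ 2)| ≤ 2 * cosh K ^ 2 * lam * |tanh a - tanh b| := by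
  have hL : 0 < cosh K ^ 2 := pow_pos (cosh_pos K) 2
  have h1 := abs_log_sub_le hL (inv_le_one_sub_tanh_sq ha) (inv_le_one_sub_tanh_sq hb)
  have h3 : |tanh a ^ 2 - tanh b ^ 2| ≤ 2 * lam * |tanh a - tanh b| := by
    rw [sq_sub_sq, abs_mul]
    exact mul_le_mul_of_nonneg_right ((abs_add_le _ _).trans (by linarith)) (abs_nonneg _)
  have e1 : 1 - tanh a ^ 2 - (1 - tanh b ^ 2) = -(tanh a ^ 2 - tanh b ^ 2) := by ring
  rw [e1, abs_neg] at h1
  nlinarith

end Crest.Agent.R160
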