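import Crest.Agent.R160.Tree
import Crest.Agent.R160.Anal

set_option autoImplicit false

/-!
Deterministic belief propagation on a tree.
-/

namespace Crest.Agent.R160

open Real Filter Topology SimpleGraph

/-- a symmetric limit -/
noncomputable def slim (a : ℕ → ℝ) : ℝ := (limsup a atTop + liminf a atTop) / 2

lemma slim_neg (a : ℕ → ℝ) : slim (fun k => -a k) = -slim a := by
  have h1 : ∀ a : ℕ → ℝ, limsup (fun k => -a k) atTop = -liminf a atTop := by
    intro a
    rw [limsup_eq, liminf_eq, ← Real.sInf_neg]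
    congr 1
    ext x
    simp only [Set.mem_ofPred_eq, Set.mem_neg, neg_le]
  have h2 := h1 fun k => -a k
  simp only [neg_neg] at h2
  unfold slim
  rw [h1, show limsup a atTop = _ from h2]; ring

lemma slim_sign {s : ℝ} (hs : s = 1 ∨ s = -1) (a : ℕ → ℝ) : slim (fun k => s * a k) = s * slim a := by
  rcases hs with rfl | rfl
  · simp
  · simpa using slim_neg a

lemma slim_of_tendsto {a : ℕ → ℝ} {l : ℝ} (h : Tendsto a atTop (𝓝 l)) : slim a = l := by
  unfold slim; rw [h.limsup_eq, h.liminf_eq]; ring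

lemma abs_slim_le {a : ℕ → ℝ} {C : ℝ} (h : ∀ k, |a k| ≤ C) : |slim a| ≤ C := by
  have hu : IsBoundedUnder (· ≤ ·) atTop a := isBoundedUnder_of ⟨C, fun k => (abs_le.1 (h k)).2⟩
  have hl : IsBoundedUnder (· ≥ ·) atTop a := isBoundedUnder_of ⟨-C, fun k => (abs_le.1 (h k)).1⟩
  have h1 : limsup a atTop ≤ C :=
    limsup_le_of_le hl.isCoboundedUnder_le (Eventually.of_forall fun k => (abs_le.1 (h k)).2)
  have h2 : -C ≤ liminf a atTop :=
    le_liminf_of_le hu.isCoboundedUnder_ge (Eventually.of_forall fun k => (abs_le.1 (h k)).1)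
  have h3 := liminf_le_limsup hu hl
  unfold slim
  rw [abs_le]; constructor <;> linarith

lemma measurable_slim {Ω : Type*} [MeasurableSpace Ω] {a : ℕ → Ω → ℝ} (h : ∀ k, Measurable (a k)) :
    Measurable fun x => slim fun k => a k x :=
  ((Measurable.limsup h).add (Measurable.liminf h)).div_const 2

variable {V : Type*} (G : SimpleGraph V) [DecidableEq V] [G.LocallyFinite] (θ : ℝ)

/-- cavity fields of depth `k` -/
noncomputable def Hn (h : V → ℝ) : ℕ → V → V → ℝ
  | 0, _, z => h z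
  | k + 1, p, z => h z + ∑ c ∈ ch G p z, uu θ (Hn h k z c)

/-- infinite volume cavity fields -/
noncomputable def Hi (h : V → ℝ) (p z : V) : ℝ := slim fun k => Hn G θ h k p z

/-- all cavity fields converge -/
def Good (h : V → ℝ) : Prop := ∀ p z, Tendsto (fun k => Hn G θ h k p z) atTop (𝓝 (Hi G θ h p z))

/-- magnetisation -/
noncomputable def mag (h : V → ℝ) (v : V) : ℝ := tanh (Hi G θ h v v)

/-- product of the normalised derivatives along the first `k` steps from `z` to `x` -/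
noncomputable def Wp (h : V → ℝ) (k : ℕ) (z x : V) : ℝ :=
  ∏ i ∈ Finset.range k, GG θ (Hi G θ h (geo G z x i) (geo G z x (i + 1)))

/-- vertex term -/
noncomputable def ell (h : V → ℝ) (v : V) : ℝ := log (1 - mag G θ h v ^ 2) / 2

/-- edge term -/
noncomputable def ge (h : V → ℝ) (y y' : V) : ℝ :=
  (log (GG θ (Hi G θ h y y')) + log (GG θ (Hi G θ h y' y))) / 2

/-- logarithm of the normalised covariance -/
noncomputable def LL (h : V → ℝ) (x v : V) : ℝ :=
  ell G θ h x + ell G θ h v +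
    ∑ i ∈ Finset.range (G.dist x v), ge G θ h (geo G x v i) (geo G x v (i + 1))

variable {G θ}

lemma measurable_Hn (k : ℕ) (p z : V) : Measurable fun h => Hn G θ h k p z := by
  induction k generalizing p z with
  | zero => exact measurable_pi_apply z
  | succ k ih =>
    exact (measurable_pi_apply z).add
      (Finset.measurable_sum _ fun c _ => (measurable_uu θ).comp (ih z c))

lemma measurable_Hi (p z : V) : Measurable fun h => Hi G θ h p z :=
  measurable_slim fun k => measurable_Hn k p z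

lemma measurable_mag (v : V) : Measurable fun h => mag G θ h v :=
  measurable_tanh.comp (measurable_Hi v v)

lemma measurable_Wp (k : ℕ) (z x : V) : Measurable fun h => Wp G θ h k z x :=
  Finset.measurable_prod _ fun _ _ => (measurable_GG θ).comp (measurable_Hi _ _)

lemma measurable_ell (v : V) : Measurable fun h => ell G θ h v :=
  ((measurable_const.sub ((measurable_mag v).pow_const 2)).log).div_const 2

lemma measurable_ge (y y' : V) : Measurable fun h => ge G θ h y y' :=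
  (((measurable_GG θ).comp (measurable_Hi _ _)).log.add
    ((measurable_GG θ).comp (measurable_Hi _ _)).log).div_const 2

lemma measurable_LL (x v : V) : Measurable fun h => LL G θ h x v :=
  ((measurable_ell x).add (measurable_ell v)).add
    (Finset.measurable_sum _ fun _ _ => measurable_ge _ _)

lemma ge_symm (h : V → ℝ) (y y' : V) : ge G θ h y y' = ge G θ h y' y := by
  unfold ge; ring

lemma abs_mag_le (h : V → ℝ) (v : V) : |mag G θ h v| ≤ 1 := abs_tanh_le_one _

/-- gauge invariance and locality -/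
lemma Hn_gauge {h h' s s' : V → ℝ} (hs : ∀ v, s v = 1 ∨ s v = -1) (hs' : ∀ v, s' v = 1 ∨ s' v = -1)
    (k : ℕ) (p z : V) (h1 : ∀ y ∈ Tk G k p z, s y * h y = s' y * h' y)
    (h2 : ∀ y ∈ Tk G k p z, ∀ y' ∈ Tk G k p z, G.Adj y y' → s y * s y' = s' y * s' y') :
    s z * Hn G θ h k p z = s' z * Hn G θ h' k p z := by
  induction k generalizing p z with
  | zero => exact h1 z (self_mem_Tk _ _ _)
  | succ k ih =>
    simp only [Hn, mul_add, Finset.mul_sum]
    rw [h1 z (self_mem_Tk _ _ _)]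
    congr 1
    refine Finset.sum_congr rfl fun c hc => ?_
    have h3 := ih z c (fun y hy => h1 y (Tk_ch hc hy))
      (fun y hy y' hy' => h2 y (Tk_ch hc hy) y' (Tk_ch hc hy'))
    have h4 := h2 z (self_mem_Tk _ _ _) c (Tk_ch hc (self_mem_Tk _ _ _)) (mem_ch.1 hc).2
    have h5 := congrArg (uu θ) h3
    rw [uu_sign θ (hs c), uu_sign θ (hs' c)] at h5
    have e1 : s c * s c = 1 := by rcases hs c with h | h <;> simp [h]
    have e2 : s' c * s' c = 1 := by rcases hs' c with h | h <;> simp [h]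
    calc s z * uu θ (Hn G θ h k z c) = (s z * s c) * (s c * uu θ (Hn G θ h k z c)) := by
          linear_combination -(s z * uu θ (Hn G θ h k z c)) * e1
      _ = (s' z * s' c) * (s' c * uu θ (Hn G θ h' k z c)) := by rw [h4, h5]
      _ = _ := by linear_combination (s' z * uu θ (Hn G θ h' k z c)) * e2

lemma Hn_congr {h h' : V → ℝ} (k : ℕ) (p z : V) (h1 : ∀ y ∈ Tk G k p z, h y = h' y) :
    Hn G θ h k p z = Hn G θ h' k p z := by
  simpa using Hn_gauge (θ := θ) (s := fun _ => 1) (s' := fun _ => 1) (fun _ => Or.inl rfl)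
    (fun _ => Or.inl rfl) k p z (by simpa using h1) (by simp)

lemma Hi_gauge {h h' s s' : V → ℝ} (hs : ∀ v, s v = 1 ∨ s v = -1) (hs' : ∀ v, s' v = 1 ∨ s' v = -1)
    (p z : V) (h1 : ∀ y ∈ Tinf G p z, s y * h y = s' y * h' y)
    (h2 : ∀ y ∈ Tinf G p z, ∀ y' ∈ Tinf G p z, G.Adj y y' → s y * s y' = s' y * s' y') :
    s z * Hi G θ h p z = s' z * Hi G θ h' p z := by
  unfold Hi
  rw [← slim_sign (hs z), ← slim_sign (hs' z)]
  congr 1
  funext k
  exact Hn_gauge hs hs' k p z (fun y hy => h1 y (Tk_sub_Tinf hy))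
    (fun y hy y' hy' => h2 y (Tk_sub_Tinf hy) y' (Tk_sub_Tinf hy'))

lemma Hi_congr {h h' : V → ℝ} (p z : V) (h1 : ∀ y ∈ Tinf G p z, h y = h' y) :
    Hi G θ h p z = Hi G θ h' p z := by
  simpa using Hi_gauge (θ := θ) (s := fun _ => 1) (s' := fun _ => 1) (fun _ => Or.inl rfl)
    (fun _ => Or.inl rfl) p z (by simpa using h1) (by simp)

lemma Hi_neg (h : V → ℝ) (p z : V) : Hi G θ (fun v => -h v) p z = -Hi G θ h p z := by
  simpa using Hi_gauge (θ := θ) (h := fun v => -h v) (h' := h) (s := fun _ => 1) (s' := fun _ => -1)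
    (fun _ => Or.inl rfl) (fun _ => Or.inr rfl) p z (by simp) (by simp)

lemma Hn_zero_field {h : V → ℝ} (k : ℕ) (p z : V) (h1 : ∀ y ∈ Tinf G p z, h y = 0) :
    Hn G θ h k p z = 0 := by
  induction k generalizing p z with
  | zero => exact h1 z (self_mem_Tinf _ _)
  | succ k ih =>
    simp only [Hn]
    rw [h1 z (self_mem_Tinf _ _), zero_add]
    exact Finset.sum_eq_zero fun c hc => by rw [ih z c fun y hy => h1 y (Tinf_ch hc hy), uu_zero]

lemma Hn_iso (g : G ≃g G) (h : V → ℝ) (k : ℕ) (p z : V) :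
    Hn G θ (fun v => h (g v)) k p z = Hn G θ h k (g p) (g z) := by
  induction k generalizing p z with
  | zero => rfl
  | succ k ih => simp only [Hn, sum_ch_iso, ih]

lemma Hi_iso (g : G ≃g G) (h : V → ℝ) (p z : V) :
    Hi G θ (fun v => h (g v)) p z = Hi G θ h (g p) (g z) := by
  simp only [Hi, Hn_iso]

lemma good_of_tendsto {h : V → ℝ} (H : ∀ p z, ∃ l, Tendsto (fun k => Hn G θ h k p z) atTop (𝓝 l)) :
    Good G θ h := fun p z => by
  obtain ⟨l, hl⟩ := H p z
  rwa [Hi, slim_of_tendsto hl]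

lemma sum_ch_self {z y : V} (hy : G.Adj z y) (f : V → ℝ) :
    ∑ c ∈ ch G z z, f c = ∑ c ∈ ch G y z, f c + f y := by
  have : ch G z z = G.neighborFinset z := by
    unfold ch; exact Finset.erase_eq_of_notMem (by simp)
  rw [this, ch, Finset.sum_erase_add _ _ (by simpa using hy)]

lemma Hn_trunc_aux (hT : G.IsTree) {h h' : V → ℝ} (R : ℕ) (p z : V) (k : ℕ) (hk : R ≤ k)
    (h1 : ∀ y ∈ Tk G R p z, h' y = h y) (h2 : ∀ y ∈ Tinf G p z, y ∉ Tk G R p z → h' y = 0) :
    Hn G θ h' k p z = Hn G θ h R p z := by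
  induction R generalizing p z k with
  | zero =>
    cases k with
    | zero => exact h1 z (self_mem_Tk _ _ _)
    | succ k =>
      simp only [Hn]
      rw [h1 z (self_mem_Tk _ _ _), Finset.sum_eq_zero, add_zero]
      intro c hc
      rw [Hn_zero_field k z c, uu_zero]
      refine fun y hy => h2 y (Tinf_ch hc hy) ?_
      rw [Tk_zero, Finset.mem_singleton]
      rintro rfl
      exact not_mem_Tinf hT (mem_ch.1 hc).2 hy
  | succ R ih =>
    obtain ⟨k, rfl⟩ : ∃ k', k = k' + 1 := ⟨k - 1, by omega⟩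
    simp only [Hn]
    rw [h1 z (self_mem_Tk _ _ _)]
    congr 1
    refine Finset.sum_congr rfl fun c hc => ?_
    rw [ih z c k (by omega) (fun y hy => h1 y (Tk_ch hc hy))]
    refine fun y hy hy' => h2 y (Tinf_ch hc hy) fun hy'' => ?_
    rcases mem_Tk_succ.1 hy'' with rfl | ⟨c', hc', h3⟩
    · exact not_mem_Tinf hT (mem_ch.1 hc).2 hy
    · rw [← Tinf_disj hT (mem_ch.1 hc).2 (mem_ch.1 hc').2 hy (Tk_sub_Tinf h3)] at h3
      exact hy' h3

/-- truncation -/
lemma Hi_trunc (hT : G.IsTree) {h h' : V → ℝ} (R : ℕ) {p z : V} (hp : p = z ∨ G.Adj z p)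
    (h1 : ∀ y ∈ Tk G R p z, h' y = h y) (h2 : ∀ y, y ∉ Tk G R p z → h' y = 0) :
    Hi G θ h' z z = Hn G θ h R p z := by
  refine slim_of_tendsto (tendsto_atTop_of_eventually_const (i₀ := R + 1) fun k hk => ?_)
  rw [← Hn_trunc_aux hT R p z k (by omega) h1 fun y _ => h2 y]
  rcases hp with rfl | hp
  · rfl
  obtain ⟨k, rfl⟩ : ∃ k', k = k' + 1 := ⟨k - 1, by omega⟩
  simp only [Hn]
  rw [sum_ch_self hp, Hn_zero_field k z p, uu_zero, add_zero]
  exact fun y hy => h2 y fun hy' => Tinf_disj_rev hT hp hy (Tk_sub_Tinf hy')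

section Adm

variable (hθ : Adm θ)
include hθ

lemma abs_Hn_le {d : ℕ} (hreg : G.IsRegularOfDegree d) {h : V → ℝ} {K : ℝ} {z : V} (hK : |h z| ≤ K)
    (k : ℕ) (p : V) : |Hn G θ h k p z| ≤ K + d := by
  cases k with
  | zero => exact hK.trans (by linarith [Nat.cast_nonneg (α := ℝ) d])
  | succ k =>
    refine (abs_add_le _ _).trans (add_le_add hK ((Finset.abs_sum_le_sum_abs _ _).trans ?_))
    refine (Finset.sum_le_card_nsmul _ _ 1 fun c _ => abs_uu_le hθ _).trans ?_
    simpa using card_ch_le hreg p z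

lemma abs_Hi_le {d : ℕ} (hreg : G.IsRegularOfDegree d) {h : V → ℝ} {K : ℝ} {z : V} (hK : |h z| ≤ K)
    (p : V) : |Hi G θ h p z| ≤ K + d := abs_slim_le fun k => abs_Hn_le hθ hreg hK k p

lemma Hi_eq {h : V → ℝ} (hg : Good G θ h) (p z : V) :
    Hi G θ h p z = h z + ∑ c ∈ ch G p z, uu θ (Hi G θ h z c) := by
  refine tendsto_nhds_unique ((tendsto_add_atTop_iff_nat 1).2 (hg p z)) ?_
  exact tendsto_const_nhds.add
    (tendsto_finsetSum _ fun c _ => ((continuous_uu hθ).tendsto _).comp (hg z c))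

lemma Hi_full {h : V → ℝ} (hg : Good G θ h) {z y : V} (hy : G.Adj z y) :
    Hi G θ h z z = Hi G θ h y z + uu θ (Hi G θ h z y) := by
  rw [Hi_eq hθ hg z z, Hi_eq hθ hg y z, sum_ch_self hy, add_assoc]

lemma Wp_pos (h : V → ℝ) (k : ℕ) (z x : V) : 0 < Wp G θ h k z x :=
  Finset.prod_pos fun _ _ => GG_pos hθ _

lemma Wp_le_one (h : V → ℝ) (k : ℕ) (z x : V) : Wp G θ h k z x ≤ 1 :=
  Finset.prod_le_one (fun _ _ => (GG_pos hθ _).le) fun _ _ => GG_le_one hθ _

omit hθ in
lemma Wp_add (h : V → ℝ) (i j : ℕ) (z x : V) :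
    Wp G θ h (i + j) z x = Wp G θ h i z x * Wp G θ h j (geo G z x i) x := by
  simp only [Wp, Finset.prod_range_add, geo_geo, add_assoc]

omit hθ in
lemma Wp_succ (h : V → ℝ) (k : ℕ) (z x : V) :
    Wp G θ h (k + 1) z x = GG θ (Hi G θ h z (nxt G x z)) * Wp G θ h k (nxt G x z) x := by
  rw [add_comm, Wp_add]; simp [Wp, geo]

lemma Wp_le_sub (h : V → ℝ) {i j k : ℕ} (hk : i + j ≤ k) (z x : V) :
    Wp G θ h k z x ≤ Wp G θ h j (geo G z x i) x := by
  obtain ⟨l, rfl⟩ := Nat.exists_eq_add_of_le hk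
  rw [Wp_add, Wp_add]
  have h1 := Wp_pos (G := G) hθ h j (geo G z x i) x
  have h2 := Wp_le_one (G := G) hθ h i z x
  have h3 := Wp_le_one (G := G) hθ h l (geo G z x (i + j)) x
  have h4 := Wp_pos (G := G) hθ h l (geo G z x (i + j)) x
  calc _ ≤ 1 * Wp G θ h j (geo G z x i) x * 1 := by gcongr
    _ = _ := by ring

omit hθ in
lemma ell_nonpos (h : V → ℝ) (v : V) : ell G θ h v ≤ 0 := by
  have h1 : mag G θ h v ^ 2 < 1 := tanh_sq_lt_one _
  have h2 := log_nonpos (x := 1 - mag G θ h v ^ 2) (by linarith)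
    (by nlinarith [sq_nonneg (mag G θ h v)])
  unfold ell; linarith

lemma ge_nonpos (h : V → ℝ) (y y' : V) : ge G θ h y y' ≤ 0 := by
  have h1 := log_nonpos (GG_pos hθ (Hi G θ h y y')).le (GG_le_one hθ _)
  have h2 := log_nonpos (GG_pos hθ (Hi G θ h y' y)).le (GG_le_one hθ _)
  unfold ge; linarith

lemma LL_nonpos (h : V → ℝ) (x v : V) : LL G θ h x v ≤ 0 := by
  have h1 := ell_nonpos (G := G) (θ := θ) h x
  have h2 := ell_nonpos (G := G) (θ := θ) h v
  have h3 : ∑ i ∈ Finset.range (G.dist x v), ge G θ h (geo G x v i) (geo G x v (i + 1)) ≤ 0 :=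
    Finset.sum_nonpos fun _ _ => ge_nonpos hθ _ _ _
  unfold LL; linarith

lemma exp_two_LL_le (hT : G.IsTree) (h : V → ℝ) (x v : V) :
    exp (2 * LL G θ h x v) ≤ Wp G θ h (G.dist x v) x v * Wp G θ h (G.dist x v) v x := by
  have h1 := ell_nonpos (G := G) (θ := θ) h x
  have h2 := ell_nonpos (G := G) (θ := θ) h v
  have e : Wp G θ h (G.dist x v) v x = ∏ i ∈ Finset.range (G.dist x v),
      GG θ (Hi G θ h (geo G x v (i + 1)) (geo G x v i)) := by
    rw [Wp, ← Finset.prod_range_reflect]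
    refine Finset.prod_congr rfl fun i hi => ?_
    have hi := Finset.mem_range.1 hi
    rw [geo_rev hT x v (by omega), geo_rev hT x v (by omega)]
    congr 3 <;> omega
  rw [e, Wp, ← Finset.prod_mul_distrib]
  calc _ ≤ exp (∑ i ∈ Finset.range (G.dist x v), 2 * ge G θ h (geo G x v i) (geo G x v (i + 1))) := by
        rw [← Finset.mul_sum]; unfold LL; gcongr; linarith
    _ = _ := by
        rw [exp_sum]
        refine Finset.prod_congr rfl fun i _ => ?_
        unfold ge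
        rw [mul_div_cancel₀ _ two_ne_zero, exp_add, exp_log (GG_pos hθ _), exp_log (GG_pos hθ _)]

lemma log_GG_eq {h : V → ℝ} (hg : Good G θ h) {y y' : V} (hy : G.Adj y y') :
    log (GG θ (Hi G θ h y y')) = ge G θ h y y' + ell G θ h y' - ell G θ h y := by
  have h1 := two_site_symm hθ (Hi G θ h y' y) (Hi G θ h y y')
  rw [← Hi_full hθ hg hy, ← Hi_full hθ hg hy.symm] at h1
  have h2 := congrArg log h1
  rw [log_mul (by linarith [tanh_sq_lt_one (Hi G θ h y y)]) (GG_pos hθ _).ne',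
    log_mul (by linarith [tanh_sq_lt_one (Hi G θ h y' y')]) (GG_pos hθ _).ne'] at h2
  unfold ge ell mag
  linarith

lemma exp_LL (hT : G.IsTree) {h : V → ℝ} (hg : Good G θ h) (x v : V) :
    exp (LL G θ h x v) = (1 - mag G θ h x ^ 2) * Wp G θ h (G.dist x v) x v := by
  have key : ∀ k ≤ G.dist x v, Wp G θ h k x v = exp (ell G θ h (geo G x v k) - ell G θ h x +
      ∑ i ∈ Finset.range k, ge G θ h (geo G x v i) (geo G x v (i + 1))) := by
    intro k hk
    induction k with
    | zero => simp [Wp, geo_zero]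
    | succ k ih =>
      rw [Wp, Finset.prod_range_succ, ← Wp, ih (by omega), Finset.sum_range_succ,
        ← exp_log (GG_pos hθ _), log_GG_eq hθ hg (adj_geo hT x v hk), ← exp_add]
      congr 1; ring
  have h1 : 1 - mag G θ h x ^ 2 = exp (2 * ell G θ h x) := by
    unfold ell mag
    rw [mul_div_cancel₀ _ two_ne_zero, exp_log (by linarith [tanh_sq_lt_one (Hi G θ h x x)])]
  rw [key _ le_rfl, geo_dist hT, h1, ← exp_add, LL]
  congr 1; ring

/-- the jump formula -/
lemma mag_jump (hT : G.IsTree) {h h' : V → ℝ} (hg : Good G θ h) (hg' : Good G θ h') {x : V} {η : ℝ}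
    (hx : h' x = h x + η) (hne : ∀ y, y ≠ x → h' y = h y) (v : V) :
    mag G θ h' v - mag G θ h v =
      θ ^ G.dist x v * exp (LL G θ h x v) * (tanh η / (1 + mag G θ h x * tanh η)) := by
  have hout : ∀ p z, G.Adj p z → x ∉ Tinf G p z → Hi G θ h' p z = Hi G θ h p z :=
    fun p z _ hx => Hi_congr p z fun y hy => hne y fun h => hx (h ▸ hy)
  have key : ∀ k ≤ G.dist x v, mag G θ h' (geo G x v k) - mag G θ h (geo G x v k) =
      θ ^ k * Wp G θ h k x v * (mag G θ h' x - mag G θ h x) := by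
    intro k hk
    induction k with
    | zero => simp [Wp, geo_zero]
    | succ k ih =>
      have hadj := adj_geo hT x v hk
      have h1 := hout _ _ hadj fun hx' => by
        obtain ⟨l, hl⟩ := hx'
        have := Sph_spec hT hadj hl
        rw [dist_geo' hT x v hk, dist_geo' hT x v (by omega)] at this
        omega
      have ih := ih (by omega)
      rw [Wp, Finset.prod_range_succ, ← Wp]
      unfold mag at ih ⊢
      rw [Hi_full hθ hg hadj.symm, Hi_full hθ hg' hadj.symm, two_site hθ (Hi G θ h _ _),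
        two_site hθ (Hi G θ h' _ _), ← Hi_full hθ hg hadj, ← Hi_full hθ hg' hadj, h1]
      linear_combination θ * GG θ (Hi G θ h (geo G x v k) (geo G x v (k + 1))) * ih
  have h0 : Hi G θ h' x x = Hi G θ h x x + η := by
    rw [Hi_eq hθ hg, Hi_eq hθ hg', hx, Finset.sum_congr rfl fun c hc => by
      rw [hout x c (mem_ch.1 hc).2 (not_mem_Tinf hT (mem_ch.1 hc).2)]]
    ring
  have h2 := key _ le_rfl
  rw [geo_dist hT] at h2
  rw [h2, exp_LL hθ hT hg]
  have h3 : mag G θ h' x - mag G θ h x =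
      (1 - mag G θ h x ^ 2) * (tanh η / (1 + mag G θ h x * tanh η)) := by
    unfold mag
    rw [h0, tanh_add']
    have : |tanh (Hi G θ h x x) * tanh η| < 1 := by
      rw [abs_mul]
      exact mul_lt_one_of_nonneg_of_lt_one_left (abs_nonneg _) (abs_tanh_lt_one _) (abs_tanh_le_one _)
    have h4 : 1 + tanh (Hi G θ h x x) * tanh η ≠ 0 := by linarith [(abs_lt.1 this).1]
    field_simp; ring
  rw [h3]; ring

lemma abs_ge_sub {d : ℕ} (hreg : G.IsRegularOfDegree d) {h h' : V → ℝ} (hg : Good G θ h)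
    (hg' : Good G θ h') {K lam : ℝ} (hK : ∀ v, |h v| ≤ K) (hK' : ∀ v, |h' v| ≤ K) {y y' : V}
    (hy : G.Adj y y') (h1 : |tanh (Hi G θ h y y')| ≤ lam) (h2 : |tanh (Hi G θ h y' y)| ≤ lam)
    (h1' : |tanh (Hi G θ h' y y')| ≤ lam) (h2' : |tanh (Hi G θ h' y' y)| ≤ lam) :
    |ge G θ h y y' - ge G θ h' y y'| ≤ 8 * cosh (K + d) ^ 4 * lam *
      (|mag G θ h y - mag G θ h' y| + |mag G θ h y' - mag G θ h' y'|) := by
  have a1 := abs_log_GG_sub hθ (abs_Hi_le hθ hreg (hK y') y) (abs_Hi_le hθ hreg (hK' y') y) h1 h1'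
  have a2 := abs_log_GG_sub hθ (abs_Hi_le hθ hreg (hK y) y') (abs_Hi_le hθ hreg (hK' y) y') h2 h2'
  have b1 := abs_sub_le_tanh (abs_Hi_le hθ hreg (hK y) y) (abs_Hi_le hθ hreg (hK' y) y)
  have b2 := abs_sub_le_tanh (abs_Hi_le hθ hreg (hK y') y') (abs_Hi_le hθ hreg (hK' y') y')
  have c1 := abs_uu_sub_le hθ (Hi G θ h y y') (Hi G θ h' y y')
  have c2 := abs_uu_sub_le hθ (Hi G θ h y' y) (Hi G θ h' y' y)
  have d1 : |Hi G θ h y' y - Hi G θ h' y' y| ≤ |Hi G θ h y y - Hi G θ h' y y| +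
      |uu θ (Hi G θ h y y') - uu θ (Hi G θ h' y y')| := by
    rw [Hi_full hθ hg hy, Hi_full hθ hg' hy]
    refine le_trans (le_of_eq ?_) (abs_sub _ _)
    congr 1; ring
  have d2 : |Hi G θ h y y' - Hi G θ h' y y'| ≤ |Hi G θ h y' y' - Hi G θ h' y' y'| +
      |uu θ (Hi G θ h y' y) - uu θ (Hi G θ h' y' y)| := by
    rw [Hi_full hθ hg hy.symm, Hi_full hθ hg' hy.symm]
    refine le_trans (le_of_eq ?_) (abs_sub _ _)
    congr 1; ring
  have e1 : |Hi G θ h y y' - Hi G θ h' y y'| + |Hi G θ h y' y - Hi G θ h' y' y| ≤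
      4 * cosh (K + d) ^ 2 * (|mag G θ h y - mag G θ h' y| + |mag G θ h y' - mag G θ h' y'|) := by
    unfold mag; linarith
  have hl : 0 ≤ lam := (abs_nonneg _).trans h1
  have e2 : |ge G θ h y y' - ge G θ h' y y'| ≤ 2 * cosh (K + d) ^ 2 * lam *
      (|Hi G θ h y y' - Hi G θ h' y y'| + |Hi G θ h y' y - Hi G θ h' y' y|) := by
    have : ge G θ h y y' - ge G θ h' y y' =
        ((log (GG θ (Hi G θ h y y')) - log (GG θ (Hi G θ h' y y'))) +
        (log (GG θ (Hi G θ h y' y)) - log (GG θ (Hi G θ h' y' y)))) / 2 := by unfold ge; ring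
    rw [this, abs_div, abs_two]
    linarith [abs_add_le (log (GG θ (Hi G θ h y y')) - log (GG θ (Hi G θ h' y y')))
      (log (GG θ (Hi G θ h y' y)) - log (GG θ (Hi G θ h' y' y)))]
  calc _ ≤ _ := e2
    _ ≤ 2 * cosh (K + d) ^ 2 * lam * (4 * cosh (K + d) ^ 2 *
        (|mag G θ h y - mag G θ h' y| + |mag G θ h y' - mag G θ h' y'|)) := by gcongr
    _ = _ := by ring

lemma abs_ell_sub {d : ℕ} (hreg : G.IsRegularOfDegree d) {h h' : V → ℝ} {K lam : ℝ}
    (hK : ∀ v, |h v| ≤ K) (hK' : ∀ v, |h' v| ≤ K) {y : V} (h1 : |mag G θ h y| ≤ lam)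
    (h1' : |mag G θ h' y| ≤ lam) :
    |ell G θ h y - ell G θ h' y| ≤ cosh (K + d) ^ 2 * lam * |mag G θ h y - mag G θ h' y| := by
  have := abs_log_one_sub_sq (abs_Hi_le hθ hreg (hK y) y) (abs_Hi_le hθ hreg (hK' y) y) h1 h1'
  unfold ell
  rw [← sub_div, abs_div, abs_two]
  unfold mag
  linarith

lemma abs_ge_le {d : ℕ} (hreg : G.IsRegularOfDegree d) {h : V → ℝ} {K : ℝ} (hK : ∀ v, |h v| ≤ K)
    (y y' : V) : |ge G θ h y y'| ≤ 4 * cosh (K + d) ^ 2 * (K + d) := by
  have h1 := abs_log_GG_le hθ (abs_Hi_le hθ hreg (hK y') y)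
  have h2 := abs_log_GG_le hθ (abs_Hi_le hθ hreg (hK y) y')
  unfold ge
  rw [abs_div, abs_two]
  linarith [abs_add_le (log (GG θ (Hi G θ h y y'))) (log (GG θ (Hi G θ h y' y)))]

lemma abs_ell_le {d : ℕ} (hreg : G.IsRegularOfDegree d) {h : V → ℝ} {K : ℝ} (hK : ∀ v, |h v| ≤ K)
    (y : V) : |ell G θ h y| ≤ cosh (K + d) ^ 2 := by
  have hb := abs_Hi_le hθ hreg (hK y) y
  have := abs_log_one_sub_sq hb (b := 0) (lam := 1) (by simpa using (abs_nonneg _).trans hb)
    (abs_tanh_le_one _) (abs_tanh_le_one _)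
  simp only [tanh_zero, sub_zero, mul_one] at this
  norm_num at this
  have h2 := abs_tanh_le_one (Hi G θ h y y)
  unfold ell mag
  rw [abs_div, abs_two]
  nlinarith [sq_nonneg (cosh (K + d))]

end Adm

end Crest.Agent.R160
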