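import Crest.Agent.R160.Space

set_option autoImplicit false

/-!
Observations, the Bayes formula for belief propagation, and the innovation lemma.
-/

namespace Crest.Agent.R160

open Real MeasureTheory Set Filter SimpleGraph Function Topology
open Crest.Agent.R168 (clamp mu0 clamp_nonneg clamp_le_one clamp_of_mem measurable_clamp)

/-- times and observations -/
abbrev Dat (V : Type*) := (V × ℕ → ℝ) × (V × ℕ → ℝ)

variable {V : Type*}

/-- observation times -/
def tau (z : Ix V → ℝ) : V × ℕ → ℝ := fun j => z (.tim j)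

/-- gauge transformed observations -/
noncomputable def gobs (z : Ix V → ℝ) (j : V × ℕ) : ℝ := uinv (eps (z (.tim j))) (z (.noi j))

/-- the observed data -/
noncomputable def data (G : SimpleGraph V) (ρ : V) (z : Ix V → ℝ) : Dat V :=
  (tau z, fun j => spin G ρ z j.1 * gobs z j)

@[fun_prop] lemma measurable_tau : Measurable (tau : (Ix V → ℝ) → V × ℕ → ℝ) := by
  unfold tau; fun_prop

@[fun_prop] lemma measurable_gobs (j : V × ℕ) : Measurable fun z : Ix V → ℝ => gobs z j := by
  unfold gobs; fun_prop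

@[fun_prop] lemma measurable_data (G : SimpleGraph V) (ρ : V) : Measurable (data G ρ) := by
  unfold data; fun_prop

lemma abs_gobs_le (z : Ix V → ℝ) (j : V × ℕ) : |gobs z j| ≤ 1 :=
  abs_uinv_le ((abs_eps_le _).trans (by norm_num)) _

lemma abs_data_le (G : SimpleGraph V) (ρ : V) (z : Ix V → ℝ) (j : V × ℕ) :
    |(data G ρ z).2 j| ≤ 1 := by
  simp only [data, abs_mul, abs_sign (spin_cases z _), one_mul, abs_gobs_le]

lemma BM_eps : BM eps := BM.of measurable_eps _ abs_eps_le

lemma BM_cl : BM cl := BM.of measurable_cl _ abs_cl_le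

lemma BM_tanh : BM tanh := BM.of measurable_tanh _ abs_tanh_le_one

/-- patterns of observations -/
structure Pat (V : Type*) where
  N : ℕ
  a : (V × ℕ → ℝ) → Set (V × ℕ)
  meas : ∀ j, MeasurableSet {τ | j ∈ a τ}
  lt : ∀ τ j, j ∈ a τ → j.2 < N

open Classical in
/-- the external field created by the observations of a pattern -/
noncomputable def Pat.fld (P : Pat V) (d : Dat V) (x : V) : ℝ :=
  ∑ i ∈ Finset.range P.N, if (x, i) ∈ P.a d.1 then eta (d.1 (x, i)) (d.2 (x, i)) else 0

/-- functions of the observations of a pattern at the sites of `A` -/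
def Pat.Adapted (P : Pat V) (A : Set V) (F : Dat V → ℝ) : Prop :=
  ∀ τ u u', (∀ j ∈ P.a τ, j.1 ∈ A → u j = u' j) → F (τ, u) = F (τ, u')

open Classical in
/-- hide the other observations -/
noncomputable def Pat.msk (P : Pat V) (A : Set V) (d : Dat V) : Dat V :=
  (d.1, fun j => if j ∈ P.a d.1 ∧ j.1 ∈ A then d.2 j else 0)

namespace Pat

variable (P : Pat V)

lemma abs_fld_le (d : Dat V) (x : V) : |P.fld d x| ≤ P.N := by
  refine (Finset.abs_sum_le_sum_abs _ _).trans ((Finset.sum_le_card_nsmul _ _ 1 fun i _ => ?_).trans ?_)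
  · split_ifs
    · exact abs_eta_le _ _
    · simp
  · simp

@[fun_prop] lemma measurable_fld : Measurable P.fld := by
  refine measurable_pi_lambda _ fun x => Finset.measurable_sum _ fun i _ => ?_
  exact Measurable.ite (measurable_fst (P.meas (x, i))) (by fun_prop) measurable_const

lemma fld_congr {τ u u' : V × ℕ → ℝ} {x : V} (h : ∀ j ∈ P.a τ, j.1 = x → u j = u' j) :
    P.fld (τ, u) x = P.fld (τ, u') x := by
  refine Finset.sum_congr rfl fun i _ => ?_
  simp only
  split_ifs with hi
  · rw [h _ hi rfl]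
  · rfl

lemma measurable_msk (A : Set V) : Measurable (P.msk A) := by
  refine measurable_fst.prodMk (measurable_pi_lambda _ fun j => ?_)
  refine Measurable.ite ?_ (by fun_prop) measurable_const
  exact (measurable_fst (P.meas j)).inter (MeasurableSet.const _)

variable {P}

lemma Adapted.msk {A : Set V} {F : Dat V → ℝ} (h : P.Adapted A F) (d : Dat V) :
    F (P.msk A d) = F d := h _ _ _ fun j hj hA => by simp [hj, hA]

lemma adapted_msk (A : Set V) (B : Dat V → ℝ) : P.Adapted A fun d => B (P.msk A d) := by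
  intro τ u u' h
  simp only [msk]
  congr 2
  funext j
  split_ifs with hj
  · exact h j hj.1 hj.2
  · rfl

lemma Adapted.mono {A A' : Set V} {F : Dat V → ℝ} (h : P.Adapted A F) (hA : A ⊆ A') :
    P.Adapted A' F := fun τ u u' hu => h τ u u' fun j hj hj' => hu j hj (hA hj')

lemma Adapted.mul {A : Set V} {F F' : Dat V → ℝ} (h : P.Adapted A F) (h' : P.Adapted A F') :
    P.Adapted A fun d => F d * F' d := fun τ u u' hu => by simp only [h τ u u' hu, h' τ u u' hu]

end Pat

variable {G : SimpleGraph V} {ρ : V} {θ : ℝ}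

lemma data_update_noi [DecidableEq V] (z : Ix V → ℝ) (j : V × ℕ) (y : ℝ) :
    data G ρ (update z (.noi j) y) =
      (tau z, update (data G ρ z).2 j (spin G ρ z j.1 * uinv (eps (tau z j)) y)) := by
  simp only [data, spin_update_noi]
  refine Prod.ext (funext fun i => by simp [tau]) (funext fun i => ?_)
  by_cases hi : i = j
  · subst hi; simp [gobs, tau]
  · simp [gobs, hi]

open Classical in
/-- data with some observations replaced by pure noise -/
noncomputable def dataS (G : SimpleGraph V) (ρ : V) (T : Finset (V × ℕ)) (z : Ix V → ℝ) : Dat V :=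
  (tau z, fun j => if j ∈ T then 2 * z (.noi j) - 1 else spin G ρ z j.1 * gobs z j)

open Classical in
/-- likelihood of one observation -/
noncomputable def qq (G : SimpleGraph V) (ρ : V) (P : Pat V) (j : V × ℕ) (z : Ix V → ℝ) : ℝ :=
  if j ∈ P.a (tau z) then 1 + spin G ρ z j.1 * (eps (tau z j) * cl (2 * z (.noi j) - 1)) else 1

lemma measurable_dataS (T : Finset (V × ℕ)) : Measurable (dataS G ρ T) := by
  refine measurable_tau.prodMk (measurable_pi_lambda _ fun j => ?_)
  split_ifs <;> fun_prop

lemma BM_qq (P : Pat V) (j : V × ℕ) : BM (qq G ρ P j) := by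
  classical
  refine BM.ite (measurable_tau (P.meas j)) ?_ (BM.const _)
  exact (BM.const _).add ((BM_spin _).mul ((BM_eps.comp (by fun_prop)).mul
    (BM_cl.comp (by fun_prop))))

lemma change_measure (P : Pat V) {Y : (V → ℝ) → ℝ} (hY : BM fun z => Y (spin G ρ z))
    {F : Dat V → ℝ} (hF : BM F) (hA : P.Adapted univ F) (T : Finset (V × ℕ)) :
    ∫ z, Y (spin G ρ z) * F (data G ρ z) ∂PP V θ =
      ∫ z, Y (spin G ρ z) * (∏ j ∈ T, qq G ρ P j z) * F (dataS G ρ T z) ∂PP V θ := by
  classical
  induction T using Finset.induction_on with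
  | empty => simp [dataS, data]
  | insert j T hj ih =>
    have hb : ∀ T : Finset (V × ℕ),
        BM fun z => Y (spin G ρ z) * (∏ j ∈ T, qq G ρ P j z) * F (dataS G ρ T z) :=
      fun T => (hY.mul (BM.prod _ fun _ _ => BM_qq P _)).mul (hF.comp (measurable_dataS T))
    rw [ih]
    unfold PP
    rw [integral_update _ (.noi j) (hb T), integral_update _ (.noi j) (hb _)]
    refine integral_congr_ae (ae_of_all _ fun z => ?_)
    have ht : ∀ y, tau (update z (.noi j) y) = tau z := fun y => by funext i; simp [tau]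
    have h1 : ∀ y, ∏ i ∈ T, qq G ρ P i (update z (.noi j) y) = ∏ i ∈ T, qq G ρ P i z := by
      refine fun y => Finset.prod_congr rfl fun i hi => ?_
      have : i ≠ j := fun h => hj (h ▸ hi)
      simp [qq, ht, spin_update_noi, this]
    have h2 : ∀ y, dataS G ρ T (update z (.noi j) y) =
        (tau z, update (dataS G ρ T z).2 j (spin G ρ z j.1 * uinv (eps (tau z j)) y)) := by
      intro y
      simp only [dataS, spin_update_noi, ht]
      congr 1
      funext i
      by_cases hi : i = j
      · subst hi; simp [gobs, tau, hj]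
      · simp [gobs, hi]
    have h3 : ∀ y, dataS G ρ (insert j T) (update z (.noi j) y) =
        (tau z, update (dataS G ρ T z).2 j (2 * y - 1)) := by
      intro y
      simp only [dataS, spin_update_noi, ht]
      congr 1
      funext i
      by_cases hi : i = j
      · subst hi; simp
      · simp [gobs, hi]
    simp only [Finset.prod_insert hj, h1, h2, h3, spin_update_noi, mix]
    generalize ∏ i ∈ T, qq G ρ P i z = R
    simp only [qq, ht, update_self, spin_update_noi]
    by_cases ha : j ∈ P.a (tau z)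
    · simp only [ha, if_true]
      rw [integral_const_mul, integral_obs ((abs_eps_le _).trans (by norm_num)) (spin_cases z _)
        (fun v => F (tau z, update (dataS G ρ T z).2 j v)), ← integral_const_mul]
      refine integral_congr_ae ?_
      filter_upwards [ae_mu0] with y hy
      rw [cl_of_abs (abs_le.2 ⟨by linarith [hy.1], by linarith [hy.2]⟩)]
      ring
    · simp only [ha, if_false, one_mul]
      refine integral_congr_ae (ae_of_all _ fun y => ?_)
      simp only
      congr 1
      refine hA _ _ _ fun i hi _ => ?_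
      have : i ≠ j := fun h => ha (h ▸ hi)
      simp [this]

/-- pure noise data -/
def data0 (z : Ix V → ℝ) : Dat V := (tau z, fun j => 2 * z (.noi j) - 1)

open Classical in
lemma bayes_aux (P : Pat V) (S : Finset V) {Y : (V → ℝ) → ℝ} (hY : BM fun z => Y (spin G ρ z))
    {F : Dat V → ℝ} (hF : BM F) (hA : P.Adapted S F) :
    ∫ z, Y (spin G ρ z) * F (data G ρ z) ∂PP V θ =
      ∫ z, (∏ j ∈ S ×ˢ Finset.range P.N, if j ∈ P.a (tau z) then
        (cosh (eta (tau z j) (2 * z (.noi j) - 1)))⁻¹ else 1) * F (data0 z) *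
        ∫ z', Y (spin G ρ z') * ∏ y ∈ S, exp (P.fld (data0 z) y * spin G ρ z' y) ∂PP V θ
        ∂PP V θ := by
  rw [change_measure P hY hF (hA.mono (subset_univ _)) (S ×ˢ Finset.range P.N)]
  unfold PP
  simp only [← integral_const_mul]
  refine integral_piecewise_congr _ {k | k = .root ∨ ∃ e, k = .edge e}
    ((hY.mul (BM.prod _ fun _ _ => BM_qq P _)).mul (hF.comp (measurable_dataS _))) _
    fun z z' w hw hw' => ?_
  have h1 : spin G ρ w = spin G ρ z' :=
    spin_congr (hw _ (Or.inl rfl)) fun e => hw _ (Or.inr ⟨e, rfl⟩)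
  have h2 : tau w = tau z := funext fun j => hw' _ (by simp)
  have h3 : ∀ j, w (.noi j) = z (.noi j) := fun j => hw' _ (by simp)
  have h4 : F (dataS G ρ (S ×ˢ Finset.range P.N) w) = F (data0 z) := by
    simp only [dataS, h2, h3, data0]
    refine hA _ _ _ fun j hj hj' => if_pos ?_
    exact Finset.mem_product.2 ⟨hj', Finset.mem_range.2 (P.lt _ _ hj)⟩
  have h5 : ∏ j ∈ S ×ˢ Finset.range P.N, qq G ρ P j w =
      (∏ j ∈ S ×ˢ Finset.range P.N, if j ∈ P.a (tau z) then
        (cosh (eta (tau z j) (2 * z (.noi j) - 1)))⁻¹ else 1) *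
        ∏ y ∈ S, exp (P.fld (data0 z) y * spin G ρ z' y) := by
    simp only [Pat.fld, Finset.sum_mul, exp_sum]
    rw [Finset.prod_product, Finset.prod_product, ← Finset.prod_mul_distrib]
    refine Finset.prod_congr rfl fun y _ => ?_
    rw [← Finset.prod_mul_distrib]
    refine Finset.prod_congr rfl fun i _ => ?_
    simp only [qq, h1, h2, h3, data0]
    split_ifs
    · rw [← tanh_eta, one_add_sign_tanh (spin_cases z' y), div_eq_inv_mul]
    · simp
  rw [h1, h4, h5]
  ring

variable [DecidableEq V] [G.LocallyFinite]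

section FP

variable {Ω : Type*} [MeasurableSpace Ω] {f : Ω → V → ℝ}

@[fun_prop] lemma measurable_Hn' (hf : Measurable f) (k : ℕ) (p z : V) :
    Measurable fun x => Hn G θ (f x) k p z := (measurable_Hn k p z).comp hf

@[fun_prop] lemma measurable_Hi' (hf : Measurable f) (p z : V) :
    Measurable fun x => Hi G θ (f x) p z := (measurable_Hi p z).comp hf

@[fun_prop] lemma measurable_mag' (hf : Measurable f) (z : V) :
    Measurable fun x => mag G θ (f x) z := (measurable_mag z).comp hf

@[fun_prop] lemma measurable_Wp' (hf : Measurable f) (k : ℕ) (p z : V) :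
    Measurable fun x => Wp G θ (f x) k p z := (measurable_Wp k p z).comp hf

@[fun_prop] lemma measurable_ell' (hf : Measurable f) (z : V) :
    Measurable fun x => ell G θ (f x) z := (measurable_ell z).comp hf

@[fun_prop] lemma measurable_ge' (hf : Measurable f) (p z : V) :
    Measurable fun x => ge G θ (f x) p z := (measurable_ge p z).comp hf

@[fun_prop] lemma measurable_LL' (hf : Measurable f) (p z : V) :
    Measurable fun x => LL G θ (f x) p z := (measurable_LL p z).comp hf

end FP

lemma adapted_Hn (P : Pat V) (k : ℕ) (p x : V) (f : ℝ → ℝ) :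
    P.Adapted (Tk G k p x) fun d => f (Hn G θ (P.fld d) k p x) := fun _ _ _ h => by
  simp only
  rw [Hn_congr k p x fun y hy => P.fld_congr fun j hj hj' => h j hj (by rw [hj']; exact hy)]

lemma BM_tanh_Hn (P : Pat V) (k : ℕ) (p x : V) : BM fun d => tanh (Hn G θ (P.fld d) k p x) :=
  BM_tanh.comp ((measurable_Hn k p x).comp P.measurable_fld)

lemma BM_tanh_Hi (P : Pat V) (p x : V) : BM fun d => tanh (Hi G θ (P.fld d) p x) :=
  BM_tanh.comp ((measurable_Hi p x).comp P.measurable_fld)

lemma BM_mag (P : Pat V) (x : V) : BM fun d => mag G θ (P.fld d) x := BM_tanh_Hi P x x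

variable (hT : G.IsTree) (hθ : Adm θ)
include hT hθ

lemma bayes_fin (P : Pat V) (k : ℕ) (p x : V) {F : Dat V → ℝ} (hF : BM F)
    (hA : P.Adapted (Tk G k p x) F) :
    ∫ z, spin G ρ z x * F (data G ρ z) ∂PP V θ =
      ∫ z, tanh (Hn G θ (P.fld (data G ρ z)) k p x) * F (data G ρ z) ∂PP V θ := by
  rw [bayes_aux P (Tk G k p x) (Y := fun s => s x) (BM_spin x) hF hA]
  have := bayes_aux (G := G) (ρ := ρ) (θ := θ) P (Tk G k p x) (Y := fun _ => 1) (BM.const 1)
    ((BM_tanh_Hn (G := G) (θ := θ) P k p x).mul hF) ((adapted_Hn P k p x tanh).mul hA)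
  simp only [one_mul] at this
  rw [this]
  refine integral_congr_ae (ae_of_all _ fun z => ?_)
  simp only [static_bayes hT hθ]
  ring

omit hT hθ in
variable (G ρ) in
/-- filtration of the observations in growing half trees -/
noncomputable def filt (P : Pat V) (p x : V) :
    Filtration ℕ (inferInstance : MeasurableSpace (Ix V → ℝ)) where
  seq k := MeasurableSpace.comap (fun z => P.msk (Tk G k p x) (data G ρ z)) inferInstance
  mono' m n hmn := by
    have : (fun z => P.msk (Tk G m p x) (data G ρ z)) =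
        P.msk (Tk G m p x) ∘ (fun z => P.msk (Tk G n p x) (data G ρ z)) := by
      funext z
      simp only [Function.comp, Pat.msk]
      congr 1
      funext j
      split_ifs with h1 h2
      · rfl
      · exact absurd ⟨h1.1, Tk_mono hmn p x h1.2⟩ h2
      · rfl
    simp only
    rw [this, ← MeasurableSpace.comap_comp]
    exact MeasurableSpace.comap_mono (P.measurable_msk _).comap_le
  le' k := ((P.measurable_msk _).comp (measurable_data G ρ)).comap_le

lemma tendsto_tanh_Hn (P : Pat V) (p x : V) :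
    ∀ᵐ z ∂PP V θ, Tendsto (fun k => tanh (Hn G θ (P.fld (data G ρ z)) k p x)) atTop
      (𝓝 (((PP V θ)[fun z => spin G ρ z x | ⨆ k, filt G ρ P p x k]) z)) := by
  have h1 : ∀ k, (fun z => tanh (Hn G θ (P.fld (data G ρ z)) k p x)) =ᵐ[PP V θ]
      (PP V θ)[fun z => spin G ρ z x | filt G ρ P p x k] := by
    intro k
    have hI : Measurable fun z => P.msk (Tk G k p x) (data G ρ z) :=
      (P.measurable_msk (Tk G k p x)).comp (measurable_data G ρ)
    refine IsProj.ae_eq_condExp ⟨⟨_, BM_tanh_Hn (G := G) (θ := θ) P k p x, ?_⟩, fun B hB => ?_⟩ hI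
      (BM_spin x)
    · funext z
      exact ((adapted_Hn P k p x tanh).msk _).symm
    · have h2 := hB.comp hI
      have h3 := (BM_tanh_Hn (G := G) (θ := θ) P k p x).comp (measurable_data G ρ)
      have := bayes_fin (ρ := ρ) hT hθ P k p x (hB.comp (P.measurable_msk _)) (Pat.adapted_msk _ B)
      simp only [mul_sub]
      rw [integral_sub (h2.mul (BM_spin x)).integrable (h2.mul h3).integrable, sub_eq_zero]
      simpa only [mul_comm] using this
  filter_upwards [tendsto_ae_condExp (μ := PP V θ) (ℱ := filt G ρ P p x) (fun z => spin G ρ z x),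
    ae_all_iff.2 h1] with z hz hz'
  simpa only [← hz'] using hz

variable {d : ℕ} (hreg : G.IsRegularOfDegree d)
include hreg

lemma ae_good (P : Pat V) : ∀ᵐ z ∂PP V θ, Good G θ (P.fld (data G ρ z)) := by
  have := countable_V hT
  filter_upwards [ae_all_iff.2 fun p => ae_all_iff.2 fun x =>
    tendsto_tanh_Hn (ρ := ρ) hT hθ P p x] with z hz
  refine good_of_tendsto fun p x => cauchySeq_tendsto_of_complete ?_
  have h1 := (hz p x).cauchySeq
  rw [Metric.cauchySeq_iff] at h1 ⊢
  intro ε hε
  have hc : 0 < cosh ((P.N : ℝ) + d) ^ 2 := pow_pos (cosh_pos _) 2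
  obtain ⟨N, hN⟩ := h1 (ε / cosh ((P.N : ℝ) + d) ^ 2) (by positivity)
  refine ⟨N, fun m hm n hn => ?_⟩
  have h2 := hN m hm n hn
  rw [Real.dist_eq] at h2 ⊢
  refine (abs_sub_le_tanh (abs_Hn_le hθ hreg (P.abs_fld_le _ _) _ _)
    (abs_Hn_le hθ hreg (P.abs_fld_le _ _) _ _)).trans_lt ?_
  rwa [lt_div_iff₀' hc] at h2

lemma bayes_inf (P : Pat V) (p x : V) {F : Dat V → ℝ} (hF : BM F) (hA : P.Adapted (Tinf G p x) F) :
    ∫ z, spin G ρ z x * F (data G ρ z) ∂PP V θ =
      ∫ z, tanh (Hi G θ (P.fld (data G ρ z)) p x) * F (data G ρ z) ∂PP V θ := by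
  have hle : (⨆ k, filt G ρ P p x k) ≤ (inferInstance : MeasurableSpace _) :=
    iSup_le fun k => (filt G ρ P p x).le k
  have hk : ∀ k, Measurable[⨆ k, filt G ρ P p x k] fun z => P.msk (Tk G k p x) (data G ρ z) :=
    fun k => (comap_measurable _).mono (le_iSup (fun k => filt G ρ P p x k) k) le_rfl
  have hW : Measurable[⨆ k, filt G ρ P p x k] fun z => P.msk (Tinf G p x) (data G ρ z) := by
    have h0 := measurable_fst.comp (hk 0)
    refine Measurable.prodMk h0 ?_
    refine @measurable_pi_lambda _ _ _ (⨆ k, filt G ρ P p x k) _ _ fun j => ?_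
    by_cases hj : j.1 ∈ Tinf G p x
    · obtain ⟨k, hk'⟩ := mem_Tinf.1 hj
      have := (measurable_pi_apply j).comp (measurable_snd.comp (hk k))
      convert this using 1
      funext z
      by_cases h : j ∈ P.a (data G ρ z).1
      · exact (if_pos ⟨h, hj⟩).trans (if_pos ⟨h, Finset.mem_coe.2 hk'⟩).symm
      · exact (if_neg fun h' => h h'.1).trans (if_neg fun h' => h h'.1).symm
    · simp only [hj, and_false, if_false]
      exact measurable_const
  obtain ⟨C, hC⟩ := hF.2
  have h1 := orth_condExp (μ := PP V θ) hle (BM_spin (G := G) (ρ := ρ) x) (hF.1.comp hW) C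
    fun z => hC _
  simp only [Function.comp, hA.msk] at h1
  simp only [mul_comm _ (F _)]
  refine h1.trans (integral_congr_ae ?_)
  filter_upwards [tendsto_tanh_Hn (ρ := ρ) hT hθ P p x, ae_good (ρ := ρ) hT hθ hreg P] with z h2 h3
  rw [tendsto_nhds_unique h2 ((continuous_tanh.tendsto _).comp (h3 p x))]

lemma bayes (P : Pat V) (x : V) {F : Dat V → ℝ} (hF : BM F) (hA : P.Adapted univ F) :
    ∫ z, spin G ρ z x * F (data G ρ z) ∂PP V θ =
      ∫ z, mag G θ (P.fld (data G ρ z)) x * F (data G ρ z) ∂PP V θ :=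
  bayes_inf hT hθ hreg P x x hF (hA.mono fun y _ => mem_Tinf_self hT x y)

omit hT hθ hreg [DecidableEq V] in
lemma adapted_fld (P : Pat V) (f : (V → ℝ) → ℝ) : P.Adapted univ fun d => f (P.fld d) :=
  fun _ _ _ h => by
    simp only
    congr 1
    funext y
    exact P.fld_congr fun j hj _ => h j hj trivial

/-- the innovation lemma -/
lemma innovation (P : Pat V) (j : V × ℕ) (hj : ∀ τ, j ∉ P.a τ) {F : Dat V × ℝ → ℝ} (hF : BM F)
    (hA : ∀ y, P.Adapted univ fun d => F (d, y)) :
    ∫ z, F (data G ρ z, cdf (eps (tau z j) * mag G θ (P.fld (data G ρ z)) j.1)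
        (cl ((data G ρ z).2 j))) ∂PP V θ =
      ∫ z, ∫ y, F (data G ρ z, y) ∂mu0 ∂PP V θ := by
  obtain ⟨W, hWd⟩ : ∃ W : Dat V × ℝ → ℝ, ∀ d y, W (d, y) =
      F (d, cdf (eps (d.1 j) * mag G θ (P.fld d) j.1) (cl (2 * y - 1))) :=
    ⟨fun q => F (q.1, cdf (eps (q.1.1 j) * mag G θ (P.fld q.1) j.1) (cl (2 * q.2 - 1))),
      fun _ _ => rfl⟩
  obtain ⟨W', hWd'⟩ : ∃ W' : Dat V × ℝ → ℝ, ∀ d y, W' (d, y) =
      eps (d.1 j) * cl (2 * y - 1) * W (d, y) :=
    ⟨fun q => eps (q.1.1 j) * cl (2 * q.2 - 1) * W q, fun _ _ => rfl⟩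
  have hW : BM W := by
    rw [show W = fun q => F (q.1, cdf (eps (q.1.1 j) * mag G θ (P.fld q.1) j.1) (cl (2 * q.2 - 1)))
      from funext fun q => hWd q.1 q.2]
    exact hF.comp (by fun_prop)
  have hW' : BM W' := by
    rw [show W' = fun q => eps (q.1.1 j) * cl (2 * q.2 - 1) * W q from funext fun q => hWd' q.1 q.2]
    exact ((BM_eps.comp (by fun_prop)).mul (BM_cl.comp (by fun_prop))).mul hW
  have hA1 : ∀ y τ u u', (∀ j ∈ P.a τ, j.1 ∈ (univ : Set V) → u j = u' j) →
      W ((τ, u), y) = W ((τ, u'), y) := fun y τ u u' h => by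
    have h1 : mag G θ (P.fld (τ, u)) j.1 = mag G θ (P.fld (τ, u')) j.1 :=
      adapted_fld P (fun h => mag G θ h j.1) τ u u' h
    rw [hWd, hWd, h1]
    exact hA _ τ u u' h
  have hA2 : P.Adapted univ fun d => ∫ y, W' (d, y) ∂mu0 :=
    fun τ u u' h => by simp only [hWd', hA1 _ τ u u' h]
  have hb := bayes (ρ := ρ) hT hθ hreg P j.1 (hW'.integral_right mu0) hA2
  have hI1 := (hW.integral_right mu0).comp (measurable_data G ρ)
  have hI2 := (hW'.integral_right mu0).comp (measurable_data G ρ)
  have hM := (BM_mag (G := G) (θ := θ) P j.1).comp (measurable_data G ρ)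
  have hadd : ∀ (d : Dat V) (c : ℝ), ∫ y, W (d, y) ∂mu0 + c * ∫ y, W' (d, y) ∂mu0 =
      ∫ y, (1 + c * (eps (d.1 j) * (2 * y - 1))) *
        F (d, cdf (eps (d.1 j) * mag G θ (P.fld d) j.1) (cl (2 * y - 1))) ∂mu0 := by
    intro d c
    have i1 : Integrable (fun y => W (d, y)) mu0 := (hW.comp measurable_prodMk_left).integrable
    have i2 : Integrable (fun y => c * W' (d, y)) mu0 :=
      (hW'.comp measurable_prodMk_left).integrable.const_mul _
    rw [← integral_const_mul, ← integral_add i1 i2]
    refine integral_congr_ae ?_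
    filter_upwards [ae_mu0] with y hy
    rw [hWd', hWd, cl_of_abs (abs_le.2 ⟨by linarith [hy.1], by linarith [hy.2]⟩)]
    ring
  have e1 : ∫ z, F (data G ρ z, cdf (eps (tau z j) * mag G θ (P.fld (data G ρ z)) j.1)
        (cl ((data G ρ z).2 j))) ∂PP V θ = ∫ z, (∫ y, W (data G ρ z, y) ∂mu0 + spin G ρ z j.1 *
          ∫ y, W' (data G ρ z, y) ∂mu0) ∂PP V θ := by
    unfold PP
    rw [integral_update _ (.noi j) (hF.comp (by fun_prop))]
    refine integral_congr_ae (ae_of_all _ fun z => ?_)
    have ht : ∀ y, tau (update z (.noi j) y) = tau z := fun y => by funext i; simp [tau]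
    have hu : ∀ v, ∀ i ∈ P.a (tau z), i.1 ∈ (univ : Set V) →
        update (data G ρ z).2 j v i = (data G ρ z).2 i :=
      fun v i hi _ => update_of_ne (by rintro rfl; exact hj _ hi) _ _
    have h1 : ∀ v y, F ((tau z, update (data G ρ z).2 j v), y) = F (data G ρ z, y) :=
      fun v y => hA y _ _ _ (hu v)
    have h2 : ∀ v, mag G θ (P.fld (tau z, update (data G ρ z).2 j v)) j.1 =
        mag G θ (P.fld (data G ρ z)) j.1 :=
      fun v => adapted_fld P (fun h => mag G θ h j.1) _ _ _ (hu v)
    simp only [data_update_noi, ht, h1, h2, update_self, mix]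
    rw [integral_obs ((abs_eps_le _).trans (by norm_num)) (spin_cases z _)
      (fun v => F (data G ρ z, cdf (eps (tau z j) * mag G θ (P.fld (data G ρ z)) j.1) (cl v))),
      hadd]
    rfl
  rw [e1, integral_add hI1.integrable ((BM_spin _).mul hI2).integrable, hb,
    ← integral_add hI1.integrable (hM.mul hI2).integrable]
  refine integral_congr_ae (ae_of_all _ fun z => ?_)
  simp only
  have ha := (abs_em (eps_nonneg ((data G ρ z).1 j)) (eps_le _)
    (abs_mag_le (G := G) (θ := θ) (P.fld (data G ρ z)) j.1)).trans (by norm_num : (1 / 4 : ℝ) ≤ 1 / 2)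
  rw [← integral_cdf ha (fun y => F (data G ρ z, y)), hadd]
  refine integral_congr_ae ?_
  filter_upwards [ae_mu0] with y hy
  rw [cl_of_abs (abs_le.2 ⟨by linarith [hy.1], by linarith [hy.2]⟩)]
  ring

end Crest.Agent.R160
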