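import Crest.Agent.R160.Anal

set_option autoImplicit false

/-!
The observation channel, its distribution function and the inverse.
-/

namespace Crest.Agent.R160

open Real MeasureTheory Set Filter
open Crest.Agent.R168 (clamp mu0 clamp_nonneg clamp_le_one clamp_of_mem measurable_clamp
  integrable_of_bdd)

/-- strength of an observation made at time `τ` -/
noncomputable def eps (τ : ℝ) : ℝ := clamp τ ^ 31 * (1 - clamp τ)

/-- clamp to `[-1,1]` -/
noncomputable def cl (u : ℝ) : ℝ := max (-1) (min 1 u)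

/-- log-likelihood of one observation -/
noncomputable def eta (τ u : ℝ) : ℝ := artanh (eps τ * cl u)

/-- distribution function of the density `(1 + a u)/2` on `[-1,1]` -/
noncomputable def cdf (a u : ℝ) : ℝ := (u + 1) / 2 + a * (u ^ 2 - 1) / 4

/-- its inverse -/
noncomputable def uinv (a w : ℝ) : ℝ :=
  4 * clamp w / ((1 - a) + √((1 - a) ^ 2 + 4 * a * clamp w)) - 1

/-- normalised jump -/
noncomputable def Phi (e m U : ℝ) : ℝ := e * uinv (e * m) U / (1 + e * m * uinv (e * m) U)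

@[fun_prop] lemma measurable_eps : Measurable eps := by unfold eps; fun_prop

@[fun_prop] lemma measurable_cl : Measurable cl := by unfold cl; fun_prop

@[fun_prop] lemma measurable_eta {Ω : Type*} [MeasurableSpace Ω] {f g : Ω → ℝ} (hf : Measurable f)
    (hg : Measurable g) : Measurable fun x => eta (f x) (g x) := by unfold eta; fun_prop

@[fun_prop] lemma measurable_cdf {Ω : Type*} [MeasurableSpace Ω] {f g : Ω → ℝ} (hf : Measurable f)
    (hg : Measurable g) : Measurable fun x => cdf (f x) (g x) := by unfold cdf; fun_prop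

@[fun_prop] lemma measurable_uinv {Ω : Type*} [MeasurableSpace Ω] {f g : Ω → ℝ} (hf : Measurable f)
    (hg : Measurable g) : Measurable fun x => uinv (f x) (g x) := by unfold uinv; fun_prop

@[fun_prop] lemma measurable_Phi {Ω : Type*} [MeasurableSpace Ω] {f g h : Ω → ℝ} (hf : Measurable f)
    (hg : Measurable g) (hh : Measurable h) : Measurable fun x => Phi (f x) (g x) (h x) := by
  unfold Phi; fun_prop

lemma eps_nonneg (τ : ℝ) : 0 ≤ eps τ :=
  mul_nonneg (pow_nonneg (clamp_nonneg τ) _) (sub_nonneg.2 (clamp_le_one τ))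

lemma eps_le (τ : ℝ) : eps τ ≤ 1 / 4 := by
  have h0 := clamp_nonneg τ
  have h1 := clamp_le_one τ
  have h2 : clamp τ ^ 31 ≤ clamp τ := pow_le_of_le_one h0 h1 (by norm_num)
  unfold eps
  nlinarith [sq_nonneg (clamp τ - 1 / 2)]

lemma abs_eps_le (τ : ℝ) : |eps τ| ≤ 1 / 4 := by rw [abs_of_nonneg (eps_nonneg τ)]; exact eps_le τ

lemma eps_of_one_le {τ : ℝ} (h : 1 ≤ τ) : eps τ = 0 := by
  simp [eps, clamp, min_eq_left h]

lemma eps_of_neg {τ : ℝ} (h : τ ≤ 0) : eps τ = 0 := by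
  have : clamp τ = 0 := by unfold clamp; exact max_eq_left ((min_le_right _ _).trans h)
  simp [eps, this]

lemma eps_le_pow {τ s : ℝ} (hs : 0 ≤ s) (h : τ ≤ s) : eps τ ≤ s ^ 31 := by
  have h0 := clamp_nonneg τ
  have h1 := clamp_le_one τ
  have h2 : clamp τ ≤ s := max_le hs ((min_le_right _ _).trans h)
  unfold eps
  calc _ ≤ s ^ 31 * 1 := by gcongr; linarith
    _ = _ := mul_one _

lemma abs_cl_le (u : ℝ) : |cl u| ≤ 1 :=
  abs_le.2 ⟨le_max_left _ _, max_le (by norm_num) (min_le_left _ _)⟩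

lemma cl_of_abs {u : ℝ} (h : |u| ≤ 1) : cl u = u := by
  unfold cl; rw [min_eq_right (abs_le.1 h).2, max_eq_right (abs_le.1 h).1]

lemma cl_sign {s : ℝ} (hs : s = 1 ∨ s = -1) (u : ℝ) : cl (s * u) = s * cl u := by
  rcases hs with rfl | rfl
  · simp
  · unfold cl
    simp only [neg_mul, one_mul, max_def, min_def]
    split_ifs <;> linarith

lemma abs_eps_cl (τ u : ℝ) : |eps τ * cl u| ≤ 1 / 4 := by
  rw [abs_mul]
  simpa using mul_le_mul (abs_eps_le τ) (abs_cl_le u) (abs_nonneg _) (by norm_num)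

lemma tanh_eta (τ u : ℝ) : tanh (eta τ u) = eps τ * cl u := by
  have := abs_le.1 (abs_eps_cl τ u)
  exact tanh_artanh ⟨by linarith [this.1], by linarith [this.2]⟩

lemma abs_eta_le (τ u : ℝ) : |eta τ u| ≤ 1 := abs_artanh_le ((abs_eps_cl τ u).trans (by norm_num))

lemma eta_sign {s : ℝ} (hs : s = 1 ∨ s = -1) (τ u : ℝ) : eta τ (s * u) = s * eta τ u := by
  unfold eta; rw [cl_sign hs, ← artanh_sign hs]; congr 1; ring

lemma eta_of_eps {τ : ℝ} (h : eps τ = 0) (u : ℝ) : eta τ u = 0 := by simp [eta, h]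

lemma one_add_sign_tanh {s : ℝ} (hs : s = 1 ∨ s = -1) (a : ℝ) :
    1 + s * tanh a = exp (a * s) / cosh a := by
  have := cosh_pos a
  rw [tanh_eq_sinh_div_cosh]
  rcases hs with rfl | rfl
  · field_simp; simp
  · field_simp; simp [← cosh_sub_sinh]; ring

section Inv

variable {a : ℝ} (ha : |a| ≤ 1 / 2)
include ha

lemma rad_nonneg (w : ℝ) : 0 ≤ (1 - a) ^ 2 + 4 * a * clamp w := by
  have h0 := clamp_nonneg w
  have h1 := clamp_le_one w
  obtain ⟨h2, h3⟩ := abs_le.1 ha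
  nlinarith [sq_nonneg (1 - a), sq_nonneg (1 + a)]

lemma uinv_spec (w : ℝ) : |uinv a w| ≤ 1 ∧ cdf a (uinv a w) = clamp w := by
  have h0 := clamp_nonneg w
  have h1 := clamp_le_one w
  obtain ⟨h2, h3⟩ := abs_le.1 ha
  have hr := rad_nonneg ha w
  set R := √((1 - a) ^ 2 + 4 * a * clamp w) with hR
  have hR0 : 0 ≤ R := sqrt_nonneg _
  have hR2 : R ^ 2 = (1 - a) ^ 2 + 4 * a * clamp w := sq_sqrt hr
  have hD : 0 < (1 - a) + R := by linarith
  have hle : 2 * clamp w - (1 - a) ≤ R := by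
    apply le_sqrt_of_sq_le
    nlinarith
  unfold uinv
  rw [← hR]
  refine ⟨abs_le.2 ⟨?_, ?_⟩, ?_⟩
  · have : 0 ≤ 4 * clamp w / ((1 - a) + R) := by positivity
    linarith
  · have : 4 * clamp w / ((1 - a) + R) ≤ 2 := by rw [div_le_iff₀ hD]; linarith
    linarith
  · unfold cdf
    obtain ⟨D, hDD⟩ : ∃ D, D = (1 - a) + R := ⟨_, rfl⟩
    rw [← hDD] at hD ⊢
    have hD2 : D ^ 2 = 2 * (1 - a) * D + 4 * a * clamp w := by rw [hDD]; nlinarith
    have e : ∀ v : ℝ, v * D = 4 * clamp w →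
        (v - 1 + 1) / 2 + a * ((v - 1) ^ 2 - 1) / 4 = clamp w := by
      intro v hv
      have : ((v - 1 + 1) / 2 + a * ((v - 1) ^ 2 - 1) / 4 - clamp w) * D ^ 2 = 0 := by
        linear_combination ((1 - a) * D / 2 + a * (v * D + 4 * clamp w) / 4) * hv - clamp w * hD2
      exact sub_eq_zero.1 ((mul_eq_zero.1 this).resolve_right (by positivity))
    exact e _ (div_mul_cancel₀ _ hD.ne')

lemma abs_uinv_le (w : ℝ) : |uinv a w| ≤ 1 := (uinv_spec ha w).1

lemma cdf_inj {u u' : ℝ} (hu : |u| ≤ 1) (hu' : |u'| ≤ 1) (h : cdf a u = cdf a u') : u = u' := by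
  have e : cdf a u - cdf a u' = (u - u') * (1 / 2 + a * (u + u') / 4) := by unfold cdf; ring
  have h1 : |a * (u + u')| ≤ 1 / 2 * 2 := by
    rw [abs_mul]; gcongr; exact (abs_add_le _ _).trans (by linarith)
  have h2 : 1 / 2 + a * (u + u') / 4 ≠ 0 := by linarith [(abs_le.1 h1).1]
  rw [h, sub_self] at e
  exact sub_eq_zero.1 ((mul_eq_zero.1 e.symm).resolve_right h2)

lemma cdf_mem {u : ℝ} (hu : |u| ≤ 1) : 0 ≤ cdf a u ∧ cdf a u ≤ 1 := by
  obtain ⟨h2, h3⟩ := abs_le.1 ha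
  obtain ⟨h4, h5⟩ := abs_le.1 hu
  have e1 : cdf a u = (u + 1) * (2 + a * (u - 1)) / 4 := by unfold cdf; ring
  have e2 : 1 - cdf a u = (1 - u) * (2 + a * (u + 1)) / 4 := by unfold cdf; ring
  constructor
  · rw [e1]; apply div_nonneg (mul_nonneg (by linarith) (by nlinarith)) (by norm_num)
  · have : 0 ≤ 1 - cdf a u := by
      rw [e2]; apply div_nonneg (mul_nonneg (by linarith) (by nlinarith)) (by norm_num)
    linarith

lemma uinv_cdf {u : ℝ} (hu : |u| ≤ 1) : uinv a (cdf a u) = u := by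
  refine cdf_inj ha (abs_uinv_le ha _) hu ?_
  rw [(uinv_spec ha _).2, clamp_of_mem (cdf_mem ha hu).1 (cdf_mem ha hu).2]

lemma abs_uinv_sub {a' : ℝ} (ha' : |a'| ≤ 1 / 2) (w : ℝ) : |uinv a w - uinv a' w| ≤ |a - a'| := by
  obtain ⟨h1, h2⟩ := uinv_spec ha w
  obtain ⟨h1', h2'⟩ := uinv_spec ha' w
  set u := uinv a w
  set u' := uinv a' w
  have e : (u - u') * (1 / 2 + a * (u + u') / 4) = (a - a') * ((1 - u' ^ 2) / 4) := by
    have : cdf a u = cdf a' u' := h2.trans h2'.symm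
    unfold cdf at this
    linarith
  have h3 : |a * (u + u')| ≤ 1 / 2 * 2 := by
    rw [abs_mul]; gcongr; exact (abs_add_le _ _).trans (by linarith)
  have h4 : 1 / 4 ≤ 1 / 2 + a * (u + u') / 4 := by linarith [(abs_le.1 h3).1]
  have h5 : u' ^ 2 ≤ 1 := by rw [← sq_abs]; exact pow_le_one₀ (abs_nonneg _) h1'
  have h6 := congrArg abs e
  rw [abs_mul, abs_mul, abs_of_nonneg (by linarith : 0 ≤ 1 / 2 + a * (u + u') / 4),
    abs_of_nonneg (by linarith : 0 ≤ (1 - u' ^ 2) / 4)] at h6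
  nlinarith [abs_nonneg (u - u'), abs_nonneg (a - a'), sq_nonneg u']

lemma integral_cdf (f : ℝ → ℝ) :
    ∫ y, (1 + a * (2 * y - 1)) * f (cdf a (2 * y - 1)) ∂mu0 = ∫ u, f u ∂mu0 := by
  obtain ⟨h2, h3⟩ := abs_le.1 ha
  let F : ℝ → ℝ := fun y => cdf a (2 * y - 1)
  have hF : ∀ y, HasDerivAt F (1 + a * (2 * y - 1)) y := by
    intro y
    have h1 := ((hasDerivAt_id y).const_mul 2).sub_const 1
    have := ((h1.add_const 1).div_const 2).add ((((h1.pow 2).sub_const 1).const_mul a).div_const 4)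
    refine HasDerivAt.congr_deriv (this.congr_of_eventuallyEq (Eventually.of_forall fun x => ?_)) ?_
    · simp [F, cdf]
    · simp; ring
  have habs : ∀ y ∈ Icc (0 : ℝ) 1, |2 * y - 1| ≤ 1 := fun y hy =>
    abs_le.2 ⟨by linarith [hy.1], by linarith [hy.2]⟩
  have hmono : MonotoneOn F (Icc 0 1) := by
    intro x hx y hy hxy
    have : F y - F x = (y - x) * (1 + a * (x + y - 1)) := by simp only [F, cdf]; ring
    have h4 : 0 ≤ (y - x) * (1 + a * (x + y - 1)) :=
      mul_nonneg (by linarith) (by nlinarith [hx.1, hx.2, hy.1, hy.2])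
    linarith
  have hinj : InjOn F (Icc 0 1) := fun x hx y hy h => by
    have := cdf_inj ha (habs x hx) (habs y hy) h
    linarith
  have himg : F '' Icc 0 1 = Icc 0 1 := by
    rw [ContinuousOn.image_Icc_of_monotoneOn zero_le_one
      (fun y _ => (hF y).continuousAt.continuousWithinAt) hmono]
    simp [F, cdf]; norm_num
  have := integral_image_eq_integral_abs_deriv_smul (s := Icc 0 1) measurableSet_Icc
    (fun y _ => (hF y).hasDerivWithinAt) hinj f
  rw [himg] at this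
  unfold mu0
  rw [this]
  refine setIntegral_congr_fun measurableSet_Icc fun y hy => ?_
  have hpos : 0 ≤ 1 + a * (2 * y - 1) := by nlinarith [hy.1, hy.2]
  simp only [F, smul_eq_mul, abs_of_nonneg hpos]

end Inv

lemma ae_mu0 : ∀ᵐ y ∂mu0, y ∈ Icc (0 : ℝ) 1 := ae_restrict_mem measurableSet_Icc

lemma integral_reflect (f : ℝ → ℝ) : ∫ y, f (1 - y) ∂mu0 = ∫ y, f y ∂mu0 := by
  unfold mu0
  rw [integral_Icc_eq_integral_Ioc, integral_Icc_eq_integral_Ioc,
    ← intervalIntegral.integral_of_le zero_le_one, ← intervalIntegral.integral_of_le zero_le_one,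
    intervalIntegral.integral_comp_sub_left]
  simp

lemma integral_obs {a : ℝ} (ha : |a| ≤ 1 / 2) {s : ℝ} (hs : s = 1 ∨ s = -1) (f : ℝ → ℝ) :
    ∫ w, f (s * uinv a w) ∂mu0 = ∫ y, (1 + s * (a * (2 * y - 1))) * f (2 * y - 1) ∂mu0 := by
  rw [← integral_cdf ha]
  have : ∫ y, (1 + a * (2 * y - 1)) * f (s * uinv a (cdf a (2 * y - 1))) ∂mu0 =
      ∫ y, (1 + a * (2 * y - 1)) * f (s * (2 * y - 1)) ∂mu0 := by
    refine integral_congr_ae ?_
    filter_upwards [ae_mu0] with y hy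
    rw [uinv_cdf ha (abs_le.2 ⟨by linarith [hy.1], by linarith [hy.2]⟩)]
  rw [this]
  rcases hs with rfl | rfl
  · simp
  · rw [← integral_reflect]
    refine integral_congr_ae (ae_of_all _ fun y => ?_)
    simp only
    congr 1
    · ring
    · congr 1; ring

lemma integral_pow_mu0 (n : ℕ) : ∫ y, (2 * y - 1) ^ n ∂mu0 = (1 - (-1) ^ (n + 1)) / (2 * (n + 1)) := by
  unfold mu0
  rw [integral_Icc_eq_integral_Ioc, ← intervalIntegral.integral_of_le zero_le_one]
  have := intervalIntegral.integral_comp_mul_sub (a := 0) (b := 1) (fun x : ℝ => x ^ n)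
    (c := 2) two_ne_zero 1
  rw [this, integral_pow]
  norm_num
  field_simp

lemma integrable_pow_mu0 (n : ℕ) : Integrable (fun y : ℝ => (2 * y - 1) ^ n) mu0 :=
  (by fun_prop : Continuous fun y : ℝ => (2 * y - 1) ^ n).integrableOn_Icc

lemma integral_uinv {a : ℝ} (ha : |a| ≤ 1 / 2) : ∫ w, uinv a w ∂mu0 = a / 3 := by
  have := integral_obs ha (s := 1) (Or.inl rfl) id
  simp only [id, one_mul] at this
  rw [this]
  have e : ∀ y : ℝ, (1 + a * (2 * y - 1)) * (2 * y - 1) = (2 * y - 1) ^ 1 + a * (2 * y - 1) ^ 2 :=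
    fun y => by ring
  simp only [e]
  rw [integral_add (integrable_pow_mu0 1) ((integrable_pow_mu0 2).const_mul a), integral_const_mul,
    integral_pow_mu0, integral_pow_mu0]
  norm_num; ring

lemma integral_uinv_sq {a : ℝ} (ha : |a| ≤ 1 / 2) : ∫ w, uinv a w ^ 2 ∂mu0 = 1 / 3 := by
  have := integral_obs ha (s := 1) (Or.inl rfl) (fun x => x ^ 2)
  simp only [one_mul] at this
  rw [this]
  have e : ∀ y : ℝ, (1 + a * (2 * y - 1)) * (2 * y - 1) ^ 2 =
      (2 * y - 1) ^ 2 + a * (2 * y - 1) ^ 3 := fun y => by ring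
  simp only [e]
  rw [integral_add (integrable_pow_mu0 2) ((integrable_pow_mu0 3).const_mul a), integral_const_mul,
    integral_pow_mu0, integral_pow_mu0]
  norm_num

section Phi

variable {e m : ℝ} (he0 : 0 ≤ e) (he : e ≤ 1 / 4) (hm : |m| ≤ 1)
include he0 he hm

lemma abs_em : |e * m| ≤ 1 / 4 := by
  rw [abs_mul, abs_of_nonneg he0]; nlinarith [abs_nonneg m]

lemma den_Phi {u : ℝ} (hu : |u| ≤ 1) : 3 / 4 ≤ 1 + e * m * u := by
  have : |e * m * u| ≤ 1 / 4 * 1 := by rw [abs_mul]; gcongr; exact abs_em he0 he hm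
  linarith [(abs_le.1 this).1]

lemma Phi_cdf {u : ℝ} (hu : |u| ≤ 1) : Phi e m (cdf (e * m) u) = e * u / (1 + e * m * u) := by
  unfold Phi; rw [uinv_cdf ((abs_em he0 he hm).trans (by norm_num)) hu]

lemma abs_Phi_le (U : ℝ) : |Phi e m U| ≤ 2 * e := by
  have h1 := abs_uinv_le ((abs_em he0 he hm).trans (by norm_num : (1 / 4 : ℝ) ≤ 1 / 2)) U
  have h2 := den_Phi he0 he hm h1
  unfold Phi
  rw [abs_div, abs_mul, abs_of_nonneg he0, abs_of_pos (by linarith : 0 < 1 + e * m * uinv (e * m) U),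
    div_le_iff₀ (by linarith)]
  nlinarith [abs_nonneg (uinv (e * m) U)]

lemma integral_Phi : ∫ U, Phi e m U ∂mu0 = 0 := by
  rw [← integral_cdf ((abs_em he0 he hm).trans (by norm_num : (1 / 4 : ℝ) ≤ 1 / 2))]
  have : ∫ y, (1 + e * m * (2 * y - 1)) * Phi e m (cdf (e * m) (2 * y - 1)) ∂mu0 =
      ∫ y, e * (2 * y - 1) ^ 1 ∂mu0 := by
    refine integral_congr_ae ?_
    filter_upwards [ae_mu0] with y hy
    have hu : |2 * y - 1| ≤ 1 := abs_le.2 ⟨by linarith [hy.1], by linarith [hy.2]⟩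
    have := den_Phi he0 he hm hu
    rw [Phi_cdf he0 he hm hu]
    field_simp
  rw [this, integral_const_mul, integral_pow_mu0]
  norm_num

lemma abs_Phi_sub {m' : ℝ} (hm' : |m'| ≤ 1) (U : ℝ) :
    |Phi e m U - Phi e m' U| ≤ e * |m - m'| := by
  have ha := (abs_em he0 he hm).trans (by norm_num : (1 / 4 : ℝ) ≤ 1 / 2)
  have ha' := (abs_em he0 he hm').trans (by norm_num : (1 / 4 : ℝ) ≤ 1 / 2)
  have h1 := abs_uinv_le ha U
  have h1' := abs_uinv_le ha' U
  have h2 := den_Phi he0 he hm h1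
  have h2' := den_Phi he0 he hm' h1'
  have h3 := abs_uinv_sub ha ha' U
  unfold Phi
  set u := uinv (e * m) U
  set u' := uinv (e * m') U
  rw [← mul_sub, abs_mul, abs_of_nonneg he0] at h3
  have e1 : e * u / (1 + e * m * u) - e * u' / (1 + e * m' * u') =
      e * ((u - u') - u * u' * (e * (m - m'))) / ((1 + e * m * u) * (1 + e * m' * u')) := by
    rw [div_sub_div _ _ (by linarith) (by linarith)]; congr 1; ring
  have h4 : |(u - u') - u * u' * (e * (m - m'))| ≤ 2 * e * |m - m'| := by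
    refine (abs_sub _ _).trans ?_
    rw [abs_mul, abs_mul, abs_mul, abs_of_nonneg he0]
    have : |u| * |u'| ≤ 1 * 1 := by gcongr
    nlinarith [mul_nonneg he0 (abs_nonneg (m - m'))]
  have h5 : 9 / 16 ≤ (1 + e * m * u) * (1 + e * m' * u') := by nlinarith
  rw [e1, abs_div, abs_mul, abs_of_nonneg he0, abs_of_pos (by linarith :
    0 < (1 + e * m * u) * (1 + e * m' * u')), div_le_iff₀ (by linarith)]
  have h6 := mul_nonneg he0 (abs_nonneg (m - m'))
  calc _ ≤ e * (2 * e * |m - m'|) := by gcongr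
    _ = e * |m - m'| * (2 * e) := by ring
    _ ≤ _ := mul_le_mul_of_nonneg_left (by linarith) h6

end Phi

end Crest.Agent.R160
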