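import Crest.Agent.R160.Proxy

set_option autoImplicit false
set_option maxHeartbeats 400000

/-!
The static estimate for the error of the projected covariances.
-/

namespace Crest.Agent.R160

open Real MeasureTheory Set Filter SimpleGraph Function Topology

lemma young_aux {a b D η : ℝ} (ha : 0 ≤ a) (haD : a ≤ D) (hb : 0 ≤ b) (h0 : 0 < η) (h1 : η ≤ 1) :
    a * b ≤ 2 * -log η * a + 2 * D * η * exp b := by
  have hl := log_nonpos h0.le h1
  have hD : 0 ≤ D := ha.trans haD
  rcases le_or_gt b (2 * -log η) with h | h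
  · have : 0 ≤ 2 * D * η * exp b := by positivity
    nlinarith
  · have h2 : 1 ≤ η * exp (b / 2) := by
      rw [← exp_log h0, ← exp_add]; exact one_le_exp (by linarith)
    have h3 : b ≤ 2 * exp (b / 2) := by linarith [add_one_le_exp (b / 2)]
    have h4 : exp b = exp (b / 2) * exp (b / 2) := by rw [← exp_add]; congr 1; ring
    have h5 : 0 ≤ 2 * -log η * a := mul_nonneg (by linarith) ha
    calc a * b ≤ D * (2 * exp (b / 2)) * 1 := by rw [mul_one]; gcongr
      _ ≤ D * (2 * exp (b / 2)) * (η * exp (b / 2)) := by gcongr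
      _ ≤ _ := by rw [h4]; linarith

lemma sum_inv_sq (N : ℕ) : ∑ k ∈ Finset.range N, 1 / ((k : ℝ) + 1) ^ 2 ≤ 2 - 2 / ((N : ℝ) + 1) := by
  induction N with
  | zero => simp
  | succ N ih =>
    rw [Finset.sum_range_succ]
    have : 1 / ((N : ℝ) + 1) ^ 2 ≤ 2 / (N + 1) - 2 / (N + 1 + 1) := by
      rw [div_sub_div _ _ (by positivity) (by positivity), div_le_div_iff₀ (by positivity) (by positivity)]
      nlinarith [(Nat.cast_nonneg N : (0 : ℝ) ≤ N)]
    push_cast
    linarith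

lemma sum_near {X : ℝ} (hX : 0 ≤ X) {B : ℝ} (hB : 0 ≤ B) (N : ℕ) :
    ∑ k ∈ Finset.range N, (if (k : ℝ) < X then B else 0) ≤ (X + 1) * B := by
  rw [← Finset.sum_filter, Finset.sum_const, nsmul_eq_mul]
  refine mul_le_mul_of_nonneg_right ?_ hB
  have : ((Finset.range N).filter fun k : ℕ => (k : ℝ) < X) ⊆ Finset.range ⌈X⌉₊ := fun k hk =>
    Finset.mem_range.2 (Nat.lt_ceil.2 (Finset.mem_filter.1 hk).2)
  have h1 : (((Finset.range N).filter fun k : ℕ => (k : ℝ) < X).card : ℝ) ≤ ⌈X⌉₊ := by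
    exact_mod_cast (Finset.card_le_card this).trans_eq (Finset.card_range _)
  exact h1.trans (Nat.ceil_lt_add_one hX).le

variable {V : Type*} {G : SimpleGraph V} {ρ : V} {θ : ℝ} [DecidableEq V] [G.LocallyFinite]

variable (G ρ θ) in
/-- logarithm of the normalised covariance at time `s` -/
noncomputable def LT (n : ℕ) (s : ℝ) (x v : V) (z : Ix V → ℝ) : ℝ := LL G θ (hS G ρ n s univ z) x v

variable (G ρ θ) in
/-- its projection -/
noncomputable def Lh (n : ℕ) (s : ℝ) (x v : V) (z : Ix V → ℝ) : ℝ :=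
  pr G ρ θ n s (ll G ρ θ n s x) z + pr G ρ θ n s (ll G ρ θ n s v) z +
    ∑ i ∈ Finset.range (G.dist x v),
      pr G ρ θ n s (gg G ρ θ n s (geo G x v i) (geo G x v (i + 1))) z

variable (G ρ θ) in
/-- the error -/
noncomputable def err (n : ℕ) (s : ℝ) (x v : V) (z : Ix V → ℝ) : ℝ :=
  (exp (LT G ρ θ n s x v z) - exp (Lh G ρ θ n s x v z)) ^ 2 +
    exp (2 * Lh G ρ θ n s x v z) * er G ρ θ n s (mm G ρ θ n s x) z ^ 2

variable (G ρ θ) in
/-- local error density -/
noncomputable def DD (n : ℕ) (s : ℝ) (v : V) (z : Ix V → ℝ) : ℝ :=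
  er G ρ θ n s (ll G ρ θ n s v) z ^ 2 +
    ∑ c ∈ G.neighborFinset v, er G ρ θ n s (gg G ρ θ n s v c) z ^ 2 +
      er G ρ θ n s (mm G ρ θ n s v) z ^ 2

variable (G ρ θ) in
/-- local error density plus its projection -/
noncomputable def DP (n : ℕ) (s : ℝ) (v : V) (z : Ix V → ℝ) : ℝ :=
  DD G ρ θ n s v z + pr G ρ θ n s (DD G ρ θ n s v) z

lemma LT_sub_Lh (n : ℕ) (s : ℝ) (x v : V) (z : Ix V → ℝ) :
    LT G ρ θ n s x v z - Lh G ρ θ n s x v z = er G ρ θ n s (ll G ρ θ n s x) z +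
      er G ρ θ n s (ll G ρ θ n s v) z + ∑ i ∈ Finset.range (G.dist x v),
        er G ρ θ n s (gg G ρ θ n s (geo G x v i) (geo G x v (i + 1))) z := by
  simp only [LT, LL, Lh, er, Finset.sum_sub_distrib, ll, gg]
  ring

lemma DD_nonneg (n : ℕ) (s : ℝ) (v : V) (z : Ix V → ℝ) : 0 ≤ DD G ρ θ n s v z := by
  unfold DD; positivity

variable {d : ℕ} (hc : Ctx G θ d)
include hc

lemma BM_LT (n : ℕ) (s : ℝ) (x v : V) : BM (LT G ρ θ n s x v) :=
  ((BM_ll hc n s x).add (BM_ll hc n s v)).add (BM.sum _ fun _ _ => BM_gg hc n s _ _)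

lemma Lh_proj (n : ℕ) (s : ℝ) (x v : V) :
    IsProj (PP V θ) (II G ρ θ n s) (LT G ρ θ n s x v) (Lh G ρ θ n s x v) :=
  IsProj.add (measurable_II n s) ((BM_ll hc n s x).add (BM_ll hc n s v))
    (BM.sum _ fun _ _ => BM_gg hc n s _ _)
    (IsProj.add (measurable_II n s) (BM_ll hc n s x) (BM_ll hc n s v) (pr_spec n s (BM_ll hc n s x))
      (pr_spec n s (BM_ll hc n s v)))
    (IsProj.sum (measurable_II n s) _ (fun _ => BM_gg hc n s _ _) fun _ => pr_spec n s (BM_gg hc n s _ _))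

lemma BM_Lh (n : ℕ) (s : ℝ) (x v : V) : BM (Lh G ρ θ n s x v) :=
  (Lh_proj hc n s x v).bm (measurable_II n s)

lemma Lh_nonpos (n : ℕ) (s : ℝ) (x v : V) : ∀ᵐ z ∂PP V θ, Lh G ρ θ n s x v z ≤ 0 :=
  (Lh_proj hc n s x v).nonpos (measurable_II n s) (BM_LT hc n s x v) fun _ => LL_nonpos hc.adm _ _ _

lemma BM_err (n : ℕ) (s : ℝ) (x v : V) : BM (err G ρ θ n s x v) := by
  have h1 := BM_LT (ρ := ρ) hc n s x v
  have h2 := BM_Lh (ρ := ρ) hc n s x v
  have h3 := BM_er (G := G) (ρ := ρ) (θ := θ) n s (BM_mm (G := G) (ρ := ρ) (θ := θ) n s x)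
  unfold err
  bm

lemma BM_DD (n : ℕ) (s : ℝ) (v : V) : BM (DD G ρ θ n s v) :=
  (((BM_er n s (BM_ll hc n s v)).pow 2).add
    (BM.sum _ fun c _ => (BM_er n s (BM_gg hc n s v c)).pow 2)).add ((BM_er n s (BM_mm n s v)).pow 2)

lemma BM_DP (n : ℕ) (s : ℝ) (v : V) : BM (DP G ρ θ n s v) :=
  (BM_DD hc n s v).add (BM_pr n s (BM_DD hc n s v))

lemma efield (n : ℕ) (s : ℝ) : EField G ρ θ fun y y' => er G ρ θ n s (gg G ρ θ n s y y') where
  bm y y' := BM_er n s (BM_gg hc n s y y')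
  symm y y' := by
    rw [show gg G ρ θ n s y y' = gg G ρ θ n s y' y from funext fun _ => ge_symm _ _ _]
  equiv g y y' := er_act hc.tree n s (BM_gg hc n s _ _) (BM_gg hc n s _ _) g
    (ae_of_all _ (gg_act hc n s g y y'))

lemma near_est : ∃ C : ℝ, 0 ≤ C ∧ ∀ (n : ℕ) (s a0 : ℝ), 0 ≤ a0 →
    (∀ y y', G.Adj y y' → ∫ z, er G ρ θ n s (gg G ρ θ n s y y') z ^ 2 ∂PP V θ ≤ a0) →
    (∀ y, ∫ z, er G ρ θ n s (ll G ρ θ n s y) z ^ 2 ∂PP V θ ≤ a0) → ∀ x v,
    ∫ z, err G ρ θ n s x v z ∂PP V θ ≤ C * (G.dist x v + 1) * a0 + dl G ρ θ n s x := by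
  obtain ⟨C, hC, h⟩ := path_var (ρ := ρ) hc
  refine ⟨3 * C + 6, by positivity, fun n s a0 ha0 h1 h2 x v => ?_⟩
  have h3 := h _ (efield hc n s) (fun y y' => by
      have e : ∀ z, gg G ρ θ n s y y' (flip z) = gg G ρ θ n s y y' z := fun z => by
        rw [gg, hS_flip, ge_neg, gg]
      filter_upwards [pr_flip (G := G) (ρ := ρ) n s (BM_gg hc n s y y') (BM_gg hc n s y y')
        (ae_of_all _ e)] with z hz
      simp only [er, hz, e])
    (fun y y' => by
      unfold er
      rw [integral_sub (BM_gg hc n s y y').integrable (BM_pr n s (BM_gg hc n s y y')).integrable,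
        (pr_spec n s (BM_gg hc n s y y')).integral_eq (measurable_II n s) (BM_gg hc n s y y'),
        sub_self]) a0 ha0 h1 x v _ le_rfl
  have b1 := BM_er (G := G) (ρ := ρ) (θ := θ) n s (BM_ll (ρ := ρ) hc n s x)
  have b2 := BM_er (G := G) (ρ := ρ) (θ := θ) n s (BM_ll (ρ := ρ) hc n s v)
  have b3 : BM fun z => ∑ i ∈ Finset.range (G.dist x v),
      er G ρ θ n s (gg G ρ θ n s (geo G x v i) (geo G x v (i + 1))) z :=
    BM.sum _ fun i _ => BM_er n s (BM_gg hc n s _ _)
  have b4 := BM_er (G := G) (ρ := ρ) (θ := θ) n s (BM_mm (G := G) (ρ := ρ) (θ := θ) n s x)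
  calc _ ≤ ∫ z, (3 * er G ρ θ n s (ll G ρ θ n s x) z ^ 2 + 3 * er G ρ θ n s (ll G ρ θ n s v) z ^ 2 +
        3 * (∑ i ∈ Finset.range (G.dist x v),
          er G ρ θ n s (gg G ρ θ n s (geo G x v i) (geo G x v (i + 1))) z) ^ 2 +
        er G ρ θ n s (mm G ρ θ n s x) z ^ 2) ∂PP V θ := by
        refine integral_mono_BM (BM_err hc n s x v) (by bm) ?_
        filter_upwards [Lh_nonpos (ρ := ρ) hc n s x v] with z hz
        refine add_le_add ?_ (mul_le_of_le_one_left (sq_nonneg _) (exp_le_one_iff.2 (by linarith)))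
        have h4 : |exp (LT G ρ θ n s x v z) - exp (Lh G ρ θ n s x v z)| ≤
            |LT G ρ θ n s x v z - Lh G ρ θ n s x v z| :=
          abs_exp_sub_le.trans (mul_le_of_le_one_left (abs_nonneg _)
            (max_le (exp_le_one_iff.2 (LL_nonpos hc.adm _ _ _)) (exp_le_one_iff.2 hz)))
        refine (sq_le_sq.2 h4).trans ?_
        rw [LT_sub_Lh]
        generalize er G ρ θ n s (ll G ρ θ n s x) z = a
        generalize er G ρ θ n s (ll G ρ θ n s v) z = b
        generalize ∑ i ∈ Finset.range (G.dist x v),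
          er G ρ θ n s (gg G ρ θ n s (geo G x v i) (geo G x v (i + 1))) z = c
        nlinarith [sq_nonneg (a - b), sq_nonneg (b - c), sq_nonneg (a - c)]
    _ ≤ _ := by
        rw [integral_add (BM.integrable (by bm)) (BM.integrable (by bm)),
          integral_add (BM.integrable (by bm)) (BM.integrable (by bm)),
          integral_add (BM.integrable (by bm)) (BM.integrable (by bm)), integral_const_mul,
          integral_const_mul, integral_const_mul]
        refine add_le_add ?_ le_rfl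
        have := h2 x
        have := h2 v
        have : 0 ≤ (G.dist x v : ℝ) * a0 := by positivity
        have : 0 ≤ C * a0 := by positivity
        nlinarith

lemma DP_act (n : ℕ) (s : ℝ) (g : G ≃g G) (v : V) :
    (fun z => DP G ρ θ n s v (act ρ g z)) =ᵐ[PP V θ] DP G ρ θ n s (g v) := by
  have h : (fun z => DD G ρ θ n s v (act ρ g z)) =ᵐ[PP V θ] DD G ρ θ n s (g v) := by
    haveI := countable_V hc.tree
    filter_upwards [er_act hc.tree n s (BM_ll hc n s v) (BM_ll hc n s (g v)) g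
      (ae_of_all _ (ll_act (ρ := ρ) hc n s g v)), er_act hc.tree n s (BM_mm n s v) (BM_mm n s (g v)) g
      (ae_of_all _ (mm_act (ρ := ρ) (θ := θ) hc.tree n s g v)),
      ae_all_iff.2 ((efield (ρ := ρ) hc n s).equiv g v)] with z h1 h2 h3
    simp only [DD, h1, h2, h3]
    have e : ∀ w, G.neighborFinset w = ch G w w := fun w => by
      ext c; simp only [mem_neighborFinset, mem_ch]; exact ⟨fun h => ⟨h.ne', h⟩, fun h => h.2⟩
    rw [e, e, sum_ch_iso]
  filter_upwards [h, pr_act hc.tree n s (BM_DD hc n s v) (BM_DD hc n s (g v)) g h] with z h1 h2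
  simp only [DP, h1, h2]

lemma DP_nonneg (n : ℕ) (s : ℝ) (v : V) : ∀ᵐ z ∂PP V θ, 0 ≤ DP G ρ θ n s v z := by
  filter_upwards [(pr_spec (G := G) (ρ := ρ) n s (BM_DD (ρ := ρ) hc n s v)).nonneg (measurable_II n s)
    (BM_DD hc n s v) (DD_nonneg n s v)] with z hz
  exact add_nonneg (DD_nonneg n s v z) hz

lemma DP_le (n : ℕ) (s : ℝ) (v : V) :
    ∀ᵐ z ∂PP V θ, DP G ρ θ n s v z ≤ 8 * (d + 2) * KK n d ^ 2 := by
  have h : ∀ᵐ z ∂PP V θ, DD G ρ θ n s v z ≤ 4 * (d + 2) * KK n d ^ 2 := by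
    haveI := countable_V hc.tree
    filter_upwards [abs_er_le (G := G) (ρ := ρ) n s (BM_ll hc n s v) (abs_ll_le (ρ := ρ) hc n s v),
      abs_er_le (G := G) (ρ := ρ) n s (BM_mm n s v) (K := KK n d)
        (fun z => (abs_mag_le (G := G) (θ := θ) (hS G ρ n s univ z) v).trans (one_le_KK n d)),
      ae_all_iff.2 fun c => abs_er_le (G := G) (ρ := ρ) n s (BM_gg hc n s v c)
        (abs_gg_le (ρ := ρ) hc n s v c)] with z h1 h2 h3
    have h4 := Finset.sum_le_card_nsmul (G.neighborFinset v) _ _ fun c _ => h3 c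
    rw [card_neighborFinset_eq_degree, hc.reg v, nsmul_eq_mul] at h4
    unfold DD
    linarith
  filter_upwards [h, (pr_spec (G := G) (ρ := ρ) n s (BM_DD (ρ := ρ) hc n s v)).le_const
    (measurable_II n s) (BM_DD hc n s v) h] with z h1 h2
  unfold DP
  linarith

lemma integral_DP_le (n : ℕ) (s : ℝ) {a : ℝ}
    (h1 : ∀ y y', G.Adj y y' → ∫ z, er G ρ θ n s (gg G ρ θ n s y y') z ^ 2 ∂PP V θ ≤ a)
    (h2 : ∀ y, ∫ z, er G ρ θ n s (ll G ρ θ n s y) z ^ 2 ∂PP V θ ≤ a)
    (h3 : ∀ y, dl G ρ θ n s y ≤ a) (v : V) :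
    ∫ z, DP G ρ θ n s v z ∂PP V θ ≤ 2 * (d + 2) * a := by
  have hb := BM_DD (ρ := ρ) hc n s v
  unfold DP
  rw [integral_add hb.integrable (BM_pr n s hb).integrable,
    (pr_spec n s hb).integral_eq (measurable_II n s) hb]
  unfold DD
  have b1 := BM_er (G := G) (ρ := ρ) (θ := θ) n s (BM_ll (ρ := ρ) hc n s v)
  have b2 := fun c => BM_er (G := G) (ρ := ρ) (θ := θ) n s (BM_gg (ρ := ρ) hc n s v c)
  have b4 := BM_er (G := G) (ρ := ρ) (θ := θ) n s (BM_mm (G := G) (ρ := ρ) (θ := θ) n s v)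
  rw [integral_add (BM.integrable (by bm [b2])) (BM.integrable (by bm)),
    integral_add (BM.integrable (by bm)) (BM.integrable (by bm [b2])),
    integral_finsetSum _ fun c _ => ((b2 c).pow 2).integrable]
  have h4 := Finset.sum_le_card_nsmul (G.neighborFinset v) _ _ fun c hc' =>
    h1 v c ((mem_neighborFinset _ _ _).1 hc')
  rw [card_neighborFinset_eq_degree, hc.reg v, nsmul_eq_mul] at h4
  have h5 : ∫ z, er G ρ θ n s (mm G ρ θ n s v) z ^ 2 ∂PP V θ ≤ a := h3 v
  linarith [h2 v]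

lemma DP_Wp (n : ℕ) (s : ℝ) (m : ℕ) {p z a b : V} (hp : G.Adj p z) (h : m ≤ G.dist a b) :
    (((d - 1 : ℕ) : ℝ) * θ ^ 2) ^ m *
      ∫ w, DP G ρ θ n s a w * Wp G θ (hS G ρ n s univ w) m a b ∂PP V θ =
    ∫ w, DP G ρ θ n s z w * YY G θ (hS G ρ n s univ w) m p z ∂PP V θ := by
  have hW := fun a b => (BM_Wp (G := G) hc.adm m a b).comp (measurable_hS (G := G) (ρ := ρ) n s univ)
  have hD := BM_DP (ρ := ρ) hc n s
  have e : ∀ h, Wp G θ h m a b = Wp G θ h m a (geo G a b m) := fun h' => by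
    refine Finset.prod_congr rfl fun i hi => ?_
    have := Finset.mem_range.1 hi
    rw [geo_sub hc.tree a b h (by omega), geo_sub hc.tree a b h (by omega)]
  have key : ∀ y ∈ Sph G m p z, ∫ w, DP G ρ θ n s z w * Wp G θ (hS G ρ n s univ w) m z y ∂PP V θ =
      ∫ w, DP G ρ θ n s a w * Wp G θ (hS G ρ n s univ w) m a b ∂PP V θ := fun y hy => by
    obtain ⟨g, h1, h2⟩ := exists_iso hc.tree hc.reg (o := z) (x := y) (o' := a) (x' := geo G a b m)
      (by rw [Sph_dist hc.tree hy, SimpleGraph.dist_comm, dist_geo' hc.tree a b h])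
    rw [← integral_comp_mp (mp_act (ρ := ρ) g) ((hD z).mul (hW z y)).1]
    refine integral_congr_ae ?_
    filter_upwards [DP_act (ρ := ρ) hc n s g z] with w hw
    rw [hw, hS_act hc.tree, Wp_iso hc.tree, h1, h2, e]
  simp only [YY, Finset.mul_sum, mul_left_comm _ ((θ ^ 2) ^ m)]
  rw [integral_finsetSum _ fun y _ => BM.integrable (by bm [hD, hW])]
  simp only [integral_const_mul]
  rw [Finset.sum_congr rfl fun y hy => by rw [key y hy], Finset.sum_const, nsmul_eq_mul,
    card_Sph_adj hc.reg hc.tree m hp, mul_pow, mul_assoc]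

lemma err_far (n : ℕ) (s : ℝ) (x v : V) :
    ∫ z, err G ρ θ n s x v z ∂PP V θ ≤ (3 * G.dist x v + 7) * ∑ i ∈ Finset.range (G.dist x v + 1),
      ∫ z, exp (2 * LT G ρ θ n s x v z) * DP G ρ θ n s (geo G x v i) z ∂PP V θ := by
  have h1 := BM_LT (ρ := ρ) hc n s x v
  have h2 := BM_Lh (ρ := ρ) hc n s x v
  have hD := BM_DD (ρ := ρ) hc n s
  have hP := fun y => BM_pr (G := G) (ρ := ρ) (θ := θ) n s (hD y)
  calc _ ≤ ∫ z, (3 * G.dist x v + 7) * ∑ i ∈ Finset.range (G.dist x v + 1),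
        (exp (2 * LT G ρ θ n s x v z) * DD G ρ θ n s (geo G x v i) z +
          exp (2 * Lh G ρ θ n s x v z) * DD G ρ θ n s (geo G x v i) z) ∂PP V θ := by
        refine integral_mono_BM (BM_err hc n s x v) (by bm [hD]) (ae_of_all _ fun z => ?_)
        simp only [← add_mul, ← Finset.mul_sum]
        obtain ⟨S, hS⟩ : ∃ S, S = ∑ i ∈ Finset.range (G.dist x v + 1), DD G ρ θ n s (geo G x v i) z :=
          ⟨_, rfl⟩
        rw [← hS]
        have hle : ∀ i ≤ G.dist x v, DD G ρ θ n s (geo G x v i) z ≤ S := fun i hi => hS ▸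
          Finset.single_le_sum (f := fun i => DD G ρ θ n s (geo G x v i) z)
            (fun i _ => DD_nonneg n s _ z) (Finset.mem_range.2 (by omega))
        have hs0 : ∀ y, 0 ≤ ∑ c ∈ G.neighborFinset y, er G ρ θ n s (gg G ρ θ n s y c) z ^ 2 :=
          fun y => by positivity
        have h3 := hle 0 (by omega)
        have h4 := hle _ le_rfl
        rw [geo_zero] at h3
        rw [geo_dist hc.tree] at h4
        have h5 : er G ρ θ n s (ll G ρ θ n s x) z ^ 2 ≤ S := by
          unfold DD at h3; linarith [hs0 x, sq_nonneg (er G ρ θ n s (mm G ρ θ n s x) z)]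
        have h6 : er G ρ θ n s (ll G ρ θ n s v) z ^ 2 ≤ S := by
          unfold DD at h4; linarith [hs0 v, sq_nonneg (er G ρ θ n s (mm G ρ θ n s v) z)]
        have h7 : er G ρ θ n s (mm G ρ θ n s x) z ^ 2 ≤ S := by
          unfold DD at h3; linarith [hs0 x, sq_nonneg (er G ρ θ n s (ll G ρ θ n s x) z)]
        have h8 : ∑ i ∈ Finset.range (G.dist x v),
            er G ρ θ n s (gg G ρ θ n s (geo G x v i) (geo G x v (i + 1))) z ^ 2 ≤ S := by
          rw [hS, Finset.sum_range_succ]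
          refine le_add_of_le_of_nonneg (Finset.sum_le_sum fun i hi => ?_) (DD_nonneg n s _ z)
          have := Finset.single_le_sum
            (f := fun c => er G ρ θ n s (gg G ρ θ n s (geo G x v i) c) z ^ 2)
            (fun c _ => sq_nonneg _) ((mem_neighborFinset _ _ _).2
              (adj_geo hc.tree x v (Finset.mem_range.1 hi)))
          unfold DD
          linarith [sq_nonneg (er G ρ θ n s (mm G ρ θ n s (geo G x v i)) z),
            sq_nonneg (er G ρ θ n s (ll G ρ θ n s (geo G x v i)) z)]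
        have h9 := (sq_sum_le_card_mul_sum_sq (s := Finset.range (G.dist x v)) (f := fun i =>
          er G ρ θ n s (gg G ρ θ n s (geo G x v i) (geo G x v (i + 1))) z)).trans
          (mul_le_mul_of_nonneg_left h8 (Nat.cast_nonneg _))
        rw [Finset.card_range] at h9
        have h10 : (LT G ρ θ n s x v z - Lh G ρ θ n s x v z) ^ 2 ≤ (3 * G.dist x v + 6) * S := by
          rw [LT_sub_Lh]
          generalize er G ρ θ n s (ll G ρ θ n s x) z = a at *
          generalize er G ρ θ n s (ll G ρ θ n s v) z = b at *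
          generalize ∑ i ∈ Finset.range (G.dist x v),
            er G ρ θ n s (gg G ρ θ n s (geo G x v i) (geo G x v (i + 1))) z = c at *
          nlinarith [sq_nonneg (a - b), sq_nonneg (b - c), sq_nonneg (a - c)]
        have h11 := pow_le_pow_left₀ (abs_nonneg _)
          (abs_exp_sub_le (a := LT G ρ θ n s x v z) (b := Lh G ρ θ n s x v z)) 2
        rw [sq_abs, mul_pow, sq_abs] at h11
        have h12 : max (exp (LT G ρ θ n s x v z)) (exp (Lh G ρ θ n s x v z)) ^ 2 ≤
            exp (2 * LT G ρ θ n s x v z) + exp (2 * Lh G ρ θ n s x v z) := by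
          rcases max_choice (exp (LT G ρ θ n s x v z)) (exp (Lh G ρ θ n s x v z)) with h | h <;>
            rw [h, ← exp_nat_mul] <;> push_cast <;>
            linarith [exp_pos (2 * LT G ρ θ n s x v z), exp_pos (2 * Lh G ρ θ n s x v z)]
        have h13 := h11.trans (mul_le_mul h12 h10 (sq_nonneg _) (by positivity))
        have h14 : exp (2 * Lh G ρ θ n s x v z) * er G ρ θ n s (mm G ρ θ n s x) z ^ 2 ≤
            (exp (2 * LT G ρ θ n s x v z) + exp (2 * Lh G ρ θ n s x v z)) * S :=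
          mul_le_mul (by linarith [exp_pos (2 * LT G ρ θ n s x v z)]) h7 (sq_nonneg _) (by positivity)
        unfold err
        linarith
    _ ≤ _ := by
        rw [integral_const_mul, integral_finsetSum _ fun i _ => BM.integrable (by bm [hD])]
        refine mul_le_mul_of_nonneg_left (Finset.sum_le_sum fun i _ => ?_) (by positivity)
        simp only [DP, mul_add]
        rw [integral_add (BM.integrable (by bm [hD])) (BM.integrable (by bm [hD])),
          integral_add (BM.integrable (by bm [hD])) (BM.integrable (by bm [hP]))]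
        exact add_le_add le_rfl (IsProj.exp_le (measurable_II n s) h1 (hD _) (Lh_proj hc n s x v)
          (pr_spec n s (hD _)) (DD_nonneg n s _))

lemma err_far' (n : ℕ) (s : ℝ) (x v : V) {m : ℕ} (hm : m + m ≤ G.dist x v) {p z : V}
    (hp : G.Adj p z) :
    (((d - 1 : ℕ) : ℝ) * θ ^ 2) ^ G.dist x v * ∫ z, err G ρ θ n s x v z ∂PP V θ ≤
      (3 * G.dist x v + 7) * (G.dist x v + 1) *
        ∫ w, DP G ρ θ n s z w * YY G θ (hS G ρ n s univ w) m p z ∂PP V θ := by
  have hq0 : 0 ≤ ((d - 1 : ℕ) : ℝ) * θ ^ 2 := by positivity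
  have hW := fun a b => (BM_Wp (G := G) hc.adm m a b).comp (measurable_hS (G := G) (ρ := ρ) n s univ)
  have hD := BM_DP (ρ := ρ) hc n s
  have h1 := BM_LT (ρ := ρ) hc n s x v
  refine (mul_le_mul_of_nonneg_left (err_far hc n s x v) (by positivity)).trans ?_
  rw [mul_left_comm, mul_assoc, Finset.mul_sum]
  refine mul_le_mul_of_nonneg_left ((Finset.sum_le_card_nsmul _ _ _ fun i hi => ?_).trans_eq
    (by rw [Finset.card_range, nsmul_eq_mul, Nat.cast_succ])) (by positivity)
  have hi := Finset.mem_range.1 hi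
  obtain ⟨b, hb, hb'⟩ : ∃ b, m ≤ G.dist (geo G x v i) b ∧ ∀ h,
      Wp G θ h (G.dist x v) x v * Wp G θ h (G.dist x v) v x ≤ Wp G θ h m (geo G x v i) b := by
    rcases le_or_gt (i + m) (G.dist x v) with h | h
    · refine ⟨v, by have := dist_geo hc.tree x v (i := i) (by omega); omega, fun h' => ?_⟩
      exact (mul_le_of_le_one_right (Wp_pos hc.adm _ _ _ _).le (Wp_le_one hc.adm _ _ _ _)).trans
        (Wp_le_sub hc.adm h' h x v)
    · refine ⟨x, by rw [dist_geo' hc.tree x v (by omega)]; omega, fun h' => ?_⟩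
      rw [geo_rev hc.tree v x (by rw [SimpleGraph.dist_comm]; omega), SimpleGraph.dist_comm (u := v)]
      exact (mul_le_of_le_one_left (Wp_pos hc.adm _ _ _ _).le (Wp_le_one hc.adm _ _ _ _)).trans
        (Wp_le_sub hc.adm h' (by omega) v x)
  rw [← DP_Wp hc n s m hp hb]
  refine mul_le_mul (pow_le_pow_of_le_one hq0 hc.crit (by omega)) ?_ (integral_nonneg_of_ae ?_)
    (by positivity)
  · refine integral_mono_BM (by bm [hD]) (by bm [hD, hW]) ?_
    filter_upwards [DP_nonneg (ρ := ρ) hc n s (geo G x v i)] with w hw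
    rw [mul_comm]
    exact mul_le_mul_of_nonneg_left ((exp_two_LL_le hc.adm hc.tree _ x v).trans (hb' _)) hw
  · filter_upwards [DP_nonneg (ρ := ρ) hc n s (geo G x v i)] with w hw
    exact mul_nonneg (exp_pos _).le hw

/-- the static estimate -/
lemma static_est (n : ℕ) : ∃ C : ℝ, 0 ≤ C ∧ ∀ s η : ℝ, 0 < sb n s → sb n s ≤ 1 → 0 < η → η ≤ 1 →
    (∀ v, dl G ρ θ n s v ≤ η) → ∀ (K : ℕ) (v : V),
    ∑ x ∈ Tk G K v v, (θ ^ 2) ^ G.dist x v * ∫ z, err G ρ θ n s x v z ∂PP V θ ≤
      C / sb n s ^ 62 * ph η := by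
  obtain ⟨C1, hC1, h1⟩ := local_err (ρ := ρ) hc n
  obtain ⟨C2, hC2, h2⟩ := near_est (ρ := ρ) hc
  obtain ⟨C3, hC3, h3⟩ := exp_moment' (ρ := ρ) hc n
  obtain ⟨C4, hC4⟩ : ∃ C4, C4 = 768 * (4 * (d + 2) * C1 + 16 * (d + 2) * KK n d ^ 2 * C3) := ⟨_, rfl⟩
  have hC4' : 0 ≤ C4 := by rw [hC4]; positivity
  refine ⟨2 * (9 * (9 * C2 * C1 + 1) + 2 * (7 * 256 * C4)), by positivity,
    fun s η hs0 hs1 hη0 hη1 hη K v => ?_⟩
  obtain ⟨hg, hl⟩ := h1 s η hs0 hs1 hη0 hη1 hη
  obtain ⟨p, hp, -⟩ := exists_side hc.reg hc.three v v v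
  have hph := le_ph hη0 hη1
  have hph0 : 0 ≤ ph η := by linarith
  have hq0 : 0 ≤ ((d - 1 : ℕ) : ℝ) * θ ^ 2 := by positivity
  have hb := dm1_pos hc
  have h3 := h3 (sb n s) hs0 hs1 s (by rintro rfl; exact le_rfl)
  generalize sb n s = σ at *
  have hσ : ∀ k : ℕ, 1 ≤ 1 / σ ^ k := fun k => one_le_one_div (by positivity) (pow_le_one₀ hs0.le hs1)
  have far : ∀ l : ℕ, 1 / σ ^ 36 ≤ l →
      ∫ w, DP G ρ θ n s p w * YY G θ (hS G ρ n s univ w) (l + l) v p ∂PP V θ ≤
        C4 * ph η / ((l : ℝ) + 1) ^ 4 := by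
    intro l hl'
    have hD := BM_DP (ρ := ρ) hc n s p
    have hY := (BM_YY hc (l + l) v p).comp (measurable_hS (G := G) (ρ := ρ) n s univ)
    rw [le_div_iff₀ (by positivity), ← integral_mul_const]
    calc _ ≤ ∫ w, 768 * (2 * -log η * DP G ρ θ n s p w + 2 * (8 * (d + 2) * KK n d ^ 2) * η *
          exp (((l : ℝ) + 1) ^ 4 / 768 * YY G θ (hS G ρ n s univ w) (l + l) v p)) ∂PP V θ := by
          refine integral_mono_BM (by bm) (by bm) ?_
          filter_upwards [DP_nonneg (ρ := ρ) hc n s p, DP_le (ρ := ρ) hc n s p] with w h4 h5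
          have := young_aux h4 h5 (b := ((l : ℝ) + 1) ^ 4 / 768 *
            YY G θ (hS G ρ n s univ w) (l + l) v p)
            (mul_nonneg (by positivity) (YY_nonneg hc _ _ _ _)) hη0 hη1
          linarith
      _ ≤ _ := by
          rw [integral_const_mul, integral_add (BM.integrable (by bm)) (BM.integrable (by bm)),
            integral_const_mul, integral_const_mul, hC4, mul_assoc 768]
          refine mul_le_mul_of_nonneg_left ?_ (by norm_num)
          have h4 := integral_DP_le (ρ := ρ) hc n s (a := C1 * η) (fun y y' h => (hg y y' h).1)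
            (fun y => (hl y).1) (fun y => (hη y).trans (by nlinarith)) p
          have h5 := h3 l hl' v p hp
          have h6 := log_nonpos hη0.le hη1
          have h7 : -log η * η ≤ ph η := by unfold ph; linarith
          calc _ ≤ 2 * -log η * (2 * (d + 2) * (C1 * η)) + 2 * (8 * (d + 2) * KK n d ^ 2) * η * C3 :=
                add_le_add (mul_le_mul_of_nonneg_left h4 (by linarith))
                  (mul_le_mul_of_nonneg_left h5 (by positivity))
            _ = 4 * (d + 2) * C1 * (-log η * η) + 16 * (d + 2) * KK n d ^ 2 * C3 * η := by ring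
            _ ≤ 4 * (d + 2) * C1 * ph η + 16 * (d + 2) * KK n d ^ 2 * C3 * ph η := by gcongr
            _ = _ := by ring
  have key : ∀ x, (((d - 1 : ℕ) : ℝ) * θ ^ 2) ^ G.dist x v * ∫ z, err G ρ θ n s x v z ∂PP V θ ≤
      (if (G.dist x v : ℝ) < 8 * (1 / σ ^ 36) then (9 * C2 * C1 + 1) * (1 / σ ^ 26) * ph η else 0) +
        7 * 256 * C4 * ph η * (1 / ((G.dist x v : ℝ) + 1) ^ 2) := by
    intro x
    have hk4 : (G.dist x v : ℝ) + 1 ≤ 4 * (((G.dist x v / 4 : ℕ) : ℝ) + 1) := by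
      exact_mod_cast (by omega : G.dist x v + 1 ≤ 4 * (G.dist x v / 4 + 1))
    split_ifs with h
    · refine le_add_of_le_of_nonneg ?_ (by positivity)
      have h4 := h2 n s (C1 * σ ^ 10 * ph η) (by positivity) (fun y y' h => (hg y y' h).2)
        (fun y => (hl y).2) x v
      have h5 : (G.dist x v : ℝ) + 1 ≤ 9 * (1 / σ ^ 36) := by linarith [hσ 36]
      calc _ ≤ 1 * (C2 * (G.dist x v + 1) * (C1 * σ ^ 10 * ph η) + dl G ρ θ n s x) :=
            mul_le_mul (pow_le_one₀ hq0 hc.crit) h4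
              (integral_nonneg fun z => by unfold err; positivity) zero_le_one
        _ ≤ C2 * (9 * (1 / σ ^ 36)) * (C1 * σ ^ 10 * ph η) + 1 / σ ^ 26 * ph η := by
            rw [one_mul]
            refine add_le_add (by gcongr) ((hη x).trans ?_)
            nlinarith [hσ 26]
        _ = _ := by field_simp
    · have h4 : 1 / σ ^ 36 ≤ ((G.dist x v / 4 : ℕ) : ℝ) := by linarith [hσ 36]
      refine (err_far' hc n s x v (m := G.dist x v / 4 + G.dist x v / 4) (by omega) hp).trans ?_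
      rw [zero_add]
      refine (mul_le_mul_of_nonneg_left (far _ h4) (by positivity)).trans ?_
      have h5 := pow_le_pow_left₀ (by positivity) hk4 4
      generalize (G.dist x v : ℝ) = k at *
      generalize ((G.dist x v / 4 : ℕ) : ℝ) = l at *
      have hk0 : 0 ≤ k := by linarith [hσ 36]
      have hl0 : 0 ≤ l := by linarith [hσ 36]
      rw [mul_one_div, ← mul_div_assoc, div_le_div_iff₀ (by positivity) (by positivity)]
      have h6 : (3 * k + 7) * (k + 1) * (k + 1) ^ 2 ≤ 7 * (k + 1) ^ 4 := by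
        have : 0 ≤ (k + 1) ^ 3 * k := by positivity
        nlinarith
      calc _ = C4 * ph η * ((3 * k + 7) * (k + 1) * (k + 1) ^ 2) := by ring
        _ ≤ C4 * ph η * (7 * (4 * (l + 1)) ^ 4) :=
            mul_le_mul_of_nonneg_left (by linarith) (by positivity)
        _ = _ := by ring
  rw [sum_Tk hc.tree]
  calc _ ≤ ∑ i ∈ Finset.range (K + 1), 2 * ((if (i : ℝ) < 8 * (1 / σ ^ 36) then
        (9 * C2 * C1 + 1) * (1 / σ ^ 26) * ph η else 0) +
        7 * 256 * C4 * ph η * (1 / ((i : ℝ) + 1) ^ 2)) := by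
        refine Finset.sum_le_sum fun i _ => ?_
        refine (Finset.sum_le_sum (g := fun _ => ((if (i : ℝ) < 8 * (1 / σ ^ 36) then
          (9 * C2 * C1 + 1) * (1 / σ ^ 26) * ph η else 0) +
          7 * 256 * C4 * ph η * (1 / ((i : ℝ) + 1) ^ 2)) / ((d - 1 : ℕ) : ℝ) ^ i) fun x hx => ?_).trans
          ((sum_Sph_le hc i v v (by positivity)).trans_eq (by field_simp))
        have h4 := key x
        rw [SimpleGraph.dist_comm, Sph_dist hc.tree hx] at h4 ⊢
        rw [le_div_iff₀ (by positivity)]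
        rw [mul_pow] at h4
        linarith
    _ ≤ 2 * ((8 * (1 / σ ^ 36) + 1) * ((9 * C2 * C1 + 1) * (1 / σ ^ 26) * ph η) +
        7 * 256 * C4 * ph η * 2) := by
        rw [← Finset.mul_sum, Finset.sum_add_distrib, ← Finset.mul_sum]
        gcongr
        · exact sum_near (by positivity) (by positivity) _
        · exact (sum_inv_sq _).trans (sub_le_self _ (by positivity))
    _ ≤ 2 * ((9 * (1 / σ ^ 36)) * ((9 * C2 * C1 + 1) * (1 / σ ^ 26) * ph η) +
        7 * 256 * C4 * ph η * 2 * (1 / σ ^ 62)) := by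
        refine mul_le_mul_of_nonneg_left (add_le_add ?_
          (le_mul_of_one_le_right (by positivity) (hσ 62))) zero_le_two
        exact mul_le_mul_of_nonneg_right (by linarith [hσ 36]) (by positivity)
    _ = _ := by field_simp

end Crest.Agent.R160
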