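import Crest.Agent.R160.Tail

set_option autoImplicit false
set_option maxHeartbeats 400000

/-!
Exponential moments of the averaged products of derivatives.
-/

namespace Crest.Agent.R160

open Real MeasureTheory Set Filter SimpleGraph Function Topology

variable {V : Type*} {G : SimpleGraph V} {ρ : V} {θ : ℝ} [DecidableEq V] [G.LocallyFinite]

variable (G θ) in
/-- weighted sum of the products of derivatives over the descendants at depth `l` -/
noncomputable def YY (h : V → ℝ) (l : ℕ) (p z : V) : ℝ :=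
  (θ ^ 2) ^ l * ∑ x ∈ Sph G l p z, Wp G θ h l z x

variable {d : ℕ} (hc : Ctx G θ d)
include hc

lemma BM_YY (l : ℕ) (p z : V) : BM fun h => YY G θ h l p z := by
  unfold YY; bm [BM_Wp hc.adm]

lemma YY_nonneg (h : V → ℝ) (l : ℕ) (p z : V) : 0 ≤ YY G θ h l p z :=
  mul_nonneg (by positivity) (Finset.sum_nonneg fun _ _ => (Wp_pos hc.adm _ _ _ _).le)

lemma YY_le_one (h : V → ℝ) (l : ℕ) {p z : V} (hp : G.Adj p z) : YY G θ h l p z ≤ 1 := by
  have h1 := Finset.sum_le_card_nsmul (Sph G l p z) (fun x => Wp G θ h l z x) 1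
    fun x _ => Wp_le_one hc.adm _ _ _ _
  rw [nsmul_eq_mul, mul_one, card_Sph_adj hc.reg hc.tree l hp] at h1
  refine (mul_le_mul_of_nonneg_left h1 (by positivity)).trans ?_
  rw [← mul_pow, mul_comm]
  exact pow_le_one₀ (by positivity) hc.crit

lemma YY_succ_le (h : V → ℝ) (l : ℕ) (p z : V) :
    YY G θ h (l + 1) p z ≤ ∑ c ∈ ch G p z, θ ^ 2 * YY G θ h l z c := by
  unfold YY
  rw [sum_Sph_succ hc.tree, Finset.mul_sum]
  refine Finset.sum_le_sum fun c hcc => ?_
  rw [pow_succ', mul_assoc]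
  refine mul_le_mul_of_nonneg_left (mul_le_mul_of_nonneg_left
    (Finset.sum_le_sum fun x hx => ?_) (by positivity)) (sq_nonneg θ)
  rw [Wp_succ, nxt_of_mem_Sph hc.tree (mem_ch.1 hcc).2 hx]
  exact mul_le_of_le_one_left (Wp_pos hc.adm _ _ _ _).le (GG_le_one hc.adm _)

lemma YY_dep (n : ℕ) (r : ℝ) (A : Set V) (l : ℕ) (p z : V) :
    DependsOn (fun w => YY G θ (hS G ρ n r A w) l p z) (K0 G p z) := by
  intro w w' h
  simp only [YY]
  congr 1
  refine Finset.sum_congr rfl fun x hx => ?_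
  cases l with
  | zero => simp [Wp]
  | succ l =>
    exact Wp_dep hc.tree n r A _ z x (Sph_dist hc.tree hx).ge fun i hi =>
      h i (K0_ch (Sph_succ_nxt hc.tree hx).1 hi)

lemma exp_moment (n : ℕ) (r : ℝ) (l' : ℕ) {ϱ : ℝ}
    (hϱ : ∀ p z, G.Adj p z → ∫ w, YY G θ (hS G ρ n r univ w) l' p z ∂PP V θ ≤ ϱ)
    (l : ℕ) (lam : ℝ) (h0 : 0 ≤ lam) (h1 : lam ≤ ((d - 1 : ℕ) : ℝ) ^ l) (p z : V) (hp : G.Adj p z) :
    ∫ w, exp (lam * YY G θ (hS G ρ n r univ w) (l' + l) p z) ∂PP V θ ≤ exp (2 * lam * ϱ) := by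
  have hY : ∀ l p z, BM fun w => YY G θ (hS G ρ n r univ w) l p z :=
    fun l p z => (BM_YY hc l p z).comp (measurable_hS n r univ)
  induction l generalizing lam p z with
  | zero =>
    rw [pow_zero] at h1
    calc _ ≤ ∫ w, (1 + 2 * lam * YY G θ (hS G ρ n r univ w) l' p z) ∂PP V θ := by
          refine integral_mono_BM (by bm [hY]) (by bm [hY]) (ae_of_all _ fun w => ?_)
          have h2 := YY_nonneg hc (hS G ρ n r univ w) l' p z
          have h3 := YY_le_one hc (hS G ρ n r univ w) l' hp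
          have h4 : lam * YY G θ (hS G ρ n r univ w) l' p z ≤ 1 := mul_le_one₀ h1 h2 h3
          have h5 := mul_nonneg h0 h2
          have h6 := (abs_le.1 (abs_exp_sub_one_sub_id_le (x := lam * YY G θ (hS G ρ n r univ w) l' p z)
            (by rw [abs_of_nonneg h5]; exact h4))).2
          simp only [add_zero]
          nlinarith
      _ ≤ 1 + 2 * lam * ϱ := by
          rw [integral_add (BM.integrable (by bm)) (BM.integrable (by bm [hY])), integral_const_mul]
          simpa using mul_le_mul_of_nonneg_left (hϱ p z hp) (show 0 ≤ 2 * lam by positivity)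
      _ ≤ _ := by linarith [add_one_le_exp (2 * lam * ϱ)]
  | succ l ih =>
    have hb := dm1_pos hc
    have hθb : θ ^ 2 ≤ 1 / ((d - 1 : ℕ) : ℝ) := by
      rw [le_div_iff₀ (by linarith)]; linarith [hc.crit]
    calc _ ≤ ∫ w, ∏ c ∈ ch G p z, exp (lam / ((d - 1 : ℕ) : ℝ) *
          YY G θ (hS G ρ n r univ w) (l' + l) z c) ∂PP V θ := by
          refine integral_mono_BM (by bm [hY]) (by bm [hY]) (ae_of_all _ fun w => ?_)
          rw [← exp_sum, exp_le_exp, ← add_assoc]
          refine (mul_le_mul_of_nonneg_left (YY_succ_le hc _ _ p z) h0).trans ?_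
          rw [Finset.mul_sum]
          refine Finset.sum_le_sum fun c _ => ?_
          rw [← mul_assoc, div_eq_mul_one_div]
          exact mul_le_mul_of_nonneg_right (mul_le_mul_of_nonneg_left hθb h0) (YY_nonneg hc _ _ _ _)
      _ = ∏ c ∈ ch G p z, ∫ w, exp (lam / ((d - 1 : ℕ) : ℝ) *
          YY G θ (hS G ρ n r univ w) (l' + l) z c) ∂PP V θ := by
          refine integral_prod_indep _ _ (S := fun c => K1 G z c) (fun c _ => by bm [hY])
            (fun c _ w w' h => ?_) fun c h c' h' hne =>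
              K1_disj hc.tree (mem_ch.1 h).2 (mem_ch.1 h').2 hne
          rw [show YY G θ (hS G ρ n r univ w) (l' + l) z c = _ from
            YY_dep hc n r univ _ z c fun i hi => h i (Or.inr hi)]
      _ ≤ ∏ _c ∈ ch G p z, exp (2 * (lam / ((d - 1 : ℕ) : ℝ)) * ϱ) := by
          refine Finset.prod_le_prod (fun c _ => integral_nonneg fun _ => (exp_pos _).le)
            fun c hcc => ih _ (by positivity) ?_ z c (mem_ch.1 hcc).2
          rw [div_le_iff₀ (by linarith), ← pow_succ]; exact h1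
      _ = _ := by
          rw [Finset.prod_const, card_ch_adj hc.reg hp, ← exp_nat_mul]
          congr 1; field_simp

omit hc [DecidableEq V] [G.LocallyFinite] in
lemma pow_four_le (l : ℕ) : ((l : ℝ) + 1) ^ 4 ≤ 768 * 2 ^ l := by
  have h1 := pow_div_factorial_le_exp (x := ((l : ℝ) + 1) / 2) (by positivity) 4
  have h2 : exp (((l : ℝ) + 1) / 2) ≤ 2 ^ (l + 1) := by
    have h3 : exp (1 / 2) ≤ 2 := by
      have := exp_one_lt_d9
      have h4 : exp (1 / 2) * exp (1 / 2) = exp 1 := by rw [← exp_add]; norm_num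
      nlinarith [exp_pos (1 / 2)]
    rw [show ((l : ℝ) + 1) / 2 = ((l + 1 : ℕ) : ℝ) * (1 / 2) by push_cast; ring, exp_nat_mul]
    exact pow_le_pow_left₀ (exp_pos _).le h3 _
  have h4 := h1.trans h2
  norm_num [Nat.factorial, div_pow, pow_succ] at h4 ⊢
  linarith

/-- the exponential moment in the form needed for the far part -/
lemma exp_moment' (n : ℕ) : ∃ C : ℝ, 1 ≤ C ∧ ∀ s : ℝ, 0 < s → s ≤ 1 → ∀ r : ℝ, (n = 0 → s ≤ r) →
    ∀ l : ℕ, 1 / s ^ 36 ≤ l → ∀ p z, G.Adj p z →
      ∫ w, exp (((l : ℝ) + 1) ^ 4 / 768 * YY G θ (hS G ρ n r univ w) (l + l) p z) ∂PP V θ ≤ C := by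
  obtain ⟨c, hc0, hc1, H⟩ := decay (ρ := ρ) hc n
  refine ⟨exp (16 * (Nat.factorial 36) / c ^ 36), one_le_exp (by positivity),
    fun s hs0 hs1 r hr l hl p z hp => ?_⟩
  obtain ⟨J, -, H⟩ := H s hs0 hs1
  have hs32 : c * s ^ 32 ≤ 1 := mul_le_one₀ hc1 (by positivity) (pow_le_one₀ hs0.le hs1)
  have hb := dm1_pos hc
  refine (exp_moment hc n r l (ϱ := (1 - c * s ^ 32) ^ l) (fun p z hp => ?_) l _ (by positivity) ?_
    p z hp).trans ?_
  · have hW : ∀ x, BM fun w => Wp G θ (hS G ρ n r univ w) l z x :=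
      fun x => (BM_Wp hc.adm l z x).comp (measurable_hS n r univ)
    simp only [YY]
    rw [integral_const_mul, integral_finsetSum _ fun x _ => (hW x).integrable, Finset.mul_sum]
    refine (Finset.sum_le_card_nsmul _ _ ((1 - c * s ^ 32) ^ l / ((d - 1 : ℕ) : ℝ) ^ l)
      fun x hx => ?_).trans ?_
    · have := H r hr univ p z x l l le_rfl (Sph_dist hc.tree hx).ge (fun hl0 => by
        obtain ⟨l, rfl⟩ := Nat.exists_eq_succ_of_ne_zero hl0
        exact (mem_ch.1 (Sph_succ_nxt hc.tree hx).1).1) (subset_univ _)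
      rw [le_div_iff₀ (by positivity)]
      rw [mul_pow] at this
      linarith
    · rw [nsmul_eq_mul, card_Sph_adj hc.reg hc.tree l hp, mul_div_cancel₀ _ (by positivity)]
  · rw [div_le_iff₀ (by norm_num)]
    linarith [pow_four_le l, pow_le_pow_left₀ (by norm_num) hb l]
  · rw [exp_le_exp]
    have hl1 : (1 : ℝ) ≤ l := (one_le_one_div (by positivity) (pow_le_one₀ hs0.le hs1)).trans hl
    have h3 : (1 - c * s ^ 32) ^ l ≤ exp (-(c * s ^ 32 * l)) := by
      rw [show -(c * s ^ 32 * l) = l * -(c * s ^ 32) by ring, exp_nat_mul]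
      exact pow_le_pow_left₀ (sub_nonneg.2 hs32) (by linarith [add_one_le_exp (-(c * s ^ 32))]) l
    have h4 := pow_div_factorial_le_exp (x := c * s ^ 32 * l) (by positivity) 36
    have h5 : c ^ 36 * l ^ 4 ≤ (c * s ^ 32 * l) ^ 36 := by
      have h6 : 1 ≤ s ^ 36 * l := by rwa [div_le_iff₀' (by positivity)] at hl
      have h7 : 1 ≤ (s ^ 36 * l) ^ 32 := one_le_pow₀ h6
      calc _ ≤ c ^ 36 * l ^ 4 * (s ^ 36 * l) ^ 32 := le_mul_of_one_le_right (by positivity) h7
        _ = _ := by ring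
    have h6 : (1 - c * s ^ 32) ^ l ≤ (Nat.factorial 36) / (c ^ 36 * l ^ 4) := by
      refine h3.trans ?_
      rw [exp_neg, inv_le_comm₀ (exp_pos _) (by positivity), inv_div]
      exact le_trans (by gcongr) h4
    have h7 : ((l : ℝ) + 1) ^ 4 ≤ 16 * l ^ 4 := by
      calc _ ≤ (2 * (l : ℝ)) ^ 4 := by gcongr; linarith
        _ = _ := by ring
    calc _ ≤ 1 * (16 * l ^ 4) * ((Nat.factorial 36) / (c ^ 36 * l ^ 4)) := by
          refine mul_le_mul ?_ h6 (pow_nonneg (sub_nonneg.2 hs32) l) (by positivity)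
          have : 0 ≤ ((l : ℝ) + 1) ^ 4 := by positivity
          linarith
      _ = _ := by field_simp

end Crest.Agent.R160
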