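import Crest.Agent.R160.OneStep
import Crest.Agent.R168.Labels
import Crest.Prelude.Def_TreeIsing

set_option autoImplicit false
set_option maxHeartbeats 400000

/-!
The spins are functions of the innovations, which are independent and uniform; the factor map.
-/

namespace Crest.Agent.R160

open Real MeasureTheory Set Filter SimpleGraph Function Topology
open Crest.Agent.R168 (clamp mu0 clamp_of_mem split measurable_split map_split ae_injective)

lemma canon {Ω : Type*} [MeasurableSpace Ω] {μ : Measure Ω} [IsProbabilityMeasure μ] {K : ℕ → Type*}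
    [∀ N, Countable (K N)] [∀ N, MeasurableSpace (K N)] [∀ N, MeasurableSingletonClass (K N)]
    (κ : ∀ N, Ω → K N) (hκ : ∀ N, Measurable (κ N))
    (hmono : ∀ m n, m ≤ n → ∀ x y, κ n x = κ n y → κ m x = κ m y) {σ f : Ω → ℝ} (hσ : BM σ)
    (hf : Measurable[⨆ N, MeasurableSpace.comap (κ N) inferInstance] f) (h : σ =ᵐ[μ] f)
    (h1 : ∀ x, σ x = 1 ∨ σ x = -1) :
    ∀ᵐ x ∂μ, (∀ᶠ N in atTop, 0 < ∫ y, ({κ N x} : Set (K N)).indicator 1 (κ N y) * σ y ∂μ) ↔ σ x = 1 := by
  let ℱ : Filtration ℕ (inferInstance : MeasurableSpace Ω) :=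
    { seq := fun N => MeasurableSpace.comap (κ N) inferInstance
      mono' := fun m n hmn => by
        rintro _ ⟨t, -, rfl⟩
        refine ⟨κ n '' (κ m ⁻¹' t), MeasurableSet.of_discrete, ?_⟩
        ext x
        refine ⟨?_, fun hx => ⟨x, hx, rfl⟩⟩
        rintro ⟨y, hy, hxy⟩
        rwa [mem_preimage, ← hmono m n hmn y x hxy]
      le' := fun N => (hκ N).comap_le }
  have h2 : μ[σ | ⨆ N, ℱ N] =ᵐ[μ] σ := by
    refine (condExp_congr_ae h).trans ?_
    rw [condExp_of_stronglyMeasurable (iSup_le ℱ.le) hf.stronglyMeasurable (hσ.integrable.congr h)]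
    exact h.symm
  have h3 := fun N => proj_spec (μ := μ) (hκ N) hσ
  have h4 : ∀ N c, ∀ᵐ x ∂μ, κ N x = c → 0 < μ.real (κ N ⁻¹' {c}) := fun N c => by
    by_cases h : μ (κ N ⁻¹' {c}) = 0
    · filter_upwards [measure_eq_zero_iff_ae_notMem.1 h] with x hx hx' using absurd hx' hx
    · exact ae_of_all _ fun _ _ => ENNReal.toReal_pos h (measure_ne_top _ _)
  filter_upwards [tendsto_ae_condExp (μ := μ) (ℱ := ℱ) σ, h2,
    ae_all_iff.2 fun N => (h3 N).ae_eq_condExp (hκ N) hσ,
    ae_all_iff.2 fun N => ae_all_iff.2 (h4 N)] with x h5 h6 h7 h8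
  rw [h6] at h5
  have h9 : ∀ N, 0 < ∫ y, ({κ N x} : Set (K N)).indicator 1 (κ N y) * σ y ∂μ ↔
      0 < (μ[σ | ℱ N]) x := fun N => by
    rw [(h3 N).mul_eq (hκ N) hσ (BM.indicator_one (measurableSet_singleton _)), ← h7 N]
    obtain ⟨A, -, hA⟩ := (h3 N).fac
    have : ∀ y, ({κ N x} : Set (K N)).indicator 1 (κ N y) * proj μ (κ N) σ y =
        (κ N ⁻¹' {κ N x}).indicator 1 y * proj μ (κ N) σ x := fun y => by
      by_cases hy : κ N y = κ N x <;> simp [hA, indicator, hy]
    simp only [this]
    rw [integral_mul_const, integral_indicator_one (hκ N (measurableSet_singleton _))]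
    exact mul_pos_iff_of_pos_left (h8 N _ rfl)
  simp only [h9]
  rcases h1 x with h | h <;> rw [h] at h5 ⊢
  · exact iff_of_true (h5.eventually (lt_mem_nhds one_pos)) rfl
  · refine iff_of_false (fun h' => ?_) (by norm_num)
    obtain ⟨N, h10, h11⟩ := (h'.and (h5.eventually (gt_mem_nhds (show (-1 : ℝ) < 0 by norm_num)))).exists
    linarith

lemma tendsto_floor_div (x : ℝ) :
    Tendsto (fun M : ℕ => (⌊((M : ℝ) + 1) * x⌋ : ℝ) / (M + 1)) atTop (𝓝 x) := by
  refine tendsto_of_tendsto_of_tendsto_of_le_of_le (g := fun M : ℕ => x - 1 / ((M : ℝ) + 1))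
    (by simpa using (tendsto_const_nhds (x := x)).sub (tendsto_one_div_add_atTop_nhds_zero_nat (𝕜 := ℝ)))
    tendsto_const_nhds (fun M => ?_) fun M => ?_
  · rw [le_div_iff₀ (by positivity), sub_mul, one_div_mul_cancel (by positivity), mul_comm]
    exact (Int.sub_one_lt_floor _).le
  · rw [div_le_iff₀ (by positivity), mul_comm x]
    exact Int.floor_le _

lemma integral_eps_pos : 0 < ∫ y, eps y ∂mu0 := by
  refine lt_of_lt_of_le (b := ∫ y, (Ico (1 / 4 : ℝ) (1 / 2)).indicator 1 y * ((1 / 4) ^ 31 * (1 / 2)) ∂mu0)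
    ?_ (integral_mono_BM ((BM.indicator_one measurableSet_Ico).mul (BM.const _)) BM_eps
      (ae_of_all _ fun y => ?_))
  · rw [integral_mul_const, integral_indicator_mu0 (by norm_num) (by norm_num) (by norm_num)]
    positivity
  · by_cases hy : y ∈ Ico (1 / 4 : ℝ) (1 / 2)
    · rw [indicator_of_mem hy, Pi.one_apply, one_mul, eps,
        clamp_of_mem (by linarith [hy.1]) (by linarith [hy.2])]
      exact mul_le_mul (pow_le_pow_left₀ (by norm_num) hy.1 _) (by linarith [hy.2]) (by norm_num)
        (pow_nonneg (by linarith [hy.1]) _)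
    · rw [indicator_of_notMem hy, zero_mul]; exact eps_nonneg y

variable {V : Type*} {G : SimpleGraph V} {ρ : V} {θ : ℝ}

lemma law_tau : (PP V θ).map tau = Measure.infinitePi fun _ => mu0 :=
  Measure.map_infinitePi_infinitePi_of_inj (P := mix V θ) (f := Ix.tim) fun _ _ h => Ix.tim.inj h

lemma BM_gobs (j : V × ℕ) : BM fun z => gobs z j := BM.of (measurable_gobs j) 1 fun z => abs_gobs_le z j

lemma integral_gobs (j : V × ℕ) : ∫ z, gobs z j ∂PP V θ = (∫ y, eps y ∂mu0) / 3 := by
  unfold PP
  rw [integral_update _ (.noi j) (BM_gobs j)]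
  have : ∀ z : Ix V → ℝ, ∫ y, gobs (update z (.noi j) y) j ∂mix V θ (.noi j) = eps (z (.tim j)) / 3 :=
    fun z => by
      simp only [gobs, update_self, ne_eq, reduceCtorEq, not_false_eq_true, update_of_ne]
      exact integral_uinv ((abs_eps_le _).trans (by norm_num))
  simp only [this]
  rw [integral_div]
  exact congrArg (· / 3) (integral_coord (.tim j) BM_eps)

/-- join times and innovations -/
def join (e : Dat V) : (V × ℕ) ⊕ (V × ℕ) → ℝ := Sum.elim e.1 e.2

lemma measurable_join : Measurable (join (V := V)) := by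
  refine measurable_pi_lambda _ fun j => ?_
  cases j with
  | inl a => exact (measurable_pi_apply a).comp measurable_fst
  | inr b => exact (measurable_pi_apply b).comp measurable_snd

/-- times and innovations built from the labels -/
noncomputable def lab (x : V → unitInterval) : Dat V :=
  (fun j => split (x j.1) (2 * j.2), fun j => split (x j.1) (2 * j.2 + 1))

lemma measurable_lab : Measurable (lab (V := V)) := by unfold lab; fun_prop

lemma law_lab : (Crest.ProbabilityR.Labels.labelMeasure V).map (fun x => join (lab x)) =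
    Measure.infinitePi fun _ => mu0 := by
  have h1 : (Crest.ProbabilityR.Labels.labelMeasure V).map (fun x a => split (x a)) =
      Measure.infinitePi fun _ : V => Measure.infinitePi fun _ : ℕ => mu0 := by
    unfold Crest.ProbabilityR.Labels.labelMeasure
    rw [Measure.infinitePi_map_pi _ (f := fun _ => split) fun _ => measurable_split, map_split]
  have h2 := Measure.infinitePi_map_curry_symm (fun (_ : V) (_ : ℕ) => mu0)
  let e : (V × ℕ) ⊕ (V × ℕ) → V × ℕ := Sum.elim (fun p => (p.1, 2 * p.2)) fun p => (p.1, 2 * p.2 + 1)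
  have he : Function.Injective e := by
    rintro (⟨a, k⟩ | ⟨a, k⟩) (⟨b, l⟩ | ⟨b, l⟩) h <;>
      simp only [e, Sum.elim_inl, Sum.elim_inr, Prod.mk.injEq] at h <;>
      obtain ⟨rfl, h⟩ := h
    · rw [show k = l by omega]
    · omega
    · omega
    · rw [show k = l by omega]
  have h3 := Measure.map_infinitePi_infinitePi_of_inj (P := fun _ : V × ℕ => mu0) he
  rw [← h3, ← h2, ← h1, Measure.map_map (by fun_prop) (by fun_prop),
    Measure.map_map (by fun_prop) (by fun_prop)]
  congr 1
  funext x j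
  cases j <;> rfl

variable [DecidableEq V] [G.LocallyFinite]

variable (G) in
/-- discretised local data -/
noncomputable def cell (N : ℕ) (v : V) (e : Dat V) :
    ↥((Tk G N v v ×ˢ Finset.range N) ×ˢ Finset.range N) → ℤ × ℤ :=
  fun b => (⌊((b.1.2 : ℝ) + 1) * e.1 b.1.1⌋, ⌊((b.1.2 : ℝ) + 1) * e.2 b.1.1⌋)

lemma measurable_cell (N : ℕ) (v : V) : Measurable (cell G N v) := by unfold cell; fun_prop

lemma cell_eq {N : ℕ} {v : V} {e e' : Dat V} : cell G N v e = cell G N v e' ↔
    ∀ y ∈ Tk G N v v, ∀ i < N, ∀ M < N,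
      ⌊((M : ℝ) + 1) * e.1 (y, i)⌋ = ⌊((M : ℝ) + 1) * e'.1 (y, i)⌋ ∧
      ⌊((M : ℝ) + 1) * e.2 (y, i)⌋ = ⌊((M : ℝ) + 1) * e'.2 (y, i)⌋ :=
  ⟨fun h y hy i hi M hM => Prod.ext_iff.1 (congrFun h ⟨((y, i), M), by simp [hy, hi, hM]⟩),
    fun h => funext fun ⟨⟨⟨y, i⟩, M⟩, hb⟩ => by
      simp only [Finset.mem_product, Finset.mem_range] at hb
      exact Prod.ext_iff.2 (h y hb.1.1 i hb.1.2 M hb.2)⟩

lemma cell_dact (g : G ≃g G) {N : ℕ} {v : V} {e e' : Dat V} :
    cell G N v (dact g e) = cell G N v (dact g e') ↔ cell G N (g v) e = cell G N (g v) e' := by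
  rw [cell_eq, cell_eq]
  refine ⟨fun h y hy => ?_, fun h y hy => h (g y) ((mem_Tk_iso g N v v y).2 hy)⟩
  obtain ⟨y, rfl⟩ := g.surjective y
  exact h y ((mem_Tk_iso g N v v y).1 hy)

lemma cell_gen (hT : G.IsTree) (v : V) {Ω : Type*} (W : Ω → Dat V) :
    Measurable[⨆ N, MeasurableSpace.comap (fun z => cell G N v (W z)) inferInstance] W := by
  have h1 : ∀ (j : V × ℕ) (M : ℕ), Measurable[⨆ N, MeasurableSpace.comap
      (fun z => cell G N v (W z)) inferInstance] fun z =>
      (⌊((M : ℝ) + 1) * (W z).1 j⌋, ⌊((M : ℝ) + 1) * (W z).2 j⌋) := fun j M => by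
    have h2 : Measurable[⨆ N, MeasurableSpace.comap (fun z => cell G N v (W z)) inferInstance]
        fun z => cell G (G.dist v j.1 + j.2 + M + 1) v (W z) :=
      (comap_measurable _).mono (le_iSup (fun N => MeasurableSpace.comap
        (fun z => cell G N v (W z)) inferInstance) _) le_rfl
    exact (measurable_pi_apply (⟨(j, M), by
      simp only [Finset.mem_product, Finset.mem_range, mem_Tk_self hT]; omega⟩ :
      ↥((Tk G _ v v ×ˢ Finset.range _) ×ˢ Finset.range _))).comp h2
  generalize (⨆ N, MeasurableSpace.comap (fun z => cell G N v (W z)) inferInstance) = m at *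
  refine Measurable.prodMk (measurable_pi_lambda _ fun j => ?_) (measurable_pi_lambda _ fun j => ?_)
  · refine measurable_of_tendsto_metrizable (fun M => ?_)
      (tendsto_pi_nhds.2 fun z => tendsto_floor_div ((W z).1 j))
    exact ((measurable_of_countable (Int.cast : ℤ → ℝ)).comp (h1 j M).fst).div_const _
  · refine measurable_of_tendsto_metrizable (fun M => ?_)
      (tendsto_pi_nhds.2 fun z => tendsto_floor_div ((W z).2 j))
    exact ((measurable_of_countable (Int.cast : ℤ → ℝ)).comp (h1 j M).snd).div_const _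

variable (G ρ θ) in
/-- local estimate of the spin -/
noncomputable def est (N : ℕ) (v : V) (e : Dat V) : ℝ :=
  ∫ z, ({cell G N v e} : Set _).indicator 1 (cell G N v (WW G θ (data G ρ z))) * spin G ρ z v ∂PP V θ

open Classical in
variable (G ρ θ) in
/-- the decoding map -/
noncomputable def Psi (e : Dat V) (v : V) : Bool := decide (∀ᶠ N in atTop, 0 < est G ρ θ N v e)

lemma measurable_Psi : Measurable (Psi G ρ θ) := by
  refine measurable_pi_lambda _ fun v => measurable_to_bool ?_
  have : ∀ N, Measurable (est G ρ θ N v) := fun N =>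
    (measurable_of_countable fun c => ∫ z, ({c} : Set _).indicator 1
      (cell G N v (WW G θ (data G ρ z))) * spin G ρ z v ∂PP V θ).comp (measurable_cell N v)
  have e : (fun e => Psi G ρ θ e v) ⁻¹' {true} = ⋃ N, ⋂ M, ⋂ _ : N ≤ M, {e | 0 < est G ρ θ M v e} := by
    ext e; simp [Psi]
  rw [e]
  exact MeasurableSet.iUnion fun N => MeasurableSet.iInter fun M => MeasurableSet.iInter fun _ =>
    measurableSet_lt measurable_const (this M)

lemma Psi_dact (hT : G.IsTree) (g : G ≃g G) (e : Dat V) (v : V) :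
    Psi G ρ θ (dact g e) v = Psi G ρ θ e (g v) := by
  have : ∀ N, est G ρ θ N v (dact g e) = est G ρ θ N (g v) e := fun N => by
    have h1 : Measurable fun z => cell G N v (WW G θ (data G ρ z)) :=
      (measurable_cell N v).comp (by fun_prop)
    have h2 := ((BM.indicator_one (measurableSet_singleton (cell G N v (dact g e)))).comp h1).mul
      (BM_spin (G := G) (ρ := ρ) v)
    refine (integral_comp_mp (mp_act (ρ := ρ) g) h2.1).symm.trans
      (integral_congr_ae (ae_of_all _ fun z => ?_))
    simp only [data_act hT, WW_dact, spin_act hT, indicator, mem_singleton_iff,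
      cell_dact, Pi.one_apply]
  exact decide_eq_decide.2 (by simp only [this])

variable {d : ℕ} (hc : Ctx G θ d)
include hc

lemma spin_approx (v : V) {γ : ℝ} (hγ : 0 < γ) :
    ∃ n, ∫ z, (spin G ρ z v - mm G ρ θ (n + 1) 0 v z) ^ 2 ∂PP V θ ≤ γ := by
  obtain ⟨κ, hκ⟩ : ∃ κ, κ = (∫ y, eps y ∂mu0) / 3 := ⟨_, rfl⟩
  have hκ0 : 0 < κ := by have := integral_eps_pos; rw [hκ]; positivity
  have hκ1 : κ ≤ 1 := by
    have := integral_le_const (μ := mu0) BM_eps (ae_of_all _ eps_le)
    linarith
  obtain ⟨n, hn⟩ := exists_nat_gt (4 / (κ ^ 2 * γ))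
  refine ⟨n, ?_⟩
  have hF : BM fun e : Dat V => (∑ i ∈ Finset.range (n + 1), cl (e.2 (v, i))) / ((n + 1) * κ) :=
    (BM.sum _ fun i _ => BM_cl.comp (by fun_prop)).div_const _
  have hF' := hF.comp (measurable_data G ρ)
  have hm := BM_mm (G := G) (ρ := ρ) (θ := θ) (n + 1) 0 v
  have hs := BM_spin (G := G) (ρ := ρ) v
  have h1 := bayes (ρ := ρ) hc.tree hc.adm hc.reg (PS (n + 1) 0 univ) v
    ((BM_mag (G := G) (θ := θ) (PS (n + 1) 0 univ) v).sub hF) (fun τ u u' h => by
      simp only
      rw [Finset.sum_congr rfl fun i hi => by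
        rw [h (v, i) ⟨Or.inl (Finset.mem_range.1 hi), trivial⟩ trivial]]
      exact congrArg (· - _) (adapted_fld (PS (n + 1) 0 univ) (fun h => mag G θ h v) τ u u' h))
  have h2 := integral_sum_sq_le (mix V θ) (Finset.range (n + 1)) (f := fun i z => gobs z (v, i) - κ)
    (S := fun i => {.tim (v, i), .noi (v, i)}) (fun i _ => (BM_gobs _).sub (BM.const _))
    (fun i _ z z' h => by simp only [gobs, h _ (Or.inl rfl), h _ (Or.inr rfl)])
    (fun i _ j _ hij => by simp [hij, hij.symm])
  have h3 : ∀ i, ∫ z, (gobs z (v, i) - κ) ∂Measure.infinitePi (mix V θ) = 0 := fun i => by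
    rw [integral_sub (BM_gobs _).integrable (integrable_const _), integral_const]
    simp only [probReal_univ, smul_eq_mul, one_mul]
    rw [hκ, sub_eq_zero]
    exact integral_gobs (v, i)
  have h4 := Finset.sum_le_card_nsmul (Finset.range (n + 1)) _ 4 fun i _ =>
    integral_le_const (μ := Measure.infinitePi (mix V θ)) (((BM_gobs (v, i)).sub (BM.const κ)).pow 2)
      (ae_of_all _ fun z => by
        have := abs_le.1 (abs_gobs_le z (v, i))
        nlinarith)
  simp only [h3, Finset.sum_const_zero, Finset.card_range, nsmul_eq_mul, Nat.cast_succ] at h2 h4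
  calc _ ≤ ∫ z, ((∑ i ∈ Finset.range (n + 1), (gobs z (v, i) - κ)) ^ 2 / ((n + 1) * κ) ^ 2 - 2 *
        (spin G ρ z v * (mm G ρ θ (n + 1) 0 v z -
          (∑ i ∈ Finset.range (n + 1), cl ((data G ρ z).2 (v, i))) / ((n + 1) * κ)) -
        mm G ρ θ (n + 1) 0 v z * (mm G ρ θ (n + 1) 0 v z -
          (∑ i ∈ Finset.range (n + 1), cl ((data G ρ z).2 (v, i))) / ((n + 1) * κ)))) ∂PP V θ := by
        refine integral_mono_BM (by bm) (by bm [BM_gobs]) (ae_of_all _ fun z => ?_)
        have e : (∑ i ∈ Finset.range (n + 1), (gobs z (v, i) - κ)) ^ 2 / ((n + 1) * κ) ^ 2 =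
            (spin G ρ z v - (∑ i ∈ Finset.range (n + 1), cl ((data G ρ z).2 (v, i))) /
              ((n + 1) * κ)) ^ 2 := by
          simp only [cl_of_abs (abs_data_le G ρ z _)]
          simp only [data, ← Finset.mul_sum, Finset.sum_sub_distrib, Finset.sum_const,
            Finset.card_range, nsmul_eq_mul, Nat.cast_succ]
          rcases spin_cases (G := G) (ρ := ρ) z v with h | h <;> rw [h] <;> field_simp <;> ring
        rw [e]
        generalize (∑ i ∈ Finset.range (n + 1), cl ((data G ρ z).2 (v, i))) / ((n + 1) * κ) = F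
        nlinarith [sq_nonneg (mm G ρ θ (n + 1) 0 v z - F)]
    _ ≤ γ := by
        rw [integral_sub (BM.integrable (by bm [BM_gobs])) (BM.integrable (by bm)), integral_const_mul,
          integral_sub (BM.integrable (by bm)) (BM.integrable (by bm)), integral_div]
        simp only [mm, hS]
        rw [h1, sub_self, mul_zero, sub_zero, div_le_iff₀ (by positivity)]
        rw [div_lt_iff₀ (by positivity)] at hn
        have h5 : 4 ≤ (n + 1) * (κ ^ 2 * γ) := by
          have : 0 ≤ κ ^ 2 * γ := by positivity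
          linarith
        have h6 := mul_le_mul_of_nonneg_left h5 (show (0 : ℝ) ≤ n + 1 by positivity)
        unfold PP
        nlinarith

lemma spin_meas (v : V) : ∃ A : Dat V → ℝ, BM A ∧
    (fun z => spin G ρ z v) =ᵐ[PP V θ] fun z => A (WW G θ (data G ρ z)) := by
  have hW : Measurable fun z => WW G θ (data G ρ z) := by fun_prop
  have hs := BM_spin (G := G) (ρ := ρ) v
  have h1 := proj_spec (μ := PP V θ) hW hs
  obtain ⟨A, hA, hA'⟩ := h1.fac
  refine ⟨A, hA, ?_⟩
  have key : ∀ {f g : (Ix V → ℝ) → ℝ}, BM f → BM g → ∫ z, (f z - g z) ^ 2 ∂PP V θ ≤ 0 →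
      f =ᵐ[PP V θ] g := fun hf hg h => by
    filter_upwards [(integral_eq_zero_iff_of_nonneg (fun _ => sq_nonneg _)
      ((hf.sub hg).pow 2).integrable).1 (le_antisymm h (integral_nonneg fun _ => sq_nonneg _))] with z hz
    simpa [sub_eq_zero] using hz
  rw [← hA']
  refine key hs (h1.bm hW) (le_of_forall_pos_le_add fun γ hγ => ?_)
  obtain ⟨n, hn⟩ := spin_approx (ρ := ρ) hc v hγ
  have hm := BM_mm (G := G) (ρ := ρ) (θ := θ) (n + 1) 0 v
  obtain ⟨B, hB, hB'⟩ := (pr_spec (G := G) (ρ := ρ) (θ := θ) (n + 1) 0 hm).fac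
  refine (h1.best hW hs (hB.comp (measurable_msk (n + 1) 0))).trans (le_trans (le_of_eq ?_)
    (hn.trans_eq (zero_add _).symm))
  refine integral_congr_ae ?_
  filter_upwards [key hm (BM_pr (n + 1) 0 hm) ((dl_round n v).trans (dl_one hc n v))] with z hz
  rw [hz, hB']
  rfl

lemma Psi_spec : ∀ᵐ z ∂PP V θ,
    Psi G ρ θ (WW G θ (data G ρ z)) = fun v => decide (spin G ρ z v = 1) := by
  haveI := countable_V hc.tree
  have : ∀ v, ∀ᵐ z ∂PP V θ, Psi G ρ θ (WW G θ (data G ρ z)) v = decide (spin G ρ z v = 1) := by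
    intro v
    obtain ⟨A, hA, hA'⟩ := spin_meas (ρ := ρ) hc v
    have h := canon (μ := PP V θ) (fun N z => cell G N v (WW G θ (data G ρ z)))
      (fun N => (measurable_cell N v).comp (by fun_prop)) (fun m n hmn x y h => cell_eq.2
        fun w hw i hi M hM => cell_eq.1 h w (Tk_mono hmn v v hw) i (by omega) M (by omega))
      (BM_spin v) (hA.1.comp ?_) hA' fun z => spin_cases z v
    · filter_upwards [h] with z hz
      exact decide_eq_decide.2 hz
    · refine cell_gen hc.tree v _
  filter_upwards [ae_all_iff.2 this] with z hz using funext hz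

lemma law_UU {f : V × ℕ → ℝ → ℝ} (hf : ∀ j, BM (f j)) (S : Finset (V × ℕ)) :
    ∀ g : (V × ℕ → ℝ) → ℝ, BM g →
      ∫ z, g (tau z) * ∏ j ∈ S, f j (UU G θ (data G ρ z) j) ∂PP V θ =
        (∫ z, g (tau z) ∂PP V θ) * ∏ j ∈ S, ∫ y, f j y ∂mu0 := by
  classical
  haveI := countable_V hc.tree
  induction S using Finset.strongInduction with
  | H S ih =>
    intro g hg
    rcases S.eq_empty_or_nonempty with rfl | hS
    · simp
    obtain ⟨χ, hχ⟩ : ∃ χ : V × ℕ → (V × ℕ → ℝ) → ℝ, ∀ j τ,
        χ j τ = if ∀ i ∈ S.erase j, i ∈ cut j.2 (τ j) τ then 1 else 0 := ⟨_, fun _ _ => rfl⟩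
    have hχb : ∀ j, BM (χ j) := fun j => by
      rw [show χ j = _ from funext (hχ j)]
      refine BM.ite ?_ (BM.const 1) (BM.const 0)
      simp only [setOf_forall]
      exact Finset.measurableSet_biInter _ fun i _ =>
        measurableSet_cut j.2 (measurable_pi_apply j) measurable_id i
    have h1 : ∀ᵐ z ∂PP V θ, ∑ j ∈ S, χ j (tau z) = 1 := by
      have h := ae_injective (A := V × ℕ)
      rw [← law_tau (θ := θ)] at h
      filter_upwards [ae_of_ae_map measurable_tau.aemeasurable h] with z hz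
      generalize tau z = τ at hz
      have e : ∀ i j : V × ℕ, i ∈ cut j.2 (τ j) τ ↔ toLex (i.2, τ i) < toLex (j.2, τ j) :=
        fun i j => by simp [cut, Prod.Lex.toLex_lt_toLex]
      obtain ⟨j, hj, hj'⟩ := S.exists_max_image (fun j => toLex (j.2, τ j)) hS
      rw [Finset.sum_eq_single_of_mem j hj fun i hi hij => ?_, hχ, if_pos fun i hi => ?_]
      · rw [e]
        refine lt_of_le_of_ne (hj' i (Finset.mem_of_mem_erase hi)) fun h => ?_
        exact Finset.ne_of_mem_erase hi (hz (Prod.ext_iff.1 (toLex.injective h)).2)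
      · rw [hχ, if_neg fun h => ?_]
        exact ((e _ _).1 (h j (Finset.mem_erase.2 ⟨hij.symm, hj⟩))).not_ge (hj' i hi)
    have hU : ∀ j, BM fun e => f j (UU G θ e j) := fun j => (hf j).comp (measurable_UU j)
    have hU' : ∀ j, BM fun z => f j (UU G θ (data G ρ z) j) := fun j => (hU j).comp (measurable_data G ρ)
    have hg' := hg.comp measurable_tau
    have hχ' := fun j => (hχb j).comp measurable_tau
    have h2 : ∀ F : (Ix V → ℝ) → ℝ, BM F → ∫ z, g (tau z) * F z ∂PP V θ =
        ∑ j ∈ S, ∫ z, g (tau z) * χ j (tau z) * F z ∂PP V θ := fun F hF => by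
      rw [← integral_finsetSum _ fun j _ => BM.integrable (by bm [hχ'])]
      refine integral_congr_ae ?_
      filter_upwards [h1] with z hz
      rw [← Finset.sum_mul, ← Finset.mul_sum, hz, mul_one]
    have h3 := h2 _ (BM.const 1)
    simp only [mul_one] at h3
    rw [h2 _ (by bm [hU']), h3, Finset.sum_mul]
    refine Finset.sum_congr rfl fun j hj => ?_
    simp only [← Finset.prod_erase_mul S _ hj, ← mul_assoc]
    rw [← ih _ (Finset.erase_ssubset hj) _ (hg.mul (hχb j)), ← integral_mul_const]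
    refine (innovation (ρ := ρ) hc.tree hc.adm hc.reg (PB j) j (notMem_PB _)
      (F := fun p => g p.1.1 * χ j p.1.1 * (∏ i ∈ S.erase j, f i (UU G θ p.1 i)) * f j p.2)
      ((((hg.mul (hχb j)).comp (by fun_prop)).mul (BM.prod _ fun i _ => (hU i).comp measurable_fst)).mul
        ((hf j).comp measurable_snd)) fun y τ u u' h => ?_).trans ?_
    · simp only [hχ]
      split_ifs with h4
      · rw [Finset.prod_congr rfl fun i hi => by
          rw [UU_congr (u' := u') (fun k hk => h k (mem_PB.2 (cut_trans (h4 i hi) hk)) trivial)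
            (h i (mem_PB.2 (h4 i hi)) trivial)]]
      · simp
    · simp only [integral_const_mul]
      rfl

lemma law_WW : (PP V θ).map (fun z => join (WW G θ (data G ρ z))) = Measure.infinitePi fun _ => mu0 := by
  have hW : Measurable fun z => join (WW G θ (data G ρ z)) := measurable_join.comp (by fun_prop)
  refine Measure.eq_infinitePi _ fun s t ht => ?_
  have hs : MeasurableSet (Set.pi (s : Set _) t) := MeasurableSet.pi s.countable_toSet fun i _ => ht i
  have h1 := law_UU (ρ := ρ) hc (f := fun j => (t (.inr j)).indicator 1)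
    (fun j => BM.indicator_one (ht _)) s.toRight
    ((Set.pi (s.toLeft : Set _) fun j => t (.inl j)).indicator 1)
    (BM.indicator_one (MeasurableSet.pi s.toLeft.countable_toSet fun i _ => ht _))
  have h2 : ∀ z, (Set.pi (s.toLeft : Set _) fun j => t (.inl j)).indicator (1 : (V × ℕ → ℝ) → ℝ) (tau z) *
      ∏ j ∈ s.toRight, (t (.inr j)).indicator 1 (UU G θ (data G ρ z) j) =
      ((fun z => join (WW G θ (data G ρ z))) ⁻¹' Set.pi (s : Set _) t).indicator 1 z := fun z => by
    by_cases h : z ∈ (fun z => join (WW G θ (data G ρ z))) ⁻¹' Set.pi (s : Set _) t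
    · rw [indicator_of_mem h, indicator_of_mem (show tau z ∈ Set.pi (s.toLeft : Set _)
        fun j => t (.inl j) from fun j hj => h (.inl j) (by simpa using hj)),
        Finset.prod_eq_one fun j hj => indicator_of_mem (h (.inr j) (by simpa using hj)) _]
      simp
    · rw [indicator_of_notMem h]
      simp only [mem_preimage, Set.mem_pi, not_forall] at h
      obtain ⟨j | j, h3, h4⟩ := h
      · rw [indicator_of_notMem (show tau z ∉ Set.pi (s.toLeft : Set _) fun j => t (.inl j) from
          fun h => h4 (h j (by simpa using h3))), zero_mul]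
      · rw [Finset.prod_eq_zero (i := j) (by simpa using h3) (indicator_of_notMem h4 _), mul_zero]
  simp only [h2] at h1
  rw [integral_indicator_one (hW hs), integral_comp_mp ⟨measurable_tau, law_tau⟩
    (BM.indicator_one (MeasurableSet.pi s.toLeft.countable_toSet fun i _ => ht _)).1,
    integral_indicator_one (MeasurableSet.pi s.toLeft.countable_toSet fun i _ => ht _)] at h1
  simp only [integral_indicator_one (ht _), Measure.real] at h1
  rw [Measure.infinitePi_pi _ fun i _ => ht _, ← ENNReal.toReal_prod, ← ENNReal.toReal_mul,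
    ← Finset.prod_sum_eq_prod_toLeft_mul_prod_toRight s fun i => mu0 (t i)] at h1
  rw [Measure.map_apply hW hs]
  exact (ENNReal.toReal_eq_toReal_iff' (measure_ne_top _ _)
    (ENNReal.prod_ne_top fun _ _ => measure_ne_top _ _)).1 h1

omit [DecidableEq V] in
lemma law_spin (S : Finset V) (η : V → Bool) (hS : (G.induce (S : Set V)).Connected) :
    PP V θ {z | ∀ v ∈ S, decide (spin G ρ z v = 1) = η v} =
      ENNReal.ofReal (Crest.ProbabilityR.TreeIsing.isingWeight G θ S η) := by
  classical
  obtain ⟨⟨v0, hv0⟩⟩ := hS.nonempty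
  obtain ⟨s, hs⟩ : ∃ s : V → ℝ, ∀ v, s v = if η v then 1 else -1 := ⟨_, fun _ => rfl⟩
  obtain ⟨c, hc'⟩ : ∃ c : Sym2 V → ℝ, ∀ e, c e = if (Sym2.map η e).IsDiag then 1 else -1 :=
    ⟨_, fun _ => rfl⟩
  have hs1 : ∀ v, s v = 1 ∨ s v = -1 := fun v => by rw [hs]; split_ifs <;> simp
  have hsc : ∀ a b, c s(a, b) = s a * s b := fun a b => by
    rw [hc', hs, hs]; cases h : η a <;> cases h' : η b <;> simp [h, h']
  have h1 : ∀ z v, decide (spin G ρ z v = 1) = η v ↔ spin G ρ z v = s v := fun z v => by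
    rw [hs]
    rcases spin_cases (G := G) (ρ := ρ) z v with h | h <;> cases η v <;> simp [h] <;> norm_num
  obtain ⟨E, hE⟩ : ∃ E, E = S.sym2.filter fun e => e ∈ G.edgeSet := ⟨_, rfl⟩
  have h2 : ∀ z, (∀ v ∈ S, spin G ρ z v = s v) ↔
      spin G ρ z v0 = s v0 ∧ ∀ e ∈ E, sg (z (.edge e)) = c e := fun z => by
    refine ⟨fun h => ⟨h v0 hv0, fun e => ?_⟩, fun h v hv => ?_⟩
    · refine Sym2.ind (fun a b he => ?_) e
      rw [hE, Finset.mem_filter, Finset.mk_mem_sym2_iff, mem_edgeSet] at he
      rw [hsc, ← spin_adj (ρ := ρ) hc.tree z he.2, h a he.1.1, h b he.1.2]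
    · have h0 := (reachable_iff_reflTransGen _ _).1 (hS.preconnected ⟨v0, hv0⟩ ⟨v, hv⟩)
      suffices H : ∀ w : (S : Set V), Relation.ReflTransGen (G.induce (S : Set V)).Adj ⟨v0, hv0⟩ w →
        spin G ρ z w = s w from H _ h0
      intro w hw
      induction hw with
      | refl => exact h.1
      | @tail a b _ hab ih =>
        have hab : G.Adj a b := hab
        rw [spin_adj' hc.tree z hab, ih, h.2 _ (by
          rw [hE, Finset.mem_filter, Finset.mk_mem_sym2_iff, mem_edgeSet]
          exact ⟨⟨a.2, b.2⟩, hab⟩), hsc, ← mul_assoc, sign_mul_self (hs1 _), one_mul]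
  have hb : ∀ e, BM fun y : ℝ => if sg y = c e then (1 : ℝ) else 0 := fun e =>
    BM.ite (measurable_sg (measurableSet_singleton _)) (BM.const 1) (BM.const 0)
  have hb' : ∀ e, BM fun z : Ix V → ℝ => if sg (z (.edge e)) = c e then (1 : ℝ) else 0 := fun e =>
    (hb e).comp (measurable_pi_apply _)
  have h3 : MeasurableSet {z | ∀ v ∈ S, decide (spin G ρ z v = 1) = η v} := by
    simp only [h1, setOf_forall]
    exact Finset.measurableSet_biInter _ fun v _ => measurable_spin v (measurableSet_singleton _)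
  rw [← ofReal_measureReal (measure_ne_top _ _), ← integral_indicator_one h3]
  congr 1
  have h4 : ∀ z, {z | ∀ v ∈ S, decide (spin G ρ z v = 1) = η v}.indicator (1 : (Ix V → ℝ) → ℝ) z =
      (if spin G ρ z v0 = s v0 then 1 else 0) *
        ∏ e ∈ E, if sg (z (.edge e)) = c e then (1 : ℝ) else 0 := fun z => by
    simp only [indicator, mem_ofPred_eq, h1, h2, Finset.prod_boole, Pi.one_apply, ite_zero_mul_ite_zero,
      mul_one]
  simp only [h4]
  rw [integral_spin (F := fun t z => (if t = s v0 then 1 else 0) *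
    ∏ e ∈ E, if sg (z (.edge e)) = c e then (1 : ℝ) else 0) (by bm [hb']) (by bm [hb'])
    (fun t z y => by simp) v0, integral_const_mul, integral_const_mul, ← add_mul]
  unfold PP
  rw [integral_prod_indep _ E (S := fun e => {.edge e}) (fun e _ => hb' e)
    (fun e _ z z' h => by simp only [h _ rfl]) (fun e _ e' _ h => by simp [h])]
  have h5 : ∀ e, ∫ z, (if sg (z (.edge e)) = c e then (1 : ℝ) else 0) ∂Measure.infinitePi (mix V θ) =
      if (Sym2.map η e).IsDiag then (1 + θ) / 2 else (1 - θ) / 2 := fun e => by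
    refine (integral_coord (.edge e) (hb e)).trans
      ((integral_ber hc.adm.nonneg (by linarith [hc.adm.le]) _).trans ?_)
    rw [sg_of_sign (Or.inl rfl), sg_of_sign (Or.inr rfl), hc']
    by_cases h : (Sym2.map η e).IsDiag
    · rw [if_pos h, if_pos h, if_pos rfl, if_neg (by norm_num)]; ring
    · rw [if_neg h, if_neg h, if_pos rfl, if_neg (by norm_num)]; ring
  simp only [h5]
  unfold Crest.ProbabilityR.TreeIsing.isingWeight
  rw [hE, mul_div_right_comm]
  congr 1
  rcases hs1 v0 with h | h <;> rw [h] <;> norm_num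

theorem main : ∃ Φ : (V → unitInterval) → (V → Bool), Measurable Φ ∧
    (∀ (g : G ≃g G) (x : V → unitInterval), Φ (x ∘ ⇑g) = Φ x ∘ ⇑g) ∧
    ∀ (S : Finset V) (η : V → Bool), (G.induce (S : Set V)).Connected →
      (Crest.ProbabilityR.Labels.labelMeasure V).map Φ {σ | ∀ v ∈ S, σ v = η v} =
        ENNReal.ofReal (Crest.ProbabilityR.TreeIsing.isingWeight G θ S η) := by
  obtain ⟨ρ⟩ := hc.tree.connected.nonempty
  refine ⟨fun x => Psi G ρ θ (lab x), measurable_Psi.comp measurable_lab,
    fun g x => funext fun v => Psi_dact hc.tree g (lab x) v, fun S η hS => ?_⟩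
  have hu : Measurable fun f : (V × ℕ) ⊕ (V × ℕ) → ℝ =>
      Psi G ρ θ (fun j => f (.inl j), fun j => f (.inr j)) := measurable_Psi.comp (by fun_prop)
  have h1 := Measure.map_map (μ := Crest.ProbabilityR.Labels.labelMeasure V) hu
    (measurable_join.comp measurable_lab)
  have hW : Measurable fun z => join (WW G θ (data G ρ z)) := measurable_join.comp (by fun_prop)
  have h2 := Measure.map_map (μ := PP V θ) hu hW
  rw [law_WW hc] at h2
  rw [show join ∘ lab = fun x : V → unitInterval => join (lab x) from rfl, law_lab, h2] at h1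
  have h3 : MeasurableSet {σ : V → Bool | ∀ v ∈ S, σ v = η v} := by
    simp only [setOf_forall]
    exact Finset.measurableSet_biInter _ fun v _ => measurable_pi_apply v (measurableSet_singleton _)
  refine (congrArg (fun μ : Measure (V → Bool) => μ {σ | ∀ v ∈ S, σ v = η v}) h1).symm.trans ?_
  rw [Measure.map_apply (hu.comp hW) h3, ← law_spin (ρ := ρ) hc S η hS]
  refine measure_congr ?_
  filter_upwards [Psi_spec (ρ := ρ) hc] with z hz
  exact congrArg (fun σ : V → Bool => ∀ v ∈ S, σ v = η v) hz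

end Crest.Agent.R160
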