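import Crest.Agent.R168.Prob

set_option autoImplicit false

/-!
General probabilistic tools: bounded measurable functions, independence in product spaces,
projections on the functions of a statistic.
-/

namespace Crest.Agent.R160

open MeasureTheory Set Filter Topology
open Crest.Agent.R168 (integrable_of_bdd)

/-- bounded measurable real functions -/
def BM {Ω : Type*} [MeasurableSpace Ω] (f : Ω → ℝ) : Prop := Measurable f ∧ ∃ C, ∀ x, |f x| ≤ C

section BM

variable {Ω : Type*} [MeasurableSpace Ω] {f g : Ω → ℝ}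

lemma BM.meas (hf : BM f) : Measurable f := hf.1

lemma BM.bdd (hf : BM f) : ∃ C, 0 ≤ C ∧ ∀ x, |f x| ≤ C := by
  obtain ⟨C, hC⟩ := hf.2
  exact ⟨max C 0, le_max_right _ _, fun x => (hC x).trans (le_max_left _ _)⟩

lemma BM.of (hf : Measurable f) (C : ℝ) (h : ∀ x, |f x| ≤ C) : BM f := ⟨hf, C, h⟩

lemma BM.integrable (hf : BM f) {μ : Measure Ω} [IsFiniteMeasure μ] : Integrable f μ :=
  integrable_of_bdd hf.1 _ hf.2.choose_spec

lemma BM.const (c : ℝ) : BM fun _ : Ω => c := ⟨measurable_const, |c|, fun _ => le_rfl⟩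

lemma BM.add (hf : BM f) (hg : BM g) : BM fun x => f x + g x := by
  obtain ⟨C, hC⟩ := hf.2
  obtain ⟨D, hD⟩ := hg.2
  exact ⟨hf.1.add hg.1, C + D, fun x => (abs_add_le _ _).trans (add_le_add (hC x) (hD x))⟩

lemma BM.neg (hf : BM f) : BM fun x => -f x :=
  ⟨hf.1.neg, by simpa using hf.2⟩

lemma BM.sub (hf : BM f) (hg : BM g) : BM fun x => f x - g x := by
  simpa [sub_eq_add_neg] using hf.add hg.neg

lemma BM.mul (hf : BM f) (hg : BM g) : BM fun x => f x * g x := by
  obtain ⟨C, hC0, hC⟩ := hf.bdd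
  obtain ⟨D, hD⟩ := hg.2
  exact ⟨hf.1.mul hg.1, C * D, fun x => by
    rw [abs_mul]; exact mul_le_mul (hC x) (hD x) (abs_nonneg _) hC0⟩

lemma BM.div_const (hf : BM f) (c : ℝ) : BM fun x => f x / c := by
  simpa [div_eq_mul_inv] using hf.mul (BM.const c⁻¹)

lemma BM.pow (hf : BM f) (n : ℕ) : BM fun x => f x ^ n := by
  obtain ⟨C, hC⟩ := hf.2
  exact ⟨hf.1.pow_const n, C ^ n, fun x => by
    rw [abs_pow]; exact pow_le_pow_left₀ (abs_nonneg _) (hC x) n⟩

lemma BM.abs (hf : BM f) : BM fun x => |f x| :=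
  ⟨hf.1.abs, by simpa using hf.2⟩

lemma BM.exp (hf : BM f) : BM fun x => Real.exp (f x) := by
  obtain ⟨C, hC⟩ := hf.2
  exact ⟨hf.1.exp, Real.exp C, fun x => by
    rw [abs_of_pos (Real.exp_pos _)]; exact Real.exp_le_exp.2 ((le_abs_self _).trans (hC x))⟩

lemma BM.sum {ι : Type*} (s : Finset ι) {f : ι → Ω → ℝ} (hf : ∀ i ∈ s, BM (f i)) :
    BM fun x => ∑ i ∈ s, f i x := by
  classical
  induction s using Finset.induction_on with
  | empty => simpa using BM.const 0
  | insert i s hi ih =>
    simp only [Finset.sum_insert hi]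
    exact (hf i (Finset.mem_insert_self _ _)).add (ih fun j hj => hf j (Finset.mem_insert_of_mem hj))

lemma BM.prod {ι : Type*} (s : Finset ι) {f : ι → Ω → ℝ} (hf : ∀ i ∈ s, BM (f i)) :
    BM fun x => ∏ i ∈ s, f i x := by
  classical
  induction s using Finset.induction_on with
  | empty => simpa using BM.const 1
  | insert i s hi ih =>
    simp only [Finset.prod_insert hi]
    exact (hf i (Finset.mem_insert_self _ _)).mul (ih fun j hj => hf j (Finset.mem_insert_of_mem hj))

lemma BM.comp {Ω' : Type*} [MeasurableSpace Ω'] (hf : BM f) {φ : Ω' → Ω} (hφ : Measurable φ) :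
    BM fun x => f (φ x) := ⟨hf.1.comp hφ, hf.2.imp fun _ h x => h (φ x)⟩

lemma BM.ite {p : Ω → Prop} [DecidablePred p] (hp : MeasurableSet {x | p x}) (hf : BM f) (hg : BM g) :
    BM fun x => if p x then f x else g x := by
  obtain ⟨C, hC⟩ := hf.2
  obtain ⟨D, hD⟩ := hg.2
  refine ⟨Measurable.ite hp hf.1 hg.1, max C D, fun x => ?_⟩
  dsimp only
  split_ifs
  · exact (hC x).trans (le_max_left _ _)
  · exact (hD x).trans (le_max_right _ _)

lemma BM.indicator_one {s : Set Ω} (hs : MeasurableSet s) : BM (s.indicator (1 : Ω → ℝ)) :=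
  ⟨measurable_one.indicator hs, 1, fun x => by by_cases h : x ∈ s <;> simp [h]⟩

lemma BM.integral_right {Ω' : Type*} [MeasurableSpace Ω'] {F : Ω × Ω' → ℝ} (hF : BM F)
    (ν : Measure Ω') [IsProbabilityMeasure ν] : BM fun x => ∫ y, F (x, y) ∂ν := by
  obtain ⟨C, hC⟩ := hF.2
  refine ⟨(hF.1.stronglyMeasurable.integral_prod_right' (ν := ν)).measurable, C, fun x => ?_⟩
  simpa using norm_integral_le_of_norm_le_const (μ := ν) (C := C) (f := fun y => F (x, y))
    (ae_of_all _ fun y => hC _)

/-- prove that a function is bounded and measurable -/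
syntax "bm" ("[" term,* "]")? : tactic

macro_rules
  | `(tactic| bm) => `(tactic| bm [])
  | `(tactic| bm [$ts,*]) => `(tactic| repeat' (first
      | with_reducible assumption $[| with_reducible apply $ts]*
      | with_reducible apply BM.const | with_reducible apply BM.add | with_reducible apply BM.sub
      | with_reducible apply BM.mul | with_reducible apply BM.neg
      | with_reducible apply BM.div_const | with_reducible apply BM.pow
      | with_reducible apply BM.abs | with_reducible apply BM.exp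
      | (with_reducible apply BM.sum; intro _ _) | (with_reducible apply BM.prod; intro _ _)
      | assumption))

variable {μ : Measure Ω} [IsProbabilityMeasure μ]

lemma integral_mono_BM (hf : BM f) (hg : BM g) (h : ∀ᵐ x ∂μ, f x ≤ g x) :
    ∫ x, f x ∂μ ≤ ∫ x, g x ∂μ := integral_mono_ae hf.integrable hg.integrable h

lemma integral_le_const (hf : BM f) {C : ℝ} (h : ∀ᵐ x ∂μ, f x ≤ C) : ∫ x, f x ∂μ ≤ C := by
  simpa using integral_mono_BM (μ := μ) hf (BM.const C) h

lemma tendsto_integral_BM {F : ℕ → Ω → ℝ} (hF : ∀ n, Measurable (F n)) (C : ℝ)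
    (hC : ∀ n x, |F n x| ≤ C) (h : ∀ᵐ x ∂μ, Tendsto (fun n => F n x) atTop (𝓝 (f x))) :
    Tendsto (fun n => ∫ x, F n x ∂μ) atTop (𝓝 (∫ x, f x ∂μ)) :=
  tendsto_integral_of_dominated_convergence (fun _ => C) (fun n => (hF n).aestronglyMeasurable)
    (integrable_const C) (fun n => ae_of_all _ (hC n)) h

lemma integral_mul_sq_le (hf : BM f) (hg : BM g) :
    (∫ x, f x * g x ∂μ) ^ 2 ≤ (∫ x, f x ^ 2 ∂μ) * ∫ x, g x ^ 2 ∂μ := by
  have key : ∀ t : ℝ, 0 ≤ (∫ x, g x ^ 2 ∂μ) * (t * t) + (2 * ∫ x, f x * g x ∂μ) * t +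
      ∫ x, f x ^ 2 ∂μ := by
    intro t
    have : 0 ≤ ∫ x, (g x ^ 2 * (t * t) + 2 * (f x * g x) * t + f x ^ 2) ∂μ :=
      integral_nonneg fun x => by
        simp only [Pi.zero_apply]; nlinarith [sq_nonneg (g x * t + f x)]
    rwa [integral_add (BM.integrable (by bm)) (BM.integrable (by bm)),
      integral_add (BM.integrable (by bm)) (BM.integrable (by bm)),
      integral_mul_const, integral_mul_const, integral_const_mul] at this
  have := discrim_le_zero key
  unfold discrim at this
  nlinarith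

omit [IsProbabilityMeasure μ] in
lemma integral_comp_mp {Ω' : Type*} [MeasurableSpace Ω'] {ν : Measure Ω'} {φ : Ω' → Ω}
    (hφ : MeasurePreserving φ ν μ) (hf : Measurable f) : ∫ x, f (φ x) ∂ν = ∫ x, f x ∂μ := by
  rw [← hφ.map_eq, integral_map hφ.measurable.aemeasurable hf.aestronglyMeasurable]

lemma mp_of_integral {φ : Ω → Ω} (hφ : Measurable φ)
    (h : ∀ f : Ω → ℝ, BM f → ∫ x, f (φ x) ∂μ = ∫ x, f x ∂μ) : MeasurePreserving φ μ μ := by
  refine ⟨hφ, Measure.ext fun s hs => ?_⟩
  have : IsProbabilityMeasure (μ.map φ) := Measure.isProbabilityMeasure_map hφ.aemeasurable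
  have h1 := h _ (BM.indicator_one hs)
  rw [← integral_map hφ.aemeasurable (BM.indicator_one hs).1.aestronglyMeasurable,
    integral_indicator_one hs, integral_indicator_one hs] at h1
  exact (ENNReal.toReal_eq_toReal_iff' (measure_ne_top _ _) (measure_ne_top _ _)).1 h1

end BM

/-! ### product spaces -/

section Prod

variable {I X : Type*} [MeasurableSpace X] (μ : I → Measure X) [∀ j, IsProbabilityMeasure (μ j)]

open Classical in
lemma measurable_piecewise' (S : Set I) :
    Measurable fun p : (I → X) × (I → X) => S.piecewise p.2 p.1 := by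
  refine measurable_pi_lambda _ fun j => ?_
  by_cases hj : j ∈ S
  · simp only [piecewise_eq_of_mem _ _ _ hj]; fun_prop
  · simp only [piecewise_eq_of_notMem _ _ _ hj]; fun_prop

open Classical in
lemma infinitePi_piecewise (S : Set I) :
    ((Measure.infinitePi μ).prod (Measure.infinitePi μ)).map (fun p => S.piecewise p.2 p.1) =
      Measure.infinitePi μ := by
  refine Measure.eq_infinitePi _ fun s t ht => ?_
  rw [Measure.map_apply (measurable_piecewise' S) (MeasurableSet.pi s.countable_toSet fun j _ => ht j)]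
  have : (fun p : (I → X) × (I → X) => S.piecewise p.2 p.1) ⁻¹' (s : Set I).pi t =
      ((s.filter (· ∉ S) : Finset I) : Set I).pi t ×ˢ ((s.filter (· ∈ S) : Finset I) : Set I).pi t := by
    ext p
    simp only [mem_preimage, Set.mem_pi, Finset.mem_coe, mem_prod, Finset.mem_filter]
    constructor
    · intro h
      refine ⟨fun j hj => ?_, fun j hj => ?_⟩
      · simpa [hj.2] using h j hj.1
      · simpa [hj.2] using h j hj.1
    · rintro ⟨h1, h2⟩ j hj
      by_cases hjS : j ∈ S
      · simpa [hjS] using h2 j ⟨hj, hjS⟩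
      · simpa [hjS] using h1 j ⟨hj, hjS⟩
  rw [this, Measure.prod_prod, Measure.infinitePi_pi _ (fun j _ => ht j),
    Measure.infinitePi_pi _ (fun j _ => ht j), mul_comm, Finset.prod_filter_mul_prod_filter_not]

open Classical in
lemma integral_piecewise' (S : Set I) {f : (I → X) → ℝ} (hf : BM f) :
    ∫ z, f z ∂Measure.infinitePi μ =
      ∫ z, ∫ z', f (S.piecewise z' z) ∂Measure.infinitePi μ ∂Measure.infinitePi μ := by
  conv_lhs => rw [← infinitePi_piecewise μ S]
  rw [integral_map (measurable_piecewise' S).aemeasurable hf.1.aestronglyMeasurable, integral_prod]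
  exact (hf.comp (measurable_piecewise' S)).integrable

lemma integral_piecewise_congr (S : Set I) {f : (I → X) → ℝ} (hf : BM f)
    (g : (I → X) → (I → X) → ℝ)
    (h : ∀ z z' w, (∀ k ∈ S, w k = z' k) → (∀ k ∉ S, w k = z k) → f w = g z z') :
    ∫ z, f z ∂Measure.infinitePi μ =
      ∫ z, ∫ z', g z z' ∂Measure.infinitePi μ ∂Measure.infinitePi μ := by
  classical
  rw [integral_piecewise' μ S hf]
  congr 1; funext z; congr 1; funext z'
  exact h _ _ _ (fun k hk => piecewise_eq_of_mem _ _ _ hk) fun k hk => piecewise_eq_of_notMem _ _ _ hk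

lemma integral_update [DecidableEq I] (i : I) {f : (I → X) → ℝ} (hf : BM f) :
    ∫ z, f z ∂Measure.infinitePi μ =
      ∫ z, ∫ y, f (Function.update z i y) ∂μ i ∂Measure.infinitePi μ :=
  R168.integral_infinitePi_update μ i hf.1 _ hf.2.choose_spec

lemma integral_update' [DecidableEq I] (i : I) {f : (I → X) → ℝ} (hf : BM f) :
    ∫ z, f z ∂Measure.infinitePi μ =
      ∫ y, ∫ z, f (Function.update z i y) ∂Measure.infinitePi μ ∂μ i := by
  rw [integral_update μ i hf, integral_integral_swap]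
  exact (hf.comp measurable_update').integrable

lemma integral_mul_indep {f g : (I → X) → ℝ} (hf : BM f) (hg : BM g) {S T : Set I}
    (hS : DependsOn f S) (hT : DependsOn g T) (hST : Disjoint S T) :
    ∫ z, f z * g z ∂Measure.infinitePi μ =
      (∫ z, f z ∂Measure.infinitePi μ) * ∫ z, g z ∂Measure.infinitePi μ := by
  classical
  rw [integral_piecewise' μ S (hf.mul hg)]
  have h1 : ∀ z z' : I → X, f (S.piecewise z' z) = f z' := fun z z' =>
    hS fun i hi => piecewise_eq_of_mem _ _ _ hi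
  have h2 : ∀ z z' : I → X, g (S.piecewise z' z) = g z := fun z z' =>
    hT fun i hi => piecewise_eq_of_notMem _ _ _ (disjoint_right.1 hST hi)
  simp only [h1, h2, integral_mul_const, integral_const_mul]

lemma integral_prod_indep {ι : Type*} (s : Finset ι) {f : ι → (I → X) → ℝ} {S : ι → Set I}
    (hf : ∀ i ∈ s, BM (f i)) (hS : ∀ i ∈ s, DependsOn (f i) (S i))
    (hd : ∀ i ∈ s, ∀ j ∈ s, i ≠ j → Disjoint (S i) (S j)) :
    ∫ z, ∏ i ∈ s, f i z ∂Measure.infinitePi μ = ∏ i ∈ s, ∫ z, f i z ∂Measure.infinitePi μ := by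
  classical
  induction s using Finset.induction_on with
  | empty => simp
  | insert i s hi ih =>
    simp only [Finset.prod_insert hi]
    rw [integral_mul_indep μ (hf i (Finset.mem_insert_self _ _))
      (BM.prod s fun j hj => hf j (Finset.mem_insert_of_mem hj)) (hS i (Finset.mem_insert_self _ _))
      (T := ⋃ j ∈ s, S j), ih (fun j hj => hf j (Finset.mem_insert_of_mem hj))
        (fun j hj => hS j (Finset.mem_insert_of_mem hj))
        (fun j hj k hk => hd j (Finset.mem_insert_of_mem hj) k (Finset.mem_insert_of_mem hk))]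
    · intro x y hxy
      exact Finset.prod_congr rfl fun j hj => hS j (Finset.mem_insert_of_mem hj)
        fun k hk => hxy k (mem_biUnion hj hk)
    · simp only [disjoint_iUnion_right]
      exact fun j hj => hd i (Finset.mem_insert_self _ _) j (Finset.mem_insert_of_mem hj)
        fun h => hi (h ▸ hj)

end Prod

/-! ### projections -/

section Proj

variable {Ω E : Type*} [MeasurableSpace Ω] [MeasurableSpace E] (μ : Measure Ω)

/-- `a` is the projection of `f` on the functions of the statistic `I`. -/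
structure IsProj (I : Ω → E) (f a : Ω → ℝ) : Prop where
  fac : ∃ A : E → ℝ, BM A ∧ a = fun x => A (I x)
  orth : ∀ B : E → ℝ, BM B → ∫ x, B (I x) * (f x - a x) ∂μ = 0

variable {μ} [IsProbabilityMeasure μ] {I : Ω → E} {f a : Ω → ℝ}

omit [IsProbabilityMeasure μ] in
lemma IsProj.bm (h : IsProj μ I f a) (hI : Measurable I) : BM a := by
  obtain ⟨A, hA, rfl⟩ := h.fac
  exact hA.comp hI

lemma IsProj.ae_eq_condExp (h : IsProj μ I f a) (hI : Measurable I) (hf : BM f) :
    a =ᵐ[μ] μ[f | MeasurableSpace.comap I inferInstance] := by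
  have ha := h.bm hI
  refine ae_eq_condExp_of_forall_setIntegral_eq hI.comap_le hf.integrable
    (fun s _ _ => ha.integrable.integrableOn) (fun s hs _ => ?_) ?_
  · have hs' : MeasurableSet s := hI.comap_le s hs
    obtain ⟨B, hB, rfl⟩ := hs
    have := h.orth _ (BM.indicator_one hB)
    rw [← sub_eq_zero, ← integral_sub ha.integrable.integrableOn hf.integrable.integrableOn,
      ← integral_indicator hs', ← neg_eq_zero, ← integral_neg, ← this]
    refine integral_congr_ae (ae_of_all _ fun x => ?_)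
    by_cases hx : I x ∈ B
    · simp [indicator_of_mem hx, indicator_of_mem (show x ∈ I ⁻¹' B from hx)]
    · simp [indicator_of_notMem hx, indicator_of_notMem (show x ∉ I ⁻¹' B from hx)]
  · obtain ⟨A, hA, rfl⟩ := h.fac
    exact (hA.1.comp (comap_measurable I)).aestronglyMeasurable

lemma orth_condExp {Ω : Type*} {m : MeasurableSpace Ω} {m0 : MeasurableSpace Ω} {μ : Measure Ω}
    [IsProbabilityMeasure μ] (hm : m ≤ m0) {f b : Ω → ℝ} (hf : BM f) (hb : Measurable[m] b) (C : ℝ)
    (hC : ∀ x, |b x| ≤ C) : ∫ x, b x * f x ∂μ = ∫ x, b x * (μ[f | m]) x ∂μ := by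
  have h4 := condExp_stronglyMeasurable_mul_of_bound hm (μ := μ) hb.stronglyMeasurable
    hf.integrable C (ae_of_all _ hC)
  rw [← integral_condExp hm]
  exact integral_congr_ae h4

lemma exists_isProj (hI : Measurable I) (hf : BM f) {K : ℝ} (hK : ∀ x, |f x| ≤ K) :
    ∃ a, IsProj μ I f a ∧ ∀ x, |a x| ≤ K := by
  have hK0 : 0 ≤ K := by
    obtain ⟨x⟩ := nonempty_of_isProbabilityMeasure μ
    exact (abs_nonneg _).trans (hK x)
  obtain ⟨A, hA, e⟩ := (stronglyMeasurable_condExp (m := MeasurableSpace.comap I inferInstance)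
    (μ := μ) (f := f)).measurable.exists_eq_measurable_comp
  have hb : ∀ᵐ x ∂μ, |(μ[f | MeasurableSpace.comap I inferInstance]) x| ≤ K := by
    have := ae_bdd_abs_condExp_of_ae_bdd_abs (m := MeasurableSpace.comap I inferInstance) (μ := μ)
      (R := K) (f := f) (ae_of_all _ hK)
    exact this
  have hcl : ∀ y : ℝ, |max (-K) (min K y)| ≤ K := fun y =>
    abs_le.2 ⟨le_max_left _ _, max_le (by linarith) (min_le_left _ _)⟩
  have hA' : BM fun e => max (-K) (min K (A e)) := BM.of (by fun_prop) K fun e => hcl _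
  refine ⟨fun x => max (-K) (min K (A (I x))), ⟨⟨_, hA', rfl⟩, fun B hB => ?_⟩, fun x => hcl _⟩
  obtain ⟨C, hC⟩ := hB.2
  have h1 := orth_condExp (μ := μ) hI.comap_le hf (hB.1.comp (comap_measurable I)) C fun x => hC _
  simp only [mul_sub]
  rw [integral_sub ((hB.comp hI).mul hf).integrable ((hB.comp hI).mul (hA'.comp hI)).integrable,
    sub_eq_zero]
  refine h1.trans (integral_congr_ae ?_)
  filter_upwards [hb] with x hx
  rw [e] at hx ⊢
  simp only [Function.comp] at hx ⊢
  rw [min_eq_right (abs_le.1 hx).2, max_eq_right (abs_le.1 hx).1]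

lemma IsProj.unique {f' a' : Ω → ℝ} (h : IsProj μ I f a) (h' : IsProj μ I f' a') (hI : Measurable I)
    (hf : BM f) (hf' : BM f') (hff : f =ᵐ[μ] f') : a =ᵐ[μ] a' :=
  (h.ae_eq_condExp hI hf).trans ((condExp_congr_ae hff).trans (h'.ae_eq_condExp hI hf').symm)

lemma IsProj.nonpos (h : IsProj μ I f a) (hI : Measurable I) (hf : BM f) (h0 : ∀ x, f x ≤ 0) :
    ∀ᵐ x ∂μ, a x ≤ 0 := by
  filter_upwards [h.ae_eq_condExp hI hf, condExp_nonpos (μ := μ)
    (m := MeasurableSpace.comap I inferInstance) (ae_of_all _ h0)] with x h1 h2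
  exact h1.trans_le h2

lemma IsProj.nonneg (h : IsProj μ I f a) (hI : Measurable I) (hf : BM f) (h0 : ∀ x, 0 ≤ f x) :
    ∀ᵐ x ∂μ, 0 ≤ a x := by
  filter_upwards [h.ae_eq_condExp hI hf, condExp_nonneg (μ := μ)
    (m := MeasurableSpace.comap I inferInstance) (ae_of_all _ h0)] with x h1 h2
  exact h2.trans_eq h1.symm

lemma IsProj.mul_eq (h : IsProj μ I f a) (hI : Measurable I) (hf : BM f) {B : E → ℝ} (hB : BM B) :
    ∫ x, B (I x) * f x ∂μ = ∫ x, B (I x) * a x ∂μ := by
  have := h.orth B hB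
  simp only [mul_sub] at this
  rwa [integral_sub ((hB.comp hI).mul hf).integrable ((hB.comp hI).mul (h.bm hI)).integrable,
    sub_eq_zero] at this

lemma IsProj.integral_eq (h : IsProj μ I f a) (hI : Measurable I) (hf : BM f) :
    ∫ x, a x ∂μ = ∫ x, f x ∂μ := by
  simpa using (h.mul_eq hI hf (BM.const 1)).symm

lemma IsProj.best (h : IsProj μ I f a) (hI : Measurable I) (hf : BM f) {B : E → ℝ} (hB : BM B) :
    ∫ x, (f x - a x) ^ 2 ∂μ ≤ ∫ x, (f x - B (I x)) ^ 2 ∂μ := by
  have ha := h.bm hI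
  have hb := hB.comp hI
  obtain ⟨A, hA, e⟩ := h.fac
  have h1 := h.orth (fun e => A e - B e) (hA.sub hB)
  have h2 : ∫ x, (f x - a x) ^ 2 ∂μ =
      ∫ x, ((f x - a x) ^ 2 + 2 * ((A (I x) - B (I x)) * (f x - a x))) ∂μ := by
    have := hA.comp hI
    rw [integral_add (BM.integrable (by bm)) (BM.integrable (by bm)),
      integral_const_mul, h1]
    simp
  rw [h2]
  have := hA.comp hI
  refine integral_mono_BM (by bm) (by bm) (ae_of_all _ fun x => ?_)
  simp only [e]
  nlinarith [sq_nonneg (A (I x) - B (I x))]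

omit [IsProbabilityMeasure μ] in
lemma IsProj.comp {E' : Type*} [MeasurableSpace E'] {I' : Ω → E'} (h : IsProj μ I f a)
    (hI : Measurable I) (hf : BM f) {φ : Ω → Ω} (hφ : MeasurePreserving φ μ μ) {ψ : E' → E}
    {ψ' : E → E'} (hψ : Measurable ψ) (hψ' : Measurable ψ') (h1 : ∀ x, I (φ x) = ψ (I' x))
    (h2 : ∀ x, I' x = ψ' (I (φ x))) : IsProj μ I' (fun x => f (φ x)) fun x => a (φ x) := by
  have ha := h.bm hI
  constructor
  · obtain ⟨A, hA, rfl⟩ := h.fac
    exact ⟨fun e => A (ψ e), hA.comp hψ, by simp only [h1]⟩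
  · intro B hB
    simp only [h2]
    rw [← h.orth _ (hB.comp hψ')]
    have := (hB.comp hψ').comp hI
    have h3 : BM fun x => B (ψ' (I x)) * (f x - a x) := by bm
    conv_rhs => rw [← hφ.map_eq, integral_map hφ.measurable.aemeasurable h3.1.aestronglyMeasurable]

end Proj

end Crest.Agent.R160
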