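import Crest.Agent.R160.Tree

set_option autoImplicit false

/-!
Two-point homogeneity of regular trees.
-/

namespace Crest.Agent.R160

open SimpleGraph

variable {V : Type*} {G : SimpleGraph V}

/-- the map built level by level from local bijections -/
noncomputable def ext (G : SimpleGraph V) (o o' : V) (β : V → V → V → V) : ℕ → V → V
  | 0, _ => o'
  | n + 1, v => β (nxt G o v) (ext G o o' β n (nxt G o v)) v

lemma exists_iso_of_local (hT : G.IsTree) (o o' : V) (β : V → V → V → V)
    (hβ : ∀ v v', G.dist v o = G.dist v' o' → Set.BijOn (β v v') (G.neighborSet v) (G.neighborSet v') ∧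
      (v ≠ o → β v v' (nxt G o v) = nxt G o' v')) :
    ∃ g : G ≃g G, g o = o' ∧ ∀ v, v ≠ o → g v = β (nxt G o v) (g (nxt G o v)) v := by
  let f : V → V := fun v => ext G o o' β (G.dist v o) v
  have f0 : f o = o' := by simp [f, ext]
  have fs : ∀ v, v ≠ o → f v = β (nxt G o v) (f (nxt G o v)) v := by
    intro v hv
    simp only [f]
    rw [← (nxt_spec hT hv).2]; rfl
  have hne : ∀ v, v ≠ o → nxt G o v ≠ o → v ≠ nxt G o (nxt G o v) := by
    intro v hv hp h
    have h1 := (nxt_spec hT hv).2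
    have h2 := (nxt_spec hT hp).2
    rw [← h] at h2; omega
  have key : ∀ v, G.dist (f v) o' = G.dist v o ∧ (v ≠ o → nxt G o' (f v) = f (nxt G o v)) := by
    refine dist_induction hT o ⟨by simp [f0], fun h => absurd rfl h⟩ fun v hv ih => ?_
    obtain ⟨hb, hp⟩ := hβ _ _ ih.1.symm
    have hv1 := nxt_spec hT hv
    have hadj : G.Adj (f (nxt G o v)) (f v) := by rw [fs v hv]; exact hb.mapsTo hv1.1.symm
    have hn : nxt G o' (f (nxt G o v)) ≠ f v := by
      by_cases hpo : nxt G o v = o
      · rw [hpo, f0, nxt_self]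
        rw [hpo, f0] at hadj
        exact hadj.ne
      · rw [← hp hpo, fs v hv]
        intro h
        exact hne v hv hpo (hb.injOn (nxt_spec hT hpo).1 hv1.1.symm h).symm
    refine ⟨?_, fun _ => nxt_back hT hadj hn⟩
    rw [dist_of_ne_nxt hT hadj hn, ih.1, hv1.2]
  have hinj : ∀ v w, f v = f w → v = w := by
    refine dist_induction hT o (fun w h => ?_) fun v hv ih w h => ?_
    · have := (key w).1
      rw [← h, f0] at this
      simp only [dist_self] at this
      exact ((dist_eq_zero' hT).1 this.symm).symm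
    · have hw : w ≠ o := by
        rintro rfl
        have := (key v).1
        rw [h, f0] at this
        simp only [dist_self] at this
        exact hv ((dist_eq_zero' hT).1 this.symm)
      have h1 : nxt G o v = nxt G o w := ih _ (by rw [← (key v).2 hv, ← (key w).2 hw, h])
      rw [fs v hv, fs w hw, ← h1] at h
      refine (hβ _ _ (key _).1.symm).1.injOn (nxt_spec hT hv).1.symm ?_ h
      rw [h1]; exact (nxt_spec hT hw).1.symm
  have hsurj : ∀ w, ∃ v, f v = w := by
    refine dist_induction hT o' ⟨o, f0⟩ fun w hw ⟨p, hp⟩ => ?_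
    obtain ⟨hb, hpp⟩ := hβ _ _ (key p).1.symm
    have hw1 := nxt_spec hT hw
    obtain ⟨c, hc, hcw⟩ := hb.surjOn (show w ∈ G.neighborSet (f p) by rw [hp]; exact hw1.1.symm)
    have hn : nxt G o p ≠ c := by
      by_cases hpo : p = o
      · rw [hpo, nxt_self]; rw [hpo] at hc; exact (show G.Adj o c from hc).ne
      · intro h
        rw [← h, hpp hpo, hp] at hcw
        have hp' : nxt G o' w ≠ o' := by
          intro h'
          rw [h', nxt_self] at hcw
          exact hw hcw.symm
        have := (nxt_spec hT hp').2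
        rw [hcw] at this; omega
    have hco : c ≠ o := by
      rintro rfl
      have := dist_of_ne_nxt hT hc hn
      simp at this
    refine ⟨c, ?_⟩
    rw [fs c hco, nxt_back hT hc hn, hcw]
  have hadj1 : ∀ v, v ≠ o → G.Adj (f v) (f (nxt G o v)) := by
    intro v hv
    have : f v ≠ o' := fun h => hv (hinj _ _ (h.trans f0.symm))
    rw [← (key v).2 hv]; exact (nxt_spec hT this).1
  have hadj2 : ∀ a b, G.Adj (f a) (f b) → nxt G o' (f a) = f b → G.Adj a b := by
    intro a b h h1
    have ha : a ≠ o := by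
      rintro rfl
      rw [f0, nxt_self] at h1
      rw [f0] at h
      exact h.ne h1
    rw [(key a).2 ha] at h1
    rw [← hinj _ _ h1]; exact (nxt_spec hT ha).1
  refine ⟨⟨Equiv.ofBijective f ⟨hinj, hsurj⟩, fun {a b} => ⟨fun h => ?_, fun h => ?_⟩⟩, f0, fs⟩
  · by_cases h1 : nxt G o' (f a) = f b
    · exact hadj2 a b h h1
    · exact (hadj2 b a h.symm (nxt_back hT h h1)).symm
  · show G.Adj (f a) (f b)
    by_cases h1 : nxt G o a = b
    · have ha : a ≠ o := by rintro rfl; rw [nxt_self] at h1; exact h.ne h1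
      rw [← h1]; exact hadj1 a ha
    · have h2 := nxt_back hT h h1
      have hb : b ≠ o := by rintro rfl; rw [nxt_self] at h2; exact h.ne h2.symm
      rw [← h2]; exact (hadj1 b hb).symm

lemma bijOn_fix [DecidableEq V] {s t : Set V} {f : V → V} (hf : Set.BijOn f s t) {a a' : V}
    (ha : a ∈ s) (ha' : a' ∈ t) : Set.BijOn (Equiv.swap (f a) a' ∘ f) s t := by
  refine Set.BijOn.comp ?_ hf
  have h1 : Set.MapsTo (Equiv.swap (f a) a') t t := by
    intro y hy
    rw [Equiv.swap_apply_def]
    split_ifs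
    · exact ha'
    · exact hf.mapsTo ha
    · exact hy
  exact ⟨h1, (Equiv.injective _).injOn, fun y hy => ⟨_, h1 hy, Equiv.swap_apply_self _ _ _⟩⟩

lemma exists_bijOn_two {s t : Set V} {f : V → V} (hf : Set.BijOn f s t) (P Q : Prop)
    {a a' b b' : V} (hP : P → a ∈ s ∧ a' ∈ t) (hQ : Q → b ∈ s ∧ b' ∈ t)
    (hPQ : P → Q → a ≠ b ∧ a' ≠ b') :
    ∃ f' : V → V, Set.BijOn f' s t ∧ (P → f' a = a') ∧ (Q → f' b = b') := by
  classical
  have h1 : ∃ f₁ : V → V, Set.BijOn f₁ s t ∧ (P → f₁ a = a') := by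
    by_cases hp : P
    · exact ⟨_, bijOn_fix hf (hP hp).1 (hP hp).2, fun _ => by simp⟩
    · exact ⟨f, hf, fun h => absurd h hp⟩
  obtain ⟨f₁, hf₁, h₁⟩ := h1
  by_cases hq : Q
  · refine ⟨_, bijOn_fix hf₁ (hQ hq).1 (hQ hq).2, fun hp => ?_, fun _ => by simp⟩
    simp only [Function.comp, h₁ hp]
    refine Equiv.swap_apply_of_ne_of_ne ?_ (hPQ hp hq).2
    rw [← h₁ hp]
    exact fun h => (hPQ hp hq).1 (hf₁.injOn (hP hp).1 (hQ hq).1 h)
  · exact ⟨f₁, hf₁, h₁, fun h => absurd h hq⟩

/-- two-point homogeneity -/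
theorem exists_iso [G.LocallyFinite] {d : ℕ} (hT : G.IsTree) (hreg : G.IsRegularOfDegree d)
    {o x o' x' : V} (h : G.dist o x = G.dist o' x') : ∃ g : G ≃g G, g o = o' ∧ g x = x' := by
  classical
  have hb : ∀ v v' : V, ∃ f : V → V, Set.BijOn f (G.neighborSet v) (G.neighborSet v') := by
    intro v v'
    have e : G.neighborSet v ≃ G.neighborSet v' := Fintype.equivOfCardEq (by
      rw [card_neighborSet_eq_degree, card_neighborSet_eq_degree, hreg.degree_eq, hreg.degree_eq])
    refine ⟨fun y => if hy : y ∈ G.neighborSet v then e ⟨y, hy⟩ else y, fun y hy => ?_,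
      fun y hy y' hy' hyy => ?_, fun y hy => ?_⟩
    · simp only [dif_pos hy]; exact (e ⟨y, hy⟩).2
    · simp only [dif_pos hy, dif_pos hy'] at hyy
      exact congrArg Subtype.val (e.injective (Subtype.ext hyy))
    · exact ⟨e.symm ⟨y, hy⟩, (e.symm ⟨y, hy⟩).2, by simp⟩
  have hβ : ∀ v v' : V, ∃ f : V → V, G.dist v o = G.dist v' o' →
      Set.BijOn f (G.neighborSet v) (G.neighborSet v') ∧ (v ≠ o → f (nxt G o v) = nxt G o' v') ∧
      ((∃ i < G.dist o x, v = geo G o x i ∧ v' = geo G o' x' i) → f (nxt G x v) = nxt G x' v') := by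
    intro v v'
    by_cases hd : G.dist v o = G.dist v' o'
    swap
    · exact ⟨id, fun h => absurd h hd⟩
    obtain ⟨f, hf⟩ := hb v v'
    have hv' : v ≠ o → v' ≠ o' := by
      rintro hv rfl
      simp only [dist_self] at hd
      exact hv ((dist_eq_zero' hT).1 hd)
    obtain ⟨f', h1, h2, h3⟩ := exists_bijOn_two hf (v ≠ o)
      (∃ i < G.dist o x, v = geo G o x i ∧ v' = geo G o' x' i)
      (a := nxt G o v) (a' := nxt G o' v') (b := nxt G x v) (b' := nxt G x' v')
      (fun hv => ⟨(nxt_spec hT hv).1, (nxt_spec hT (hv' hv)).1⟩)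
      (by
        rintro ⟨i, hi, rfl, rfl⟩
        exact ⟨(nxt_spec hT (geo_ne hT o x hi)).1, (nxt_spec hT (geo_ne hT o' x' (h ▸ hi))).1⟩)
      (by
        rintro hv ⟨i, hi, rfl, rfl⟩
        have key : ∀ o x : V, i < G.dist o x → geo G o x i ≠ o →
            nxt G o (geo G o x i) ≠ nxt G x (geo G o x i) := by
          intro o x hi hv h
          have h1 := (nxt_spec hT hv).2
          rw [h, ← geo_succ, dist_geo' hT o x hi, dist_geo' hT o x hi.le] at h1
          omega
        exact ⟨key o x hi hv, key o' x' (h ▸ hi) (hv' hv)⟩)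
    exact ⟨f', fun _ => ⟨h1, h2, h3⟩⟩
  choose β hβ using hβ
  obtain ⟨g, g0, gs⟩ := exists_iso_of_local hT o o' β fun v v' hd => ⟨(hβ v v' hd).1, (hβ v v' hd).2.1⟩
  have key : ∀ i ≤ G.dist o x, g (geo G o x i) = geo G o' x' i := by
    intro i hi
    induction i with
    | zero => exact g0
    | succ i ih =>
      have hne : geo G o x (i + 1) ≠ o := by
        intro h'
        have := dist_geo' hT o x hi
        rw [h'] at this; simp at this
      rw [gs _ hne, nxt_geo_back hT o x hi, ih (by omega), geo_succ, geo_succ]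
      refine (hβ _ _ ?_).2.2 ⟨i, hi, rfl, rfl⟩
      rw [dist_geo' hT o x (by omega), dist_geo' hT o' x' (by omega)]
  refine ⟨g, g0, ?_⟩
  have := key _ le_rfl
  rwa [geo_dist hT, h, geo_dist hT] at this

end Crest.Agent.R160
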