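import Crest.Agent.R160.Temper

set_option autoImplicit false
set_option maxHeartbeats 400000

/-!
Innovations, their symmetries, and projections on past innovations.
-/

namespace Crest.Agent.R160

open Real MeasureTheory Set Filter SimpleGraph Function Topology

section Proj

variable {Ω E : Type*} [MeasurableSpace Ω] [MeasurableSpace E] (μ : Measure Ω)

open Classical in
/-- a chosen projection -/
noncomputable def proj (I : Ω → E) (f : Ω → ℝ) : Ω → ℝ :=
  if h : ∃ a, IsProj μ I f a then h.choose else 0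

variable {μ} [IsProbabilityMeasure μ] {I : Ω → E} {f : Ω → ℝ}

lemma proj_spec (hI : Measurable I) (hf : BM f) : IsProj μ I f (proj μ I f) := by
  obtain ⟨K, hK⟩ := hf.2
  obtain ⟨a, ha, -⟩ := exists_isProj (μ := μ) hI hf hK
  have h : ∃ a, IsProj μ I f a := ⟨a, ha⟩
  rw [proj, dif_pos h]
  exact h.choose_spec

lemma BM_proj (hI : Measurable I) (hf : BM f) : BM (proj μ I f) := (proj_spec hI hf).bm hI

lemma abs_proj_le (hI : Measurable I) (hf : BM f) {K : ℝ} (hK : ∀ x, |f x| ≤ K) :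
    ∀ᵐ x ∂μ, |proj μ I f x| ≤ K := by
  obtain ⟨a, ha, ha'⟩ := exists_isProj (μ := μ) hI hf hK
  filter_upwards [(proj_spec hI hf).unique ha hI hf hf EventuallyEq.rfl] with x hx
  rw [hx]; exact ha' x

lemma proj_comp (hI : Measurable I) (hf : BM f) {φ : Ω → Ω} (hφ : MeasurePreserving φ μ μ)
    {ψ ψ' : E → E} (hψ : Measurable ψ) (hψ' : Measurable ψ') (h1 : ∀ x, I (φ x) = ψ (I x))
    (h2 : ∀ e, ψ' (ψ e) = e) {f' : Ω → ℝ} (hf' : BM f') (h : (fun x => f (φ x)) =ᵐ[μ] f') :
    (fun x => proj μ I f (φ x)) =ᵐ[μ] proj μ I f' :=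
  ((proj_spec hI hf).comp hI hf hφ hψ hψ' h1 fun x => by rw [h1, h2]).unique (proj_spec hI hf') hI
    (hf.comp hφ.measurable) hf' h

end Proj

variable {V : Type*}

/-- the observations made before `j` -/
def PB (j : V × ℕ) : Pat V where
  N := j.2 + 1
  a τ := (PS j.2 (τ j) univ).a τ
  meas i := (measurableSet_cut j.2 (measurable_pi_apply j) measurable_id i).inter
    (MeasurableSet.const _)
  lt _ _ h := lt_of_mem_cut h.1

lemma notMem_PB (j : V × ℕ) (τ : V × ℕ → ℝ) : j ∉ (PB j).a τ := by simp [PB, PS, cut]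

lemma mem_PB {i j : V × ℕ} {τ : V × ℕ → ℝ} : i ∈ (PB j).a τ ↔ i ∈ cut j.2 (τ j) τ := by
  simp [PB, PS]

lemma cut_trans {n : ℕ} {s : ℝ} {τ : V × ℕ → ℝ} {j : V × ℕ} (hj : j ∈ cut n s τ) :
    cut j.2 (τ j) τ ⊆ cut n s τ := by
  rintro i (hi | hi) <;> rcases hj with hj | hj
  · exact Or.inl (by omega)
  · exact Or.inl (by omega)
  · exact Or.inl (by omega)
  · exact Or.inr ⟨by omega, hi.2.trans hj.2⟩

open Classical in
/-- hide the future -/
noncomputable def msk (n : ℕ) (s : ℝ) (e : Dat V) : Dat V :=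
  (fun j => if j ∈ cut n s e.1 then e.1 j else 2, fun j => if j ∈ cut n s e.1 then e.2 j else 1 / 2)

/-- action on the data -/
def dact (g : V → V) (e : Dat V) : Dat V :=
  (fun j => e.1 (g j.1, j.2), fun j => e.2 (g j.1, j.2))

/-- flip of the observations -/
def dneg (e : Dat V) : Dat V := (e.1, fun j => -e.2 j)

/-- flip of the innovations -/
def dflip (e : Dat V) : Dat V := (e.1, fun j => 1 - e.2 j)

@[fun_prop] lemma measurable_msk (n : ℕ) (s : ℝ) : Measurable (msk (V := V) n s) := by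
  refine Measurable.prodMk (measurable_pi_lambda _ fun j => ?_) (measurable_pi_lambda _ fun j => ?_)
  all_goals
    exact Measurable.ite (measurableSet_cut n measurable_const measurable_fst j) (by fun_prop)
      measurable_const

@[fun_prop] lemma measurable_dact (g : V → V) : Measurable (dact g) := by unfold dact; fun_prop

@[fun_prop] lemma measurable_dflip : Measurable (dflip (V := V)) := by unfold dflip; fun_prop

lemma dflip_dflip (e : Dat V) : dflip (dflip e) = e := by simp [dflip]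

lemma dact_symm {G : SimpleGraph V} (g : G ≃g G) (e : Dat V) : dact g.symm (dact g e) = e := by
  simp [dact]

lemma msk_dact (n : ℕ) (s : ℝ) (g : V → V) (e : Dat V) :
    msk n s (dact g e) = dact g (msk n s e) := rfl

lemma msk_dflip (n : ℕ) (s : ℝ) (e : Dat V) : msk n s (dflip e) = dflip (msk n s e) := by
  refine Prod.ext rfl (funext fun j => ?_)
  simp only [msk, dflip]
  split_ifs <;> norm_num

lemma msk_msk {n n' : ℕ} {s s' : ℝ} (hs : s ≤ 2) {e : Dat V} (h : cut n s e.1 ⊆ cut n' s' e.1) :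
    msk n s (msk n' s' e) = msk n s e := by
  have key : ∀ j, j ∈ cut n s (msk n' s' e).1 ↔ j ∈ cut n s e.1 := fun j => by
    by_cases hj : j ∈ cut n' s' e.1
    · simp only [cut, msk, mem_ofPred_eq] at hj ⊢
      rw [if_pos hj]
    · refine iff_of_false ?_ fun h' => hj (h h')
      rintro (h' | h')
      · exact hj (h (Or.inl h'))
      · have := h'.2
        simp only [msk, if_neg hj] at this
        linarith
  refine Prod.ext (funext fun j => ?_) (funext fun j => ?_)
  all_goals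
    simp only [msk] at key ⊢
    by_cases hj : j ∈ cut n s e.1
    · rw [if_pos ((key j).2 hj), if_pos hj, if_pos (h hj)]
    · rw [if_neg (mt (key j).1 hj), if_neg hj]

lemma fld_dneg (P : Pat V) (e : Dat V) : P.fld (dneg e) = fun v => -P.fld e v := by
  funext v
  simp only [Pat.fld, dneg, ← Finset.sum_neg_distrib]
  refine Finset.sum_congr rfl fun i _ => ?_
  split_ifs
  · simpa using eta_sign (Or.inr rfl) (e.1 (v, i)) (e.2 (v, i))
  · simp

lemma fld_dact (n : ℕ) (r : ℝ) (g : V → V) (e : Dat V) :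
    (PS n r univ).fld (dact g e) = fun v => (PS n r univ).fld e (g v) := rfl

/-- agreement away from one observation -/
def Agree (j : V × ℕ) (e e' : Dat V) : Prop := ∀ i, i ≠ j → e.1 i = e'.1 i ∧ e.2 i = e'.2 i

lemma Agree.cut {j : V × ℕ} {e e' : Dat V} (h : Agree j e e') {n : ℕ} {s : ℝ} (h1 : j ∉ cut n s e.1)
    (h2 : j ∉ cut n s e'.1) (i : V × ℕ) : i ∈ cut n s e.1 ↔ i ∈ cut n s e'.1 := by
  by_cases hi : i = j
  · subst hi; exact iff_of_false h1 h2
  · simp only [R160.cut, mem_ofPred_eq, (h i hi).1]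

lemma Agree.fld {j : V × ℕ} {e e' : Dat V} (h : Agree j e e') {n : ℕ} {r : V → ℝ} (A : Set V)
    (h1 : j ∉ R160.cut n (r j.1) e.1) (h2 : j ∉ R160.cut n (r j.1) e'.1) :
    (PV n r A).fld e = (PV n r A).fld e' := by
  funext x
  refine Finset.sum_congr rfl fun i _ => ?_
  by_cases hi : (x, i) = j
  · subst hi
    rw [if_neg fun h' => h1 h'.1, if_neg fun h' => h2 h'.1]
  · have : (x, i) ∈ (PV n r A).a e.1 ↔ (x, i) ∈ (PV n r A).a e'.1 := by
      simp only [PV, R160.cut, mem_ofPred_eq, (h _ hi).1]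
    rw [(h _ hi).1, (h _ hi).2, propext this]

variable {G : SimpleGraph V} {ρ : V} {θ : ℝ}

lemma agree_update (z : Ix V → ℝ) (j : V × ℕ) (y y' : ℝ) :
    Agree j (data G ρ (update z (.tim j) y)) (data G ρ (update z (.tim j) y')) := by
  intro i hi
  simp [data, tau, gobs, spin_update_tim, hi]

lemma data_act (hT : G.IsTree) (g : G ≃g G) (z : Ix V → ℝ) :
    data G ρ (act ρ g z) = dact g (data G ρ z) := by
  refine Prod.ext (funext fun j => act_tim g z j) (funext fun j => ?_)
  simp only [data, dact, gobs, spin_act hT, act_tim, act_noi]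

lemma data_flip (z : Ix V → ℝ) : data G ρ (flip z) = dneg (data G ρ z) := by
  refine Prod.ext (funext fun j => ?_) (funext fun j => ?_)
  · simp [data, dneg, tau, flip]
  · simp only [data, dneg, spin_flip]
    simp [gobs, flip]

variable [DecidableEq V] [G.LocallyFinite]

lemma mag_iso (g : G ≃g G) (h : V → ℝ) (v : V) :
    mag G θ (fun v => h (g v)) v = mag G θ h (g v) := by simp only [mag, Hi_iso]

lemma ell_iso (g : G ≃g G) (h : V → ℝ) (v : V) :
    ell G θ (fun v => h (g v)) v = ell G θ h (g v) := by simp only [ell, mag_iso]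

lemma ge_iso (g : G ≃g G) (h : V → ℝ) (v w : V) :
    ge G θ (fun v => h (g v)) v w = ge G θ h (g v) (g w) := by simp only [ge, Hi_iso]

lemma Wp_iso (hT : G.IsTree) (g : G ≃g G) (h : V → ℝ) (k : ℕ) (v w : V) :
    Wp G θ (fun v => h (g v)) k v w = Wp G θ h k (g v) (g w) := by
  simp only [Wp, Hi_iso, geo_iso hT]

lemma mag_neg (h : V → ℝ) (v : V) : mag G θ (fun v => -h v) v = -mag G θ h v := by
  simp only [mag, Hi_neg, tanh_neg]

lemma ge_neg (h : V → ℝ) (v w : V) : ge G θ (fun v => -h v) v w = ge G θ h v w := by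
  have : ∀ a, GG θ (-a) = GG θ a := fun a => by simpa using GG_sign θ (Or.inr rfl) a
  simp only [ge, Hi_neg, this]

omit [DecidableEq V] [G.LocallyFinite] in
lemma hS_act (hT : G.IsTree) (n : ℕ) (r : ℝ) (g : G ≃g G) (z : Ix V → ℝ) :
    hS G ρ n r univ (act ρ g z) = fun v => hS G ρ n r univ z (g v) := by
  simp only [hS, data_act hT, fld_dact]

omit [DecidableEq V] [G.LocallyFinite] in
lemma hS_flip (n : ℕ) (r : ℝ) (z : Ix V → ℝ) :
    hS G ρ n r univ (flip z) = fun v => -hS G ρ n r univ z v := by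
  simp only [hS, data_flip, fld_dneg]

variable (G θ) in
/-- innovations -/
noncomputable def UU (e : Dat V) (j : V × ℕ) : ℝ :=
  cdf (eps (e.1 j) * mag G θ ((PB j).fld e) j.1) (cl (e.2 j))

variable (G θ) in
/-- times and innovations -/
noncomputable def WW (e : Dat V) : Dat V := (e.1, UU G θ e)

variable (G ρ θ) in
/-- past times and innovations -/
noncomputable def II (n : ℕ) (s : ℝ) (z : Ix V → ℝ) : Dat V := msk n s (WW G θ (data G ρ z))

@[fun_prop] lemma measurable_UU (j : V × ℕ) : Measurable fun e => UU G θ e j := by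
  unfold UU; fun_prop

@[fun_prop] lemma measurable_WW : Measurable (WW G θ) := by
  unfold WW; fun_prop

@[fun_prop] lemma measurable_II (n : ℕ) (s : ℝ) : Measurable (II G ρ θ n s) := by
  unfold II; fun_prop

lemma WW_dact (g : G ≃g G) (e : Dat V) : WW G θ (dact g e) = dact g (WW G θ e) := by
  refine Prod.ext rfl (funext fun j => ?_)
  exact congrArg (fun m => cdf (eps (e.1 (g j.1, j.2)) * m) (cl (e.2 (g j.1, j.2))))
    (mag_iso g ((PB (g j.1, j.2)).fld e) j.1)

lemma WW_dneg (e : Dat V) : WW G θ (dneg e) = dflip (WW G θ e) := by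
  refine Prod.ext rfl (funext fun j => ?_)
  have : cl (-e.2 j) = -cl (e.2 j) := by simpa using cl_sign (Or.inr rfl) (e.2 j)
  simp only [WW, dflip, UU, fld_dneg, mag_neg]
  simp only [dneg, this, cdf]
  ring

lemma II_act (hT : G.IsTree) (n : ℕ) (s : ℝ) (g : G ≃g G) (z : Ix V → ℝ) :
    II G ρ θ n s (act ρ g z) = dact g (II G ρ θ n s z) := by
  rw [II, data_act hT, WW_dact, msk_dact, II]

lemma II_flip (n : ℕ) (s : ℝ) (z : Ix V → ℝ) :
    II G ρ θ n s (flip z) = dflip (II G ρ θ n s z) := by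
  rw [II, data_flip, WW_dneg, msk_dflip, II]

lemma UU_congr {τ u u' : V × ℕ → ℝ} {j : V × ℕ} (h : ∀ i ∈ cut j.2 (τ j) τ, u i = u' i)
    (hj : u j = u' j) : UU G θ (τ, u) j = UU G θ (τ, u') j := by
  have : (PB j).fld (τ, u) = (PB j).fld (τ, u') :=
    funext fun x => Pat.fld_congr _ fun i hi _ => h i (mem_PB.1 hi)
  simp only [UU, this, hj]

lemma msk_WW_congr {n : ℕ} {s : ℝ} {τ u u' : V × ℕ → ℝ} (h : ∀ i ∈ cut n s τ, u i = u' i) :
    msk n s (WW G θ (τ, u)) = msk n s (WW G θ (τ, u')) := by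
  simp only [msk, WW]
  refine congrArg _ (funext fun j => ?_)
  split_ifs with hj
  · exact UU_congr (fun i hi => h i (cut_trans hj hi)) (h j hj)
  · rfl

lemma Agree.msk_WW {j : V × ℕ} {e e' : Dat V} (h : Agree j e e') {n : ℕ} {s : ℝ}
    (h1 : j ∉ R160.cut n s e.1) (h2 : j ∉ R160.cut n s e'.1) :
    msk n s (WW G θ e) = msk n s (WW G θ e') := by
  refine Prod.ext (funext fun i => ?_) (funext fun i => ?_)
  all_goals
    simp only [msk, WW]
    by_cases hi : i ∈ R160.cut n s e.1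
    · have hi' := (h.cut h1 h2 i).1 hi
      have hij : i ≠ j := by rintro rfl; exact h1 hi
      rw [if_pos hi, if_pos hi']
      first
      | exact (h i hij).1
      | have h3 : (PB i).fld e = (PB i).fld e' := by
          have := h.fld (n := i.2) (r := fun _ => e.1 i) univ (fun h' => h1 (cut_trans hi h'))
            (fun h' => h2 (cut_trans hi' (by rwa [← (h i hij).1])))
          refine this.trans ?_
          rw [(h i hij).1]; rfl
        simp only [UU, h3, (h i hij).1, (h i hij).2]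
    · rw [if_neg hi, if_neg (mt (h.cut h1 h2 i).2 hi)]

variable (G ρ θ) in
/-- projection on the past innovations -/
noncomputable def pr (n : ℕ) (s : ℝ) (f : (Ix V → ℝ) → ℝ) : (Ix V → ℝ) → ℝ :=
  proj (PP V θ) (II G ρ θ n s) f

lemma pr_spec (n : ℕ) (s : ℝ) {f : (Ix V → ℝ) → ℝ} (hf : BM f) :
    IsProj (PP V θ) (II G ρ θ n s) f (pr G ρ θ n s f) := proj_spec (measurable_II n s) hf

lemma BM_pr (n : ℕ) (s : ℝ) {f : (Ix V → ℝ) → ℝ} (hf : BM f) : BM (pr G ρ θ n s f) :=
  BM_proj (measurable_II n s) hf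

lemma pr_act (hT : G.IsTree) (n : ℕ) (s : ℝ) {f f' : (Ix V → ℝ) → ℝ} (hf : BM f) (hf' : BM f')
    (g : G ≃g G) (h : (fun z => f (act ρ g z)) =ᵐ[PP V θ] f') :
    (fun z => pr G ρ θ n s f (act ρ g z)) =ᵐ[PP V θ] pr G ρ θ n s f' :=
  proj_comp (measurable_II n s) hf (mp_act g) (measurable_dact g) (measurable_dact g.symm)
    (II_act hT n s g) (dact_symm g) hf' h

lemma pr_flip (n : ℕ) (s : ℝ) {f f' : (Ix V → ℝ) → ℝ} (hf : BM f) (hf' : BM f')
    (h : (fun z => f (flip z)) =ᵐ[PP V θ] f') :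
    (fun z => pr G ρ θ n s f (flip z)) =ᵐ[PP V θ] pr G ρ θ n s f' :=
  proj_comp (measurable_II n s) hf mp_flip measurable_dflip measurable_dflip
    (II_flip n s) dflip_dflip hf' h

variable (G ρ θ) in
/-- magnetisation at time `s` of round `n` -/
noncomputable def mm (n : ℕ) (s : ℝ) (v : V) (z : Ix V → ℝ) : ℝ := mag G θ (hS G ρ n s univ z) v

lemma BM_mm (n : ℕ) (s : ℝ) (v : V) : BM (mm G ρ θ n s v) := BM_mag_hS n s univ v

variable (G ρ θ) in
/-- the part of the magnetisation not determined by the innovations -/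
noncomputable def dl (n : ℕ) (s : ℝ) (v : V) : ℝ :=
  ∫ z, (mm G ρ θ n s v z - pr G ρ θ n s (mm G ρ θ n s v) z) ^ 2 ∂PP V θ

lemma dl_nonneg (n : ℕ) (s : ℝ) (v : V) : 0 ≤ dl G ρ θ n s v := integral_nonneg fun _ => sq_nonneg _

lemma mm_act (hT : G.IsTree) (n : ℕ) (s : ℝ) (g : G ≃g G) (v : V) (z : Ix V → ℝ) :
    mm G ρ θ n s v (act ρ g z) = mm G ρ θ n s (g v) z := by
  rw [mm, hS_act hT, mag_iso, mm]

lemma dl_le_sq (n : ℕ) (s : ℝ) (v : V) : dl G ρ θ n s v ≤ ∫ z, mm G ρ θ n s v z ^ 2 ∂PP V θ := by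
  simpa [dl] using (pr_spec n s (BM_mm n s v)).best (measurable_II n s) (BM_mm n s v) (BM.const 0)

lemma dl_le_one (n : ℕ) (s : ℝ) (v : V) : dl G ρ θ n s v ≤ 1 :=
  (dl_le_sq n s v).trans (integral_le_const ((BM_mm n s v).pow 2) (ae_of_all _ fun _ =>
    (sq_le_one_iff_abs_le_one _).2 (abs_mag_le _ _)))

omit [DecidableEq V] in
lemma fld_round (n : ℕ) (e : Dat V) : (PS (n + 1) 0 univ).fld e = (PS n 1 univ).fld e := by
  funext x
  simp only [Pat.fld, PS, Finset.sum_range_succ (n := n + 1), cut, mem_ofPred_eq, mem_univ, and_true]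
  rw [show (if n + 1 < n + 1 ∨ True ∧ e.1 (x, n + 1) < 0 then eta (e.1 (x, n + 1)) (e.2 (x, n + 1))
    else 0) = 0 from ?_, add_zero]
  · refine Finset.sum_congr rfl fun i hi => ?_
    have hi := Finset.mem_range.1 hi
    rw [if_pos (Or.inl hi)]
    split_ifs with h
    · rfl
    · refine eta_of_eps (eps_of_one_le ?_) _
      by_contra h'
      exact h (by rcases Nat.lt_or_ge i n with h1 | h1; exacts [Or.inl h1, Or.inr ⟨by omega, not_le.1 h'⟩])
  · split_ifs with h
    · exact eta_of_eps (eps_of_neg (by rcases h with h | h; exacts [by omega, h.2.le])) _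
    · rfl

lemma dl_round (n : ℕ) (v : V) : dl G ρ θ (n + 1) 0 v ≤ dl G ρ θ n 1 v := by
  have e : mm G ρ θ (n + 1) 0 v = mm G ρ θ n 1 v := by
    funext z; simp only [mm, hS, fld_round]
  obtain ⟨A, hA, hA'⟩ := (pr_spec (G := G) (ρ := ρ) (θ := θ) n 1 (BM_mm (G := G) (ρ := ρ) n 1 v)).fac
  refine ((pr_spec (n + 1) 0 (BM_mm (n + 1) 0 v)).best (measurable_II _ _) (BM_mm _ _ v)
    (hA.comp (measurable_msk n 1))).trans (le_of_eq ?_)
  rw [dl, hA', e]
  congr 1
  funext z
  simp only [II]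
  rw [msk_msk (by norm_num) fun j hj => Or.inl (lt_of_mem_cut hj)]

variable {d : ℕ} (hc : Ctx G θ d)
include hc

lemma dl_eq (n : ℕ) (s : ℝ) (v w : V) : dl G ρ θ n s v = dl G ρ θ n s w := by
  obtain ⟨g, -, rfl⟩ := exists_iso hc.tree hc.reg (o := v) (x := v) (o' := w) (x' := w) (by simp)
  rw [dl, ← integral_comp_mp (mp_act (ρ := ρ) g) (((BM_mm n s v).sub (BM_pr n s (BM_mm n s v))).pow 2).1]
  refine integral_congr_ae ?_
  filter_upwards [pr_act hc.tree n s (BM_mm n s v) (BM_mm n s (g v)) g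
    (ae_of_all _ (mm_act hc.tree n s g v))] with z hz
  rw [hz, mm_act hc.tree]

lemma dl_small {γ : ℝ} (hγ : 0 < γ) (v : V) : ∃ s, 0 < s ∧ s < 1 ∧ dl G ρ θ 0 s v ≤ γ := by
  obtain ⟨C, c, hC, hc0, h⟩ := tail (ρ := ρ) hc
  obtain ⟨s, hs0, hs1, hs⟩ : ∃ s : ℝ, 0 < s ∧ s < 1 ∧ s * (1 + C / c) ≤ γ := by
    refine ⟨min (1 / 2) (γ / (1 + C / c)), by positivity, (min_le_left _ _).trans_lt (by norm_num), ?_⟩
    rw [← le_div_iff₀ (by positivity)]; exact min_le_right _ _
  refine ⟨s, hs0, hs1, (dl_le_sq 0 s v).trans ?_⟩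
  have h1 := h s hs0 hs1.le v v (Or.inl rfl)
  have hb : BM fun w => (if s ^ 5 < |tanh (Hi G θ (hS G ρ 0 s univ w) v v)| then (1 : ℝ) else 0) :=
    BM.ite (measurableSet_lt measurable_const (by fun_prop)) (BM.const 1) (BM.const 0)
  have h2 : s ^ 10 ≤ s := pow_le_of_le_one hs0.le hs1.le (by norm_num)
  have h3 : exp (-(c / s ^ 10)) ≤ s ^ 10 / c := by
    rw [exp_neg, inv_le_comm₀ (exp_pos _) (by positivity), inv_div]
    linarith [add_one_le_exp (c / s ^ 10)]
  calc _ ≤ ∫ w, (s ^ 10 + if s ^ 5 < |tanh (Hi G θ (hS G ρ 0 s univ w) v v)| then (1 : ℝ) else 0)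
        ∂PP V θ := by
        refine integral_mono_BM ((BM_mm 0 s v).pow 2) (by bm) (ae_of_all _ fun w => ?_)
        have h4 : |mm G ρ θ 0 s v w| ≤ 1 := abs_mag_le _ _
        split_ifs with h5
        · have := (sq_le_one_iff_abs_le_one _).2 h4
          have : 0 ≤ s ^ 10 := by positivity
          linarith
        · rw [← sq_abs, add_zero, show s ^ 10 = (s ^ 5) ^ 2 by ring]
          exact pow_le_pow_left₀ (abs_nonneg _) (not_lt.1 h5) 2
    _ ≤ s + C * (s / c) := by
        rw [integral_add (integrable_const _) hb.integrable, integral_const]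
        simp only [probReal_univ, smul_eq_mul, one_mul]
        refine add_le_add h2 (h1.trans (mul_le_mul_of_nonneg_left (h3.trans ?_) (by linarith)))
        gcongr
    _ ≤ γ := by linarith [show s + C * (s / c) = s * (1 + C / c) by ring]

end Crest.Agent.R160
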