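import Crest.Agent.R160.Static

set_option autoImplicit false

/-!
Lower bound on the second moment of the cavity magnetisation and the resulting decay rate.
-/

namespace Crest.Agent.R160

open Real MeasureTheory Set Filter SimpleGraph Function Topology
open Crest.Agent.R168 (clamp mu0 clamp_nonneg clamp_le_one clamp_of_mem measurable_clamp)

variable {V : Type*} {G : SimpleGraph V} {ρ : V} {θ : ℝ}

lemma integral_coord (k : Ix V) {f : ℝ → ℝ} (hf : BM f) :
    ∫ z, f (z k) ∂PP V θ = ∫ y, f y ∂mix V θ k := by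
  unfold PP
  rw [integral_update _ k (hf.comp (measurable_pi_apply k))]
  simp

lemma integral_indicator_mu0 {a b : ℝ} (ha : 0 ≤ a) (hab : a ≤ b) (hb : b ≤ 1) :
    ∫ y, (Ico a b).indicator (1 : ℝ → ℝ) y ∂mu0 = b - a := by
  rw [integral_indicator_one measurableSet_Ico, mu0, measureReal_restrict_apply measurableSet_Ico,
    inter_eq_left.2 (show Ico a b ⊆ Icc 0 1 from fun y hy => ⟨ha.trans hy.1, hy.2.le.trans hb⟩), volume_real_Ico_of_le hab]

lemma fld_zero (s : ℝ) (A : Set V) (d : Dat V) {x : V} (hx : x ∈ A) : (PS 0 s A).fld d x =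
    if d.1 (x, 0) < s then eta (d.1 (x, 0)) (d.2 (x, 0)) else 0 := by
  simp [Pat.fld, PS, cut, hx]

lemma t0_lower {s : ℝ} (hs0 : 0 < s) (hs1 : s ≤ 1) (x : V) :
    ((s / 4) ^ 32 / 4) ^ 2 ≤ ∫ w, tanh (gfld 0 s univ w x) ^ 2 ∂PP V θ := by
  have hf : BM fun y : ℝ => if y < s then eps y ^ 2 / 3 else 0 :=
    BM.ite (measurableSet_lt measurable_id measurable_const) ((BM_eps.pow 2).div_const 3) (BM.const 0)
  have e1 : ∫ w, tanh (gfld 0 s univ w x) ^ 2 ∂PP V θ =
      ∫ w, (if w (.tim (x, 0)) < s then eps (w (.tim (x, 0))) ^ 2 / 3 else 0) ∂PP V θ := by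
    unfold PP
    rw [integral_update _ (.noi (x, 0)) ((BM_tanh.comp (measurable_gfld 0 s univ x)).pow 2)]
    refine integral_congr_ae (ae_of_all _ fun w => ?_)
    have ha : |eps (w (.tim (x, 0)))| ≤ 1 / 2 := (abs_eps_le _).trans (by norm_num)
    simp only [gfld, fld_zero s univ _ (mem_univ x), tau, gobs, mix, update_self, ne_eq,
      reduceCtorEq, not_false_eq_true, update_of_ne]
    split_ifs
    · simp only [tanh_eta, cl_of_abs (abs_uinv_le ha _), mul_pow]
      rw [integral_const_mul, integral_uinv_sq ha]; ring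
    · simp
  rw [e1, integral_coord (.tim (x, 0)) hf]
  have h1 := integral_indicator_mu0 (a := s / 4) (b := s / 2) (by linarith) (by linarith) (by linarith)
  have h2 : ((s / 4) ^ 32 / 4) ^ 2 ≤ ((s / 4) ^ 31 / 2) ^ 2 / 3 * (s / 2 - s / 4) := by
    have h3 : 0 < s / 4 := by linarith
    have : ((s / 4) ^ 31 / 2) ^ 2 / 3 * (s / 2 - s / 4) - ((s / 4) ^ 32 / 4) ^ 2 =
        (s / 4) ^ 63 * (1 / 12 - s / 64) := by ring
    have h4 : 0 ≤ (s / 4) ^ 63 * (1 / 12 - s / 64) := mul_nonneg (by positivity) (by linarith)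
    linarith
  rw [← h1, ← integral_const_mul] at h2
  refine h2.trans (integral_mono_BM ((BM.const _).mul (BM.indicator_one measurableSet_Ico)) hf
    (ae_of_all _ fun y => ?_))
  by_cases hy : y ∈ Ico (s / 4) (s / 2)
  · rw [indicator_of_mem hy, if_pos (by linarith [hy.2]), Pi.one_apply, mul_one]
    have h3 : (s / 4) ^ 31 / 2 ≤ eps y := by
      unfold eps
      rw [clamp_of_mem (by linarith [hy.1]) (by linarith [hy.2]), div_eq_mul_one_div _ 2]
      exact mul_le_mul (pow_le_pow_left₀ (by linarith) hy.1 _) (by linarith [hy.2]) (by norm_num)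
        (pow_nonneg (by linarith [hy.1]) _)
    gcongr
  · rw [indicator_of_notMem hy, mul_zero]
    split_ifs <;> positivity

variable [DecidableEq V] [G.LocallyFinite] {d : ℕ} (hc : Ctx G θ d)
include hc

lemma integral_spin_Hn (P : Pat V) (k : ℕ) (p z : V) :
    ∫ w, spin G ρ w z * tanh (Hn G θ (P.fld (data G ρ w)) k p z) ∂PP V θ =
      ∫ w, tanh (Hn G θ (P.fld (data G ρ w)) k p z) ^ 2 ∂PP V θ := by
  simp only [sq]
  exact bayes_fin hc.tree hc.adm P k p z (BM_tanh_Hn (G := G) (θ := θ) P k p z)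
    (adapted_Hn P k p z tanh)

lemma z_step (s : ℝ) (k : ℕ) (p z : V) {A : ℝ} (hA0 : 0 < A)
    (hA : A ≤ ∫ w, tanh (gfld 0 s univ w z) ^ 2 ∂PP V θ + θ ^ 2 * ∑ c ∈ ch G p z,
      ∫ w, tanh (Hn G θ (hS G ρ 0 s univ w) k z c) ^ 2 ∂PP V θ) :
    A / (1 + A) ≤ ∫ w, tanh (Hn G θ (hS G ρ 0 s univ w) (k + 1) p z) ^ 2 ∂PP V θ := by
  have hT := hc.tree
  have hz : z ∉ ch G p z := fun h => (mem_ch.1 h).2.ne rfl
  obtain ⟨X, hX0, hX1⟩ : ∃ X : V → (Ix V → ℝ) → ℝ, (∀ w, X z w = tanh (gfld 0 s univ w z)) ∧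
      ∀ c ∈ ch G p z, ∀ w, X c w = θ * (sg (w (.edge s(z, c))) *
        tanh (spin G ρ w c * Hn G θ (hS G ρ 0 s univ w) k z c)) :=
    ⟨fun c w => if c = z then tanh (gfld 0 s univ w z) else θ * (sg (w (.edge s(z, c))) *
        tanh (spin G ρ w c * Hn G θ (hS G ρ 0 s univ w) k z c)), by simp,
      fun c hc' w => if_neg (by rintro rfl; exact hz hc')⟩
  have hb0 : BM fun w => tanh (gfld 0 s univ w z) := BM_tanh.comp (measurable_gfld 0 s univ z)
  have hb1 : ∀ c, BM fun w => tanh (spin G ρ w c * Hn G θ (hS G ρ 0 s univ w) k z c) :=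
    fun c => BM_tanh.comp (by fun_prop)
  have hb2 : ∀ e, BM fun w : Ix V → ℝ => sg (w (.edge e)) :=
    fun e => BM.of (by fun_prop) 1 fun w => (abs_sign (sg_cases _)).le
  have hXb : ∀ c ∈ insert z (ch G p z), BM (X c) := by
    intro c hc'
    rcases Finset.mem_insert.1 hc' with rfl | hc'
    · rw [show X c = _ from funext hX0]; exact hb0
    · rw [show X c = _ from funext (hX1 c hc')]; bm [hb1, hb2]
  have h1 := integral_sum_sq_le (mix V θ) (insert z (ch G p z)) hXb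
    (S := fun c => if c = z then Kv z else K1 G z c) (by
      intro c hc' w w' h
      rcases Finset.mem_insert.1 hc' with rfl | hc'
      · simp only [if_true] at h
        rw [hX0, hX0, show gfld 0 s univ w c = _ from gfld_dep 0 s univ c h]
      · have : c ≠ z := by rintro rfl; exact hz hc'
        simp only [this, if_false] at h
        rw [hX1 c hc', hX1 c hc', h _ (Or.inl rfl), show spin G ρ w c * _ = _ from
          Hn_dep hT 0 s univ k z c fun i hi => h i (Or.inr hi)]) (by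
      intro c hc' c' hc'' hne
      rcases Finset.mem_insert.1 hc' with rfl | hc' <;> rcases Finset.mem_insert.1 hc'' with rfl | hc''
      · exact absurd rfl hne
      · simp only [if_true, hne.symm, if_false]
        exact Kv_disj hT (mem_ch.1 hc'').2
      · simp only [if_true, hne, if_false]
        exact (Kv_disj hT (mem_ch.1 hc').2).symm
      · simp only [(mem_ch.1 hc').2.ne', (mem_ch.1 hc'').2.ne', if_false]
        exact K1_disj hT (mem_ch.1 hc').2 (mem_ch.1 hc'').2 hne)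
  rw [← PP] at h1
  obtain ⟨B, hB⟩ : ∃ B, B = ∫ w, tanh (gfld 0 s univ w z) ^ 2 ∂PP V θ + θ ^ 2 * ∑ c ∈ ch G p z,
      ∫ w, tanh (Hn G θ (hS G ρ 0 s univ w) k z c) ^ 2 ∂PP V θ := ⟨_, rfl⟩
  have hsq : ∀ w c (H : ℝ), tanh (spin G ρ w c * H) ^ 2 = tanh H ^ 2 := fun w c H => by
    rw [tanh_sign (spin_cases w c), mul_pow, sq (spin G ρ w c), spin_mul_self, one_mul]
  have h2 : ∑ c ∈ insert z (ch G p z), ∫ w, X c w ^ 2 ∂PP V θ = B := by
    rw [Finset.sum_insert hz, hB, Finset.mul_sum]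
    congr 1
    · simp only [hX0]
    · refine Finset.sum_congr rfl fun c hc' => ?_
      rw [← integral_const_mul]
      congr 1; funext w
      rw [hX1 c hc', mul_pow, mul_pow, hsq, sq (sg _), sign_mul_self (sg_cases _), one_mul]
  have h3 : ∑ c ∈ insert z (ch G p z), ∫ w, X c w ∂PP V θ = B := by
    rw [Finset.sum_insert hz, hB, Finset.mul_sum]
    congr 1
    · have := integral_spin_Hn (ρ := ρ) hc (PS 0 s univ) 0 p z
      simp only [hX0, ← spin_mul_hS (G := G) (ρ := ρ), hsq]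
      simp only [tanh_sign (spin_cases _ _)]
      exact this
    · refine Finset.sum_congr rfl fun c hc' => ?_
      simp only [hX1 c hc']
      rw [integral_const_mul, integral_edge hc.adm (F := fun t w => t *
        tanh (spin G ρ w c * Hn G θ (hS G ρ 0 s univ w) k z c)) (by bm [hb1]) (by bm [hb1]),
        integral_const_mul, integral_const_mul]
      · simp only [tanh_sign (spin_cases _ _)]
        rw [show ∫ w, spin G ρ w c * tanh (Hn G θ (hS G ρ 0 s univ w) k z c) ∂PP V θ = _ from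
          integral_spin_Hn (ρ := ρ) hc (PS 0 s univ) k z c]
        simp only [hS]
        ring
      · intro t w y
        rw [show spin G ρ (update w (.edge s(z, c)) y) c * _ = _ from Hn_dep hT 0 s univ k z c
          fun i hi => update_of_ne (by rintro rfl; exact edge_notMem_K0 hT (mem_ch.1 hc').2 hi) _ _]
  obtain ⟨F, hF⟩ : ∃ F : Dat V → ℝ, ∀ e, F e = tanh ((PS 0 s univ).fld e z) +
      θ * ∑ c ∈ ch G p z, tanh (Hn G θ ((PS 0 s univ).fld e) k z c) := ⟨_, fun _ => rfl⟩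
  have hFb : BM F := by
    rw [show F = _ from funext hF]
    have := BM_tanh_Hn (G := G) (θ := θ) (PS 0 s univ) 0 p z
    bm [BM_tanh_Hn]
  have hFa : (PS 0 s univ).Adapted (Tk G (k + 1) p z) F := by
    intro τ u u' h
    rw [hF, hF]
    congr 1
    · exact ((adapted_Hn (θ := θ) _ 0 p z tanh).mono (Tk_mono (by omega) p z)) τ u u' h
    · congr 1
      exact Finset.sum_congr rfl fun c hc' =>
        ((adapted_Hn (θ := θ) _ k z c tanh).mono (Tk_ch hc')) τ u u' h
  have h4 : ∀ w, spin G ρ w z * F (data G ρ w) = ∑ c ∈ insert z (ch G p z), X c w := by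
    intro w
    rw [Finset.sum_insert hz, hF, hX0, mul_add, ← spin_mul_hS (G := G) (ρ := ρ),
      tanh_sign (spin_cases _ _), Finset.mul_sum, Finset.mul_sum]
    congr 1
    refine Finset.sum_congr rfl fun c hc' => ?_
    rw [hX1 c hc', tanh_sign (spin_cases _ _), ← spin_adj (ρ := ρ) hT w (mem_ch.1 hc').2]
    simp only [hS]
    linear_combination -(θ * spin G ρ w z * tanh (Hn G θ ((PS 0 s univ).fld (data G ρ w)) k z c)) *
      spin_mul_self (G := G) (ρ := ρ) w c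
  have h5 := bayes_fin (ρ := ρ) hT hc.adm (PS 0 s univ) (k + 1) p z hFb hFa
  simp only [h4] at h5
  rw [integral_finsetSum _ fun c hc' => (hXb c hc').integrable, h3] at h5
  have h6 := integral_mul_sq_le (μ := PP V θ)
    ((BM_tanh_Hn (G := G) (θ := θ) (PS 0 s univ) (k + 1) p z).comp (measurable_data G ρ))
    (hFb.comp (measurable_data G ρ))
  have h7 : ∀ w, F (data G ρ w) ^ 2 = (∑ c ∈ insert z (ch G p z), X c w) ^ 2 := fun w => by
    rw [← h4, mul_pow, sq (spin G ρ w z), spin_mul_self, one_mul]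
  simp only [h7] at h6
  rw [← h5] at h6
  rw [h2, h3] at h1
  rw [← hB] at hA
  simp only [hS]
  have hZ : 0 ≤ ∫ w, tanh (Hn G θ ((PS 0 s univ).fld (data G ρ w)) (k + 1) p z) ^ 2 ∂PP V θ :=
    integral_nonneg fun _ => sq_nonneg _
  generalize ∫ w, tanh (Hn G θ ((PS 0 s univ).fld (data G ρ w)) (k + 1) p z) ^ 2 ∂PP V θ = Z at *
  have hB0 : 0 < B := hA0.trans_le hA
  have h8 : B * B ≤ B * (Z * (1 + B)) := by nlinarith [mul_le_mul_of_nonneg_left h1 hZ]
  have h9 := le_of_mul_le_mul_left h8 hB0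
  rw [div_le_iff₀ (by linarith)]
  by_contra h
  have h10 : Z < 1 := by nlinarith
  nlinarith

lemma z_lower (hq : ((d - 1 : ℕ) : ℝ) * θ ^ 2 = 1) {s w : ℝ} (hw0 : 0 < w) (hw1 : w ≤ 1 / 2)
    (hw : ∀ x, w ^ 2 ≤ ∫ z, tanh (gfld 0 s univ z x) ^ 2 ∂PP V θ) (k : ℕ) (p z : V)
    (hp : G.Adj p z) :
    min (k * w ^ 2 / 4) (w / 2) ≤ ∫ y, tanh (Hn G θ (hS G ρ 0 s univ y) k p z) ^ 2 ∂PP V θ := by
  induction k generalizing p z with
  | zero => exact (min_le_left _ _).trans (by simpa using integral_nonneg fun _ => sq_nonneg _)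
  | succ k ih =>
    obtain ⟨x, hx⟩ : ∃ x, x = min (k * w ^ 2 / 4) (w / 2) := ⟨_, rfl⟩
    have hx0 : 0 ≤ x := by rw [hx]; positivity
    have hx1 : x ≤ w / 2 := hx ▸ min_le_right _ _
    have h1 : min (((k + 1 : ℕ) : ℝ) * w ^ 2 / 4) (w / 2) ≤ x + w ^ 2 / 4 := by
      rw [hx, ← min_add_add_right]
      exact min_le_min (le_of_eq (by push_cast; ring)) (by nlinarith [sq_nonneg w])
    refine h1.trans (le_trans ?_ (z_step hc s k p z (A := w ^ 2 + x) (by positivity) ?_))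
    · rw [le_div_iff₀ (by positivity)]
      have : x * x ≤ w / 2 * (w / 2) := mul_le_mul hx1 hx1 hx0 (by linarith)
      have h2 : x * w ^ 2 ≤ 1 / 4 * w ^ 2 := mul_le_mul_of_nonneg_right (by linarith) (sq_nonneg w)
      have h3 : w ^ 2 * w ^ 2 ≤ 1 / 4 * w ^ 2 :=
        mul_le_mul_of_nonneg_right (by nlinarith) (sq_nonneg w)
      nlinarith
    · refine add_le_add (hw z) ?_
      have := Finset.card_nsmul_le_sum (ch G p z) _ x fun c hc' => hx ▸ ih z c (mem_ch.1 hc').2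
      rw [card_ch_adj hc.reg hp, nsmul_eq_mul] at this
      calc x = θ ^ 2 * (((d - 1 : ℕ) : ℝ) * x) := by linear_combination -x * hq
        _ ≤ _ := mul_le_mul_of_nonneg_left this (sq_nonneg θ)

/-- decay of the products of derivatives -/
lemma decayV (n : ℕ) : ∃ c : ℝ, 0 < c ∧ c ≤ 1 ∧ ∀ s : ℝ, 0 < s → s ≤ 1 → ∃ J : ℕ,
    (J : ℝ) ≤ 1 / (c * s ^ 32) ∧ ∀ r : V → ℝ, (n = 0 → ∀ y, s ≤ r y) → ∀ (A : Set V) (p z x : V) (k i : ℕ),
      k ≤ i → k ≤ G.dist z x → (k ≠ 0 → nxt G x z ≠ p) → (Tk G (k + 1 + J) p z : Set V) ⊆ A →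
      (((d - 1 : ℕ) : ℝ) * θ ^ 2) ^ i * ∫ w, Wp G θ (hV G ρ n r A w) k z x ∂PP V θ ≤
        (1 - c * s ^ 32) ^ k := by
  have hq0 : 0 ≤ ((d - 1 : ℕ) : ℝ) * θ ^ 2 := by positivity
  rcases hc.crit.lt_or_eq with hq | hq
  · refine ⟨_, sub_pos.2 hq, by linarith, fun s hs0 hs1 => ⟨0, by
      have := sub_pos.2 hq
      simp only [Nat.cast_zero]; positivity, fun r _ A p z x k i hki _ _ _ => ?_⟩⟩
    have h1 : ∫ w, Wp G θ (hV G ρ n r A w) k z x ∂PP V θ ≤ 1 :=
      integral_le_const ((BM_Wp hc.adm k z x).comp (measurable_hV n r A))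
        (ae_of_all _ fun w => Wp_le_one hc.adm _ _ _ _)
    have h2 : s ^ 32 ≤ 1 := pow_le_one₀ hs0.le hs1
    calc _ ≤ (((d - 1 : ℕ) : ℝ) * θ ^ 2) ^ k * 1 :=
          mul_le_mul (pow_le_pow_of_le_one hq0 hq.le hki) h1
            (integral_nonneg fun w => (Wp_pos hc.adm _ _ _ _).le) (by positivity)
      _ ≤ _ := by
          rw [mul_one]
          exact pow_le_pow_left₀ hq0 (by nlinarith) k
  · have hθ2 : 0 < θ ^ 2 := by
      rcases (sq_nonneg θ).lt_or_eq with h | h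
      · exact h
      · rw [← h] at hq; simp at hq
    have hK : 1 ≤ cosh ((n : ℝ) + 1 + d + 1) ^ 4 := one_le_pow₀ (one_le_cosh _)
    obtain ⟨K, hKd⟩ : ∃ K, K = cosh ((n : ℝ) + 1 + d + 1) ^ 4 := ⟨_, rfl⟩
    rw [← hKd] at hK
    have hθ3 := hc.adm.sq_le
    have hc1 : θ ^ 2 / (64 * 4 ^ 32 * K) ≤ 1 / (16 * 4 ^ 32) := by
      rw [div_le_div_iff₀ (by positivity) (by positivity)]; nlinarith
    refine ⟨θ ^ 2 / (64 * 4 ^ 32 * K), by positivity, hc1.trans (by norm_num), fun s hs0 hs1 => ?_⟩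
    obtain ⟨w, hw⟩ : ∃ w, w = (s / 4) ^ 32 / 4 := ⟨_, rfl⟩
    have hw0 : 0 < w := by rw [hw]; positivity
    have hw1 : w ≤ 1 / 2 := by
      have : (s / 4) ^ 32 ≤ 1 := pow_le_one₀ (by positivity) (by linarith)
      linarith
    refine ⟨⌈2 / w⌉₊, ?_, fun r hr A p z x k i hki hk hp hA => ?_⟩
    · have h1 := (Nat.ceil_lt_add_one (show 0 ≤ 2 / w by positivity)).le
      have h2 : 2 / w + 1 ≤ 4 / w := by
        rw [div_add_one hw0.ne']; gcongr; linarith
      refine h1.trans (h2.trans ?_)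
      rw [div_le_div_iff₀ hw0 (by positivity), hw, div_pow]
      have := mul_le_mul_of_nonneg_right hc1 (pow_nonneg hs0.le 32)
      linarith [show 1 * (s ^ 32 / 4 ^ 32 / 4) = 4 * (1 / (16 * 4 ^ 32) * s ^ 32) by ring]
    · have e : θ ^ 2 / (64 * 4 ^ 32 * K) * s ^ 32 = θ ^ 2 * (w / 2) / (8 * K) := by
        rw [hw]; field_simp; ring
      rw [hq, one_pow, one_mul, e, hKd]
      refine decay_aux hc n r A ⌈2 / w⌉₊ (fun p' z' hp' hA' => ?_) ?_ x k p z hk hp hA
      · have h1 := z_lower (ρ := ρ) hc hq hw0 hw1 (fun x => hw ▸ t0_lower hs0 hs1 x) ⌈2 / w⌉₊ p' z' hp'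
        rw [min_eq_right] at h1
        · refine h1.trans (sq_mono hc _ _ _ _ _ fun τ j hj hj' => ⟨?_, hA' hj'⟩)
          rcases Nat.eq_zero_or_pos n with rfl | hn
          · exact cut_mono (hr rfl _) τ hj.1
          · have := lt_of_mem_cut hj.1
            exact Or.inl (by omega)
        · have h2 := Nat.le_ceil (2 / w)
          rw [div_le_iff₀ hw0] at h2
          nlinarith
      · rw [← hKd, div_le_one (by positivity)]; nlinarith

/-- decay of the products of derivatives -/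
lemma decay (n : ℕ) : ∃ c : ℝ, 0 < c ∧ c ≤ 1 ∧ ∀ s : ℝ, 0 < s → s ≤ 1 → ∃ J : ℕ,
    (J : ℝ) ≤ 1 / (c * s ^ 32) ∧ ∀ r : ℝ, (n = 0 → s ≤ r) → ∀ (A : Set V) (p z x : V) (k i : ℕ),
      k ≤ i → k ≤ G.dist z x → (k ≠ 0 → nxt G x z ≠ p) → (Tk G (k + 1 + J) p z : Set V) ⊆ A →
      (((d - 1 : ℕ) : ℝ) * θ ^ 2) ^ i * ∫ w, Wp G θ (hS G ρ n r A w) k z x ∂PP V θ ≤
        (1 - c * s ^ 32) ^ k := by
  obtain ⟨c, h0, h1, h2⟩ := decayV (ρ := ρ) hc n
  refine ⟨c, h0, h1, fun s hs0 hs1 => ?_⟩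
  obtain ⟨J, h3, h4⟩ := h2 s hs0 hs1
  exact ⟨J, h3, fun r hr => h4 (fun _ => r) fun hn _ => hr hn⟩

end Crest.Agent.R160
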