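import Crest.Agent.R160.Step

set_option autoImplicit false
set_option maxHeartbeats 400000

/-!
The one-step estimate; the magnetisations are functions of the innovations.
-/

namespace Crest.Agent.R160

open Real MeasureTheory Set Filter SimpleGraph Function Topology
open Crest.Agent.R168 (clamp mu0 clamp_of_mem)

lemma abs_sub_cl {m : ℝ} (hm : |m| ≤ 1) (a : ℝ) : |m - cl a| ≤ |m - a| := by
  obtain ⟨h1, h2⟩ := abs_le.1 hm
  unfold cl
  rcases le_total a 1 with h | h
  · rw [min_eq_right h]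
    rcases le_total (-1) a with h' | h'
    · rw [max_eq_right h']
    · rw [max_eq_left h', abs_of_nonneg (by linarith), abs_of_nonneg (by linarith)]; linarith
  · rw [min_eq_left h, max_eq_right (by norm_num), abs_of_nonpos (by linarith),
      abs_of_nonpos (by linarith)]
    linarith

lemma jump_err {e u m m' a L L' : ℝ} (he0 : 0 ≤ e) (he : e ≤ 1 / 4) (hu : |u| ≤ 1) (hm : |m| ≤ 1)
    (hm' : |m'| ≤ 1) (hL' : L' ≤ 0) :
    (exp L * (e * u / (1 + m * (e * u))) - exp L' * Phi e (cl a) (cdf (e * m') u)) ^ 2 ≤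
      e ^ 2 * (8 * ((exp L - exp L') ^ 2 + exp (2 * L') * (m - a) ^ 2) + 16 * (m' - m) ^ 2) := by
  have h1 : |e * u / (1 + m * (e * u))| ≤ 2 * e := by
    have := abs_Phi_le he0 he hm (cdf (e * m) u)
    rw [Phi_cdf he0 he hm hu] at this
    rwa [show m * (e * u) = e * m * u by ring]
  have h2 : |e * u / (1 + m * (e * u)) - Phi e m' (cdf (e * m') u)| ≤ e * |m' - m| := by
    have h3 := den_Phi he0 he hm hu
    have h4 := den_Phi he0 he hm' hu
    rw [Phi_cdf he0 he hm' hu, show m * (e * u) = e * m * u by ring,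
      div_sub_div _ _ (by linarith) (by linarith), abs_div, div_le_iff₀ (abs_pos.2 (by positivity)),
      show e * u * (1 + e * m' * u) - (1 + e * m * u) * (e * u) = e * (m' - m) * (e * u ^ 2) by ring,
      abs_mul, abs_mul, abs_of_nonneg he0]
    refine mul_le_mul_of_nonneg_left ?_ (by positivity)
    have h5 := (sq_le_one_iff_abs_le_one u).2 hu
    rw [abs_of_nonneg (by positivity), abs_of_nonneg (by positivity)]
    nlinarith
  have h3 : |Phi e m' (cdf (e * m') u) - Phi e (cl a) (cdf (e * m') u)| ≤ e * (|m' - m| + |m - a|) :=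
    (abs_Phi_sub he0 he hm' (abs_cl_le a) _).trans (mul_le_mul_of_nonneg_left
      ((abs_sub_le _ m _).trans (add_le_add le_rfl (abs_sub_cl hm a))) he0)
  generalize e * u / (1 + m * (e * u)) = A at *
  generalize Phi e m' (cdf (e * m') u) = B at *
  generalize Phi e (cl a) (cdf (e * m') u) = C at *
  have h4 : |A - C| ≤ e * (2 * |m' - m| + |m - a|) := (abs_sub_le _ B _).trans (by linarith)
  have h5 := pow_le_pow_left₀ (abs_nonneg _) h4 2
  have h6 := pow_le_pow_left₀ (abs_nonneg _) h1 2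
  rw [sq_abs, mul_pow] at h5 h6
  have h7 : (2 * |m' - m| + |m - a|) ^ 2 ≤ 8 * (m' - m) ^ 2 + 2 * (m - a) ^ 2 := by
    rw [← sq_abs (m' - m), ← sq_abs (m - a)]
    nlinarith [sq_nonneg (2 * |m' - m| - |m - a|)]
  have h8 : exp (2 * L') = exp L' ^ 2 := by rw [← exp_nat_mul]; norm_num
  have h9 : exp L' ^ 2 ≤ 1 := pow_le_one₀ (exp_pos _).le (exp_le_one_iff.2 hL')
  rw [h8]
  have h10 := mul_le_mul_of_nonneg_left h6 (sq_nonneg (exp L - exp L'))
  have h11 := mul_le_mul_of_nonneg_left (h5.trans (mul_le_mul_of_nonneg_left h7 (sq_nonneg e)))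
    (sq_nonneg (exp L'))
  have h12 := mul_le_mul_of_nonneg_right h9 (show 0 ≤ e ^ 2 * (m' - m) ^ 2 by positivity)
  have h13 : 0 ≤ exp L' ^ 2 * (e ^ 2 * (m - a) ^ 2) := by positivity
  nlinarith [sq_nonneg ((exp L - exp L') * A - exp L' * (A - C))]

variable {V : Type*} {G : SimpleGraph V} {ρ : V} {θ : ℝ}

/-- the approximate jump -/
noncomputable def JJ (n : ℕ) (s t c : ℝ) (A B : Dat V → ℝ) (x : V) (e : Dat V) (y : ℝ) : ℝ :=
  (Ico s t).indicator 1 (e.1 (x, n)) * (c * exp (A (msk n s e))) *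
    Phi (eps (e.1 (x, n))) (cl (B (msk n s e))) y

lemma BM_JJ (n : ℕ) (s t c : ℝ) {A B : Dat V → ℝ} (hA : BM A) (hB : BM B) (x : V) :
    BM fun p : Dat V × ℝ => JJ n s t c A B x p.1 p.2 := by
  have h1 := hB.1
  refine (((BM.indicator_one measurableSet_Ico).comp (by fun_prop)).mul
    ((BM.const c).mul (hA.comp (by fun_prop)).exp)).mul (BM.of (by fun_prop) 1 fun p => ?_)
  exact (abs_Phi_le (eps_nonneg _) (eps_le _) (abs_cl_le _) _).trans (by linarith [eps_le (p.1.1 (x, n))])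

lemma JJ_msk (n : ℕ) {s t : ℝ} (hst : s ≤ t) (ht : t ≤ 1) (c : ℝ) (A B : Dat V → ℝ) (x : V)
    (e : Dat V) : JJ n s t c A B x (msk n t e) ((msk n t e).2 (x, n)) = JJ n s t c A B x e (e.2 (x, n)) := by
  unfold JJ
  rw [msk_msk (by linarith) (cut_mono hst _)]
  by_cases h : (x, n) ∈ cut n t e.1
  · simp only [msk, if_pos h]
  · have h1 : e.1 (x, n) ∉ Ico s t := fun h' => h (Or.inr ⟨rfl, h'.2⟩)
    have h2 : (msk n t e).1 (x, n) ∉ Ico s t := fun h' => by
      have := h'.2
      simp only [msk, if_neg h] at this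
      linarith
    rw [indicator_of_notMem h1, indicator_of_notMem h2]
    simp only [zero_mul]

variable [DecidableEq V] [G.LocallyFinite] {d : ℕ} (hc : Ctx G θ d)
include hc

lemma cross_JJ (n : ℕ) (s t c : ℝ) {A B : Dat V → ℝ} (hA : BM A) (hB : BM B) (x : V)
    {F : Dat V → ℝ} (hF : BM F) (hF' : (PS n s univ).Adapted univ F) :
    ∫ z, F (data G ρ z) * JJ n s t c A B x (WW G θ (data G ρ z)) (UU G θ (data G ρ z) (x, n))
      ∂PP V θ = 0 := by
  refine (innovation (ρ := ρ) hc.tree hc.adm hc.reg (PB (x, n)) (x, n) (notMem_PB _)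
    (F := fun p => F p.1 * JJ n s t c A B x (WW G θ p.1) p.2) ((hF.comp measurable_fst).mul
      ((BM_JJ n s t c hA hB x).comp (φ := fun p : Dat V × ℝ => (WW G θ p.1, p.2)) (by fun_prop)))
      fun y τ u u' h => ?_).trans ?_
  · by_cases hw : τ (x, n) ∈ Ico s t
    · have h1 : ∀ i ∈ cut n s τ, u i = u' i := fun i hi =>
        h i (mem_PB.2 (cut_mono hw.1 τ hi)) trivial
      simp only [JJ]
      rw [hF' τ u u' fun i hi _ => h1 i hi.1, msk_WW_congr h1]
      rfl
    · simp only [JJ, WW, indicator_of_notMem hw, zero_mul, mul_zero]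
  · simp only [JJ, integral_const_mul, integral_Phi (eps_nonneg _) (eps_le _) (abs_cl_le _), mul_zero,
      integral_zero]

lemma JJ_err (n : ℕ) {s t : ℝ} (hs : 0 ≤ s) (hst : s ≤ t) (ht : t ≤ 1) (x v : V) {A B : Dat V → ℝ}
    (hA : Lh G ρ θ n s x v = fun z => A (II G ρ θ n s z))
    (hB : pr G ρ θ n s (mm G ρ θ n s x) = fun z => B (II G ρ θ n s z)) (hA' : BM A) (hB' : BM B)
    {b : ℝ} (hb : ∀ r, s ≤ r → r < t →
      ∫ z, (mm G ρ θ n r x z - mm G ρ θ n s x z) ^ 2 ∂PP V θ ≤ b) (hb0 : 0 ≤ b) :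
    ∫ z, (mE G ρ θ n s t v {x} z - mm G ρ θ n s v z - JJ n s t (θ ^ G.dist x v) A B x
      (WW G θ (data G ρ z)) (UU G θ (data G ρ z) (x, n))) ^ 2 ∂PP V θ ≤
      (t - s) * t ^ 62 * (8 * ((θ ^ 2) ^ G.dist x v * ∫ z, err G ρ θ n s x v z ∂PP V θ) + 16 * b) := by
  have he := BM_err (ρ := ρ) hc n s x v
  have hm : BM fun p : ℝ × (Ix V → ℝ) => mm G ρ θ n p.1 x p.2 :=
    BM.of (measurable_mag' (measurable_fld_time n) x) 1 fun p => abs_mag_le _ _
  have hm' := BM_mm (G := G) (ρ := ρ) (θ := θ) n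
  have hF : BM fun p : ℝ × (Ix V → ℝ) => 8 * ((θ ^ 2) ^ G.dist x v * err G ρ θ n s x v p.2) +
      16 * (mm G ρ θ n p.1 x p.2 - mm G ρ θ n s x p.2) ^ 2 := by
    have := he.comp (measurable_snd (α := ℝ))
    have := (hm' s x).comp (measurable_snd (α := ℝ))
    bm
  have herr : ∀ z, 0 ≤ err G ρ θ n s x v z := fun z => by unfold err; positivity
  refine le_trans ?_ (win_le (θ := θ) (x, n) hs hst ht hF (fun p => by have := herr p.2; positivity)
    (fun r z y h1 h2 => ?_) (fun r h1 h2 => ?_)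
    (by have : 0 ≤ ∫ z, err G ρ θ n s x v z ∂PP V θ := integral_nonneg herr; positivity))
  · have hτ : Measurable fun z : Ix V → ℝ => tau z (x, n) := by fun_prop
    refine integral_mono_BM (((((BM_mE n s t v {x}).sub (hm' s v))).sub ((BM_JJ n s t _ hA' hB' x).comp
      (φ := fun z => (WW G θ (data G ρ z), UU G θ (data G ρ z) (x, n))) (by fun_prop))).pow 2)
      ((((BM.indicator_one measurableSet_Ico).comp hτ).mul ((BM_eps.comp hτ).pow 2)).mul
        (hF.comp (φ := fun z => (tau z (x, n), z)) (by fun_prop))) ?_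
    filter_upwards [ae_good_hS (ρ := ρ) hc n s univ, ae_good_hV (ρ := ρ) hc n (rE s t {x}) univ,
      Lh_nonpos (ρ := ρ) hc n s x v] with z h1 h2 h3
    have h6 : ∀ y, y ≠ x → hV G ρ n (rE s t {x}) univ z y = hS G ρ n s univ z y :=
      fun y hy => fld_PV_congr (r' := fun _ => s) n _ (by simp [rE, hy])
    have hrx : rE s t {x} x = t := if_pos (Finset.mem_singleton_self x)
    by_cases hw : tau z (x, n) ∈ Ico s t
    · have h4 := mag_jump hc.adm hc.tree h1 h2 (fld_PV_win (r := fun _ => s) n (data G ρ z) hw.1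
        (hw.2.trans_eq hrx.symm)) h6 v
      have h5 := mul_le_mul_of_nonneg_left (jump_err (L := LT G ρ θ n s x v z)
        (a := pr G ρ θ n s (mm G ρ θ n s x) z) (m := mm G ρ θ n s x z)
        (m' := mm G ρ θ n (tau z (x, n)) x z) (eps_nonneg (tau z (x, n))) (eps_le _)
        (abs_cl_le ((data G ρ z).2 (x, n))) (abs_mag_le _ _) (abs_mag_le _ _) h3)
        (show 0 ≤ (θ ^ 2) ^ G.dist x v by positivity)
      have h7 : (θ ^ 2) ^ G.dist x v ≤ 1 := pow_le_one₀ (sq_nonneg θ) (by linarith [hc.adm.sq_le])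
      have h8 := mul_le_mul_of_nonneg_right h7 (show 0 ≤ eps (tau z (x, n)) ^ 2 *
        (mm G ρ θ n (tau z (x, n)) x z - mm G ρ θ n s x z) ^ 2 by positivity)
      rw [tanh_eta] at h4
      rw [indicator_of_mem hw, Pi.one_apply, one_mul]
      refine le_trans (le_of_eq ?_) (h5.trans ?_)
      · rw [mE, mm, h4, JJ, ← pow_mul, mul_comm 2, pow_mul, ← mul_pow, hA, hB]
        congr 1
        rw [show (WW G θ (data G ρ z)).1 (x, n) = tau z (x, n) from rfl, indicator_of_mem hw,
          Pi.one_apply, one_mul, mul_sub, mul_assoc, mul_assoc]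
        rfl
      · simp only [err, er]
        linarith
    · have : hV G ρ n (rE s t {x}) univ z = hS G ρ n s univ z := by
        funext y
        by_cases hy : y = x
        · subst hy
          refine fld_PV_congr (r' := fun _ => s) n _ ?_
          rw [hrx]
          exact ⟨fun h => by_contra fun h' => hw ⟨not_lt.1 h', h⟩, fun h => h.trans_le hst⟩
        · exact h6 y hy
      rw [mE, this, JJ, show (WW G θ (data G ρ z)).1 (x, n) = tau z (x, n) from rfl,
        indicator_of_notMem hw]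
      simp [mm]
  · have h3 : ∀ r', r' ≤ r → hS G ρ n r' univ (update z (.tim (x, n)) y) =
        hS G ρ n r' univ (update z (.tim (x, n)) r) := fun r' h =>
      (agree_update z (x, n) y r).fld (r := fun _ => r') univ (notMem_cut_update z x n (h.trans h2))
        (notMem_cut_update z x n h)
    have h4 : II G ρ θ n s (update z (.tim (x, n)) y) = II G ρ θ n s (update z (.tim (x, n)) r) :=
      (agree_update z (x, n) y r).msk_WW (notMem_cut_update z x n (h1.trans h2))
        (notMem_cut_update z x n h1)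
    simp only [err, er, LT, hA, hB, h4]
    simp only [mm, h3 r le_rfl, h3 s h1]
  · rw [integral_add (BM.integrable (by bm)) (BM.integrable (by bm [hm'])), integral_const_mul,
      integral_const_mul, integral_const_mul]
    linarith [hb r h1 h2]

lemma one_step (n : ℕ) {s t ϱ : ℝ} (hs : 0 ≤ s) (hst : s ≤ t) (ht : t ≤ 1) (hϱ0 : 0 ≤ ϱ)
    (hϱ1 : ϱ < 1) (hϱ : ∀ (r : V → ℝ) (v x : V), (∀ y, s ≤ r y) →
      (((d - 1 : ℕ) : ℝ) * θ ^ 2) ^ G.dist v x *
        ∫ z, Wp G θ (hV G ρ n r univ z) (G.dist v x) v x ∂PP V θ ≤ ϱ ^ G.dist v x)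
    (v : V) (K : ℕ) :
    dl G ρ θ n t v ≤ dl G ρ θ n s v + (t - s) * (16 * (ϱ ^ K / (1 - ϱ)) +
      16 * t ^ 62 * ∑ x ∈ Tk G K v v, (θ ^ 2) ^ G.dist x v * ∫ z, err G ρ θ n s x v z ∂PP V θ +
      (256 * (Tk G K v v).card / (1 - ϱ) +
        2 * (2 + (Tk G K v v).card) ^ 2 * (Tk G K v v).card ^ 2) * (t - s)) := by
  choose A hA hA' using fun x => (Lh_proj (ρ := ρ) hc n s x v).fac
  choose B hB hB' using fun x => 
    (pr_spec (G := G) (ρ := ρ) (θ := θ) n s (BM_mm (G := G) (ρ := ρ) (θ := θ) n s x)).fac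
  have hT : ∀ x, G.dist v x < K → x ∈ Tk G K v v := fun x h => (mem_Tk_self hc.tree).2 h.le
  generalize Tk G K v v = T at *
  obtain ⟨J, hJ⟩ : ∃ J : V → (Ix V → ℝ) → ℝ, ∀ x z, J x z = JJ n s t (θ ^ G.dist x v) (A x) (B x) x
    (WW G θ (data G ρ z)) (UU G θ (data G ρ z) (x, n)) := ⟨_, fun _ _ => rfl⟩
  have hJb : ∀ x, BM (J x) := fun x => by
    rw [show J x = _ from funext (hJ x)]
    exact (BM_JJ n s t _ (hA x) (hB x) x).comp
      (φ := fun z => (WW G θ (data G ρ z), UU G θ (data G ρ z) (x, n))) (by fun_prop)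
  have hm := BM_mm (G := G) (ρ := ρ) (θ := θ) n
  have hp := BM_pr (G := G) (ρ := ρ) (θ := θ) n s (hm s v)
  have hE := BM_mE (G := G) (ρ := ρ) (θ := θ) n s t v
  have h1 := (pr_spec (G := G) (ρ := ρ) (θ := θ) n t (hm t v)).best (measurable_II n t) (hm t v)
    (B := fun e => B v (msk n s e) + ∑ x ∈ T, JJ n s t (θ ^ G.dist x v) (A x) (B x) x e (e.2 (x, n)))
    (((hB v).comp (measurable_msk n s)).add (BM.sum _ fun x _ => (BM_JJ n s t _ (hA x) (hB x) x).comp
      (φ := fun e : Dat V => (e, e.2 (x, n))) (by fun_prop)))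
  have h2 : ∀ z, (mm G ρ θ n t v z - (B v (msk n s (II G ρ θ n t z)) + ∑ x ∈ T,
      JJ n s t (θ ^ G.dist x v) (A x) (B x) x (II G ρ θ n t z) ((II G ρ θ n t z).2 (x, n)))) ^ 2 =
      (mm G ρ θ n s v z - pr G ρ θ n s (mm G ρ θ n s v) z) ^ 2 +
      (mm G ρ θ n t v z - mm G ρ θ n s v z - ∑ x ∈ T, J x z) ^ 2 +
      2 * (mm G ρ θ n t v z * (mm G ρ θ n s v z - pr G ρ θ n s (mm G ρ θ n s v) z) -
        mm G ρ θ n s v z * (mm G ρ θ n s v z - pr G ρ θ n s (mm G ρ θ n s v) z) -
        ∑ x ∈ T, (mm G ρ θ n s v z - pr G ρ θ n s (mm G ρ θ n s v) z) * J x z) := fun z => by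
    rw [hB' v, ← Finset.mul_sum]
    simp only [II, JJ_msk n hst ht, hJ]
    rw [msk_msk (by linarith) (cut_mono hst _)]
    simp only [WW]
    ring
  have hF : BM fun e => mag G θ ((PS n s univ).fld e) v - B v (msk n s (WW G θ e)) :=
    (BM_mag _ v).sub ((hB v).comp (by fun_prop))
  have hF' : (PS n s univ).Adapted univ fun e =>
      mag G θ ((PS n s univ).fld e) v - B v (msk n s (WW G θ e)) := fun τ u u' h => by
    simp only
    rw [msk_WW_congr fun i hi => h i ⟨hi, trivial⟩ trivial]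
    exact congrArg (· - _) (adapted_fld (PS n s univ) (fun h => mag G θ h v) τ u u' h)
  have h3 : ∫ z, mm G ρ θ n t v z * (mm G ρ θ n s v z - pr G ρ θ n s (mm G ρ θ n s v) z) ∂PP V θ =
      ∫ z, mm G ρ θ n s v z * (mm G ρ θ n s v z - pr G ρ θ n s (mm G ρ θ n s v) z) ∂PP V θ := by
    rw [hB' v]
    exact bayes_le hc (P := PS n s univ) (P' := PS n t univ)
      (fun τ j hj => ⟨cut_mono hst τ hj.1, trivial⟩) v hF hF'
  have h4 : ∀ x, ∫ z, (mm G ρ θ n s v z - pr G ρ θ n s (mm G ρ θ n s v) z) * J x z ∂PP V θ = 0 :=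
    fun x => by
      simp only [hB' v, hJ]
      exact cross_JJ hc n s t _ (hA x) (hB x) x hF hF'
  simp only [h2] at h1
  rw [integral_add (BM.integrable (by bm [hm, hJb])) (BM.integrable (by bm [hm, hJb])),
    integral_add (BM.integrable (by bm [hm])) (BM.integrable (by bm [hm, hJb])), integral_const_mul,
    integral_sub (BM.integrable (by bm [hm])) (BM.integrable (by bm [hm, hJb])),
    integral_sub (BM.integrable (by bm [hm])) (BM.integrable (by bm [hm])), h3,
    integral_finsetSum _ fun x _ => BM.integrable (by bm [hm, hJb])] at h1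
  simp only [h4, Finset.sum_const_zero, sub_self, mul_zero, add_zero] at h1
  refine h1.trans (add_le_add le_rfl ?_)
  have hI : ∀ x, BM fun z : Ix V → ℝ => (Ico s t).indicator (1 : ℝ → ℝ) (tau z (x, n)) := fun x =>
    (BM.indicator_one measurableSet_Ico).comp (by fun_prop)
  have h5 := hyb_close (ρ := ρ) hc n hs hst ht hϱ0 hϱ1 hϱ v hT
  have h6 : ∀ x, ∫ z, (mE G ρ θ n s t v {x} z - mm G ρ θ n s v z - J x z) ^ 2 ∂PP V θ ≤
      (t - s) * (8 * t ^ 62 * ((θ ^ 2) ^ G.dist x v * ∫ z, err G ρ θ n s x v z ∂PP V θ) +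
        128 / (1 - ϱ) * (t - s)) := fun x => by
    simp only [hJ]
    have h7 : 0 ≤ 8 * (t - s) * (ϱ ^ 0 / (1 - ϱ)) :=
      mul_nonneg (by linarith) (div_nonneg (by norm_num) (by linarith))
    refine (JJ_err hc n hs hst ht x v (hA' x) (hB' x) (hA x) (hB x)
      (b := 8 * (t - s) * (ϱ ^ 0 / (1 - ϱ))) (fun r h1 h2 => ?_) h7).trans ?_
    · rw [← mE_empty n s r]
      refine (hyb_close hc n hs h1 (h2.le.trans ht) hϱ0 hϱ1 hϱ x (K := 0) (by simp)).trans ?_
      exact mul_le_mul_of_nonneg_right (by linarith) (div_nonneg (by norm_num) (by linarith))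
    · rw [mul_assoc]
      refine mul_le_mul_of_nonneg_left ?_ (by linarith)
      have := mul_le_of_le_one_left h7 (pow_le_one₀ (n := 62) (hs.trans hst) ht)
      rw [pow_zero] at this ⊢
      linarith [show 128 / (1 - ϱ) * (t - s) = 16 * (8 * (t - s) * (1 / (1 - ϱ))) by ring]
  have h7 : ∀ x y, x ≠ y → ∫ z, (Ico s t).indicator (1 : ℝ → ℝ) (tau z (x, n)) *
      (Ico s t).indicator (1 : ℝ → ℝ) (tau z (y, n)) ∂PP V θ = (t - s) ^ 2 := fun x y hxy => by
    have h8 : ∀ x, ∫ z, (Ico s t).indicator (1 : ℝ → ℝ) (tau z (x, n)) ∂PP V θ = t - s := fun x =>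
      (integral_coord (.tim (x, n)) (BM.indicator_one measurableSet_Ico)).trans
        (integral_indicator_mu0 hs hst ht)
    rw [sq]
    nth_rw 1 [← h8 x]
    rw [← h8 y]
    exact integral_mul_indep _ (hI x) (hI y) (S := {.tim (x, n)}) (T := {.tim (y, n)})
      (fun z z' h => by simp only [tau, h _ rfl]) (fun z z' h => by simp only [tau, h _ rfl])
      (by simp [hxy])
  calc _ ≤ ∫ z, (2 * (mm G ρ θ n t v z - mE G ρ θ n s t v T z) ^ 2 + 2 *
        (∑ x ∈ T, (mE G ρ θ n s t v {x} z - mm G ρ θ n s v z - J x z) ^ 2 + (2 + T.card) ^ 2 *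
          ∑ x ∈ T, ∑ y ∈ T.erase x, (Ico s t).indicator (1 : ℝ → ℝ) (tau z (x, n)) *
            (Ico s t).indicator (1 : ℝ → ℝ) (tau z (y, n)))) ∂PP V θ := by
        refine integral_mono_BM (by bm [hm, hJb]) (by bm [hm, hJb, hE, hI]) ?_
        haveI := countable_V hc.tree
        filter_upwards [ae_all_iff.2 fun x => Lh_nonpos (ρ := ρ) hc n s x v] with z hz
        classical
        have := one_obs T (fun x => tau z (x, n) ∈ Ico s t) (fun E => mE G ρ θ n s t v E z)
          (fun x => J x z) (fun E => by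
            unfold mE
            congr 1
            funext y
            refine fld_PV_congr n _ ?_
            by_cases hy : tau z (y, n) ∈ Ico s t
            · simp only [rE, Finset.mem_filter, hy, and_true]
            · simp only [rE, Finset.mem_filter, hy, and_false, if_false]
              split_ifs
              · exact ⟨fun h => by_contra fun h' => hy ⟨not_lt.1 h', h⟩, fun h => h.trans_le hst⟩
              · rfl)
          (fun x hx => by
            rw [hJ, JJ, show (WW G θ (data G ρ z)).1 (x, n) = tau z (x, n) from rfl,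
              indicator_of_notMem hx, zero_mul, zero_mul])
          (fun E => abs_mag_le _ _) (fun x => by
            have h8 := hz x
            rw [hA' x] at h8
            rw [hJ, JJ, abs_mul, abs_mul, abs_mul]
            refine mul_le_one₀ (mul_le_one₀ ?_ (by positivity) (mul_le_one₀ ?_ (abs_nonneg _) ?_))
              (abs_nonneg _) ((abs_Phi_le (eps_nonneg _) (eps_le _) (abs_cl_le _) _).trans
                (by linarith [eps_le ((WW G θ (data G ρ z)).1 (x, n))]))
            · rw [indicator_apply]; split_ifs <;> simp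
            · rw [abs_of_nonneg (pow_nonneg hc.adm.nonneg _)]
              exact pow_le_one₀ hc.adm.nonneg (by linarith [hc.adm.le])
            · rw [abs_of_pos (exp_pos _)]; exact exp_le_one_iff.2 h8)
        simp only [mE_empty] at this
        simp only [indicator_apply, Pi.one_apply]
        nlinarith [sq_nonneg (mm G ρ θ n t v z - mE G ρ θ n s t v T z -
          (mE G ρ θ n s t v T z - mm G ρ θ n s v z - ∑ x ∈ T, J x z))]
    _ ≤ _ := by
        rw [integral_add (BM.integrable (by bm [hm, hE])) (BM.integrable (by bm [hm, hJb, hE, hI])),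
          integral_const_mul, integral_const_mul,
          integral_add (BM.integrable (by bm [hm, hJb, hE])) (BM.integrable (by bm [hI])),
          integral_const_mul, integral_finsetSum _ fun x _ => BM.integrable (by bm [hm, hJb, hE]),
          integral_finsetSum _ fun x _ => BM.integrable (by bm [hI])]
        have h8 := Finset.sum_le_sum fun x (_ : x ∈ T) => h6 x
        rw [← Finset.mul_sum, Finset.sum_add_distrib, ← Finset.mul_sum, Finset.sum_const,
          nsmul_eq_mul] at h8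
        have h9 : ∑ x ∈ T, ∫ z, ∑ y ∈ T.erase x, (Ico s t).indicator (1 : ℝ → ℝ) (tau z (x, n)) *
            (Ico s t).indicator (1 : ℝ → ℝ) (tau z (y, n)) ∂PP V θ ≤ T.card * (T.card * (t - s) ^ 2) := by
          refine (Finset.sum_le_card_nsmul _ _ _ fun x _ => ?_).trans_eq (nsmul_eq_mul _ _)
          rw [integral_finsetSum _ fun y _ => BM.integrable (by bm [hI]),
            Finset.sum_congr rfl fun y hy => h7 x y (Finset.ne_of_mem_erase hy).symm,
            Finset.sum_const, nsmul_eq_mul]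
          gcongr
          exact Finset.erase_subset _ _
        have h10 := mul_le_mul_of_nonneg_left h9 (sq_nonneg (2 + T.card : ℝ))
        have e : 256 * (T.card : ℝ) / (1 - ϱ) = 2 * (T.card * (128 / (1 - ϱ))) := by ring
        rw [e]
        linarith

lemma dl_step (n : ℕ) (v : V) : ∃ c, 0 ≤ c ∧ ∀ a, 0 ≤ a → a ≤ 1 → (n = 0 → 0 < a) →
    ∀ γ > 0, ∃ C, 0 ≤ C ∧ ∀ s t η, a ≤ s → s ≤ t → t ≤ 1 → 0 < η → η ≤ 1 → dl G ρ θ n s v ≤ η →
      dl G ρ θ n t v ≤ dl G ρ θ n s v + (t - s) * (γ + c * ph η + C * (t - s)) := by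
  obtain ⟨C1, hC1, h1⟩ := static_est (ρ := ρ) hc n
  obtain ⟨c, hc0, hc1, h2⟩ := decayV (ρ := ρ) hc n
  refine ⟨16 * 2 ^ 62 * C1, by positivity, fun a ha0 ha1 ha γ hγ => ?_⟩
  have hσ0 : 0 < sb n a := by unfold sb; split_ifs with h; exacts [ha h, one_pos]
  have hσ1 : ∀ s ≤ 1, sb n s ≤ 1 := fun s hs => by unfold sb; split_ifs; exacts [hs, le_rfl]
  obtain ⟨J, -, h3⟩ := h2 _ hσ0 (hσ1 a ha1)
  have hϱ0 : 0 ≤ 1 - c * sb n a ^ 32 := sub_nonneg.2 (mul_le_one₀ hc1 (by positivity)
    (pow_le_one₀ hσ0.le (hσ1 a ha1)))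
  have hϱ1 : 1 - c * sb n a ^ 32 < 1 := sub_lt_self _ (by positivity)
  generalize 1 - c * sb n a ^ 32 = ϱ at *
  obtain ⟨K, hK⟩ := exists_pow_lt_of_lt_one (show 0 < γ * (1 - ϱ) / 16 by
    have := sub_pos.2 hϱ1; positivity) hϱ1
  have hϱ2 := sub_pos.2 hϱ1
  refine ⟨256 * (Tk G K v v).card / (1 - ϱ) + 2 * (2 + (Tk G K v v).card) ^ 2 * (Tk G K v v).card ^ 2 +
    16 * C1 / sb n a ^ 63, by positivity, fun s t η has hst ht h0 h1' hη => ?_⟩
  have hs0 := ha0.trans has
  have hσ : sb n a ≤ sb n s := by unfold sb; split_ifs; exacts [has, le_rfl]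
  have hσs := hσ0.trans_le hσ
  refine (one_step hc n hs0 hst ht hϱ0 hϱ1 (fun r v x hr => h3 r (fun hn y => ?_) univ v v x _ _ le_rfl
    le_rfl (fun h => ?_) (subset_univ _)) v K).trans (add_le_add le_rfl
      (mul_le_mul_of_nonneg_left ?_ (by linarith)))
  · simp only [sb, if_pos hn]; exact has.trans (hr y)
  · exact (nxt_spec hc.tree fun h' => h ((dist_eq_zero' hc.tree).2 h')).1.ne'
  · have h4 := h1 s η hσs (hσ1 s (hst.trans ht)) h0 h1' (fun w => (dl_eq hc n s w v).trans_le hη) K v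
    have h5 : 16 * (ϱ ^ K / (1 - ϱ)) ≤ γ := by
      rw [← mul_div_assoc, div_le_iff₀ hϱ2]; linarith
    have hp := le_ph h0 h1'
    have hp1 : ph η ≤ 1 := by
      have := log_le_sub_one_of_pos (inv_pos.2 h0)
      rw [log_inv] at this
      have h6 := mul_le_mul_of_nonneg_left this h0.le
      rw [mul_sub, mul_inv_cancel₀ h0.ne'] at h6
      unfold ph; linarith
    have ht0 := hs0.trans hst
    have h6 : t ^ 62 * (C1 / sb n s ^ 62 * ph η) ≤ 2 ^ 62 * C1 * ph η + C1 / sb n a ^ 63 * (t - s) := by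
      have hp0 : 0 ≤ ph η := by linarith
      rcases le_or_gt t (2 * sb n s) with h | h
      · refine le_add_of_le_of_nonneg ?_ (mul_nonneg (by positivity) (by linarith))
        calc _ ≤ (2 * sb n s) ^ 62 * (C1 / sb n s ^ 62 * ph η) := by gcongr
          _ = _ := by field_simp
      · refine le_add_of_nonneg_of_le (by positivity) ?_
        have h7 : sb n a ≤ t - s := by
          have : s ≤ sb n s := by unfold sb; split_ifs; exacts [le_rfl, hst.trans ht]
          linarith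
        calc _ ≤ 1 * (C1 / sb n a ^ 62 * 1) := by gcongr; exact pow_le_one₀ ht0 ht
          _ = C1 / sb n a ^ 63 * sb n a := by field_simp
          _ ≤ _ := by gcongr
    have h7 := mul_le_mul_of_nonneg_left h4 (show 0 ≤ t ^ 62 by positivity)
    have e : 16 * C1 / sb n a ^ 63 = 16 * (C1 / sb n a ^ 63) := by ring
    rw [e]
    linarith

lemma dl_one (n : ℕ) (v : V) : dl G ρ θ n 1 v ≤ 0 := by
  have key : ∀ n, (∀ γ > 0, ∃ a, 0 ≤ a ∧ a ≤ 1 ∧ (n = 0 → 0 < a) ∧ dl G ρ θ n a v ≤ γ) →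
      dl G ρ θ n 1 v ≤ 0 := fun n h => by
    obtain ⟨c, hc0, h1⟩ := dl_step (ρ := ρ) hc n v
    refine le_of_forall_pos_le_add fun γ hγ => ?_
    obtain ⟨M, hM⟩ : ∃ M, M = (1 + |log γ|) * exp (2 * (c + 1)) := ⟨_, rfl⟩
    have hM' : M * exp (-(2 * (c + 1))) = 1 + |log γ| := by
      rw [hM, mul_assoc, ← exp_add]; simp
    obtain ⟨a, h2, h3, h4, h5⟩ := h (exp (1 - M)) (exp_pos _)
    refine (osgood (f := fun s => dl G ρ θ n s v) h3 h2 hc0 (by rw [hM']; linarith [abs_nonneg (log γ)])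
      h5 (h1 a h2 h3 h4)).trans ?_
    rw [hM', zero_add, ← le_log_iff_exp_le hγ]
    linarith [neg_abs_le (log γ)]
  induction n with
  | zero =>
    refine key 0 fun γ hγ => ?_
    obtain ⟨s, h1, h2, h3⟩ := dl_small (ρ := ρ) hc hγ v
    exact ⟨s, h1.le, h2.le, fun _ => h1, h3⟩
  | succ n ih =>
    exact key _ fun γ hγ => ⟨0, le_rfl, zero_le_one, by simp, (dl_round n v).trans (ih.trans hγ.le)⟩

end Crest.Agent.R160
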