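import Crest.Agent.R160.Innov

set_option autoImplicit false
set_option maxHeartbeats 400000

/-!
Projected logarithms: local errors.
-/

namespace Crest.Agent.R160

open Real MeasureTheory Set Filter SimpleGraph Function Topology

lemma mcshane {X : Type*} (Γ : Set X) (g m m' : X → ℝ) {L K : ℝ} (hL : 0 ≤ L) (hK0 : 0 ≤ K)
    (hK : ∀ x, |g x| ≤ K)
    (h : ∀ x ∈ Γ, ∀ x' ∈ Γ, |g x - g x'| ≤ L * (|m x - m x'| + |m' x - m' x'|)) :
    ∃ F : ℝ × ℝ → ℝ, Measurable F ∧ (∀ p, |F p| ≤ K) ∧ (∀ x ∈ Γ, F (m x, m' x) = g x) ∧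
      ∀ p q, |F p - F q| ≤ 2 * L * dist p q := by
  classical
  obtain ⟨f, hf⟩ : ∃ f : ℝ × ℝ → ℝ, ∀ x ∈ Γ, f (m x, m' x) = g x := by
    refine ⟨fun p => if h : ∃ x ∈ Γ, (m x, m' x) = p then g h.choose else 0, fun x hx => ?_⟩
    have h1 : ∃ x' ∈ Γ, (m x', m' x') = (m x, m' x) := ⟨x, hx, rfl⟩
    simp only [dif_pos h1]
    have h2 := h _ h1.choose_spec.1 x hx
    rw [show m h1.choose = m x from (Prod.ext_iff.1 h1.choose_spec.2).1,
      show m' h1.choose = m' x from (Prod.ext_iff.1 h1.choose_spec.2).2] at h2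
    simpa [sub_eq_zero] using h2
  have hlip : LipschitzOnWith (2 * L).toNNReal f ((fun x => (m x, m' x)) '' Γ) := by
    refine LipschitzOnWith.of_dist_le' ?_
    rintro _ ⟨x, hx, rfl⟩ _ ⟨x', hx', rfl⟩
    rw [hf x hx, hf x' hx', Real.dist_eq, Prod.dist_eq, Real.dist_eq, Real.dist_eq]
    refine (h x hx x' hx').trans ?_
    have h1 := le_max_left |m x - m x'| |m' x - m' x'|
    have h2 := le_max_right |m x - m x'| |m' x - m' x'|
    nlinarith
  obtain ⟨F, hF, hF'⟩ := hlip.extend_real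
  refine ⟨fun p => max (-K) (min K (F p)), ?_, fun p => ?_, fun x hx => ?_, fun p q => ?_⟩
  · have := hF.continuous.measurable
    fun_prop
  · exact abs_le.2 ⟨le_max_left _ _, max_le (by linarith) (min_le_left _ _)⟩
  · have := abs_le.1 (hK x)
    simp only
    rw [← hF' ⟨x, hx, rfl⟩, hf x hx, min_eq_right this.2, max_eq_right this.1]
  · have := ((hF.const_min K).const_max (-K)).dist_le_mul p q
    rwa [Real.coe_toNNReal _ (by positivity), Real.dist_eq] at this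

section Proj

variable {Ω E : Type*} [MeasurableSpace Ω] [MeasurableSpace E] {μ : Measure Ω}
  [IsProbabilityMeasure μ] {I : Ω → E}

lemma proj_err (hI : Measurable I) {g a m b m' b' χ : Ω → ℝ} (hg : BM g) (hm : BM m) (hm' : BM m')
    (ha : IsProj μ I g a) (hb : IsProj μ I m b) (hb' : IsProj μ I m' b') (Γ : Set Ω) {L K : ℝ}
    (hL : 0 ≤ L) (hK0 : 0 ≤ K) (hK : ∀ x, |g x| ≤ K)
    (h : ∀ x ∈ Γ, ∀ x' ∈ Γ, |g x - g x'| ≤ L * (|m x - m x'| + |m' x - m' x'|))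
    (hχ : BM χ) (hχ0 : ∀ x, 0 ≤ χ x) (hχ1 : ∀ᵐ x ∂μ, x ∉ Γ → 1 ≤ χ x) :
    ∫ x, (g x - a x) ^ 2 ∂μ ≤ 8 * K ^ 2 * ∫ x, χ x ∂μ +
      8 * L ^ 2 * (∫ x, (m x - b x) ^ 2 ∂μ + ∫ x, (m' x - b' x) ^ 2 ∂μ) := by
  obtain ⟨F, hF, hF1, hF2, hF3⟩ := mcshane Γ g m m' hL hK0 hK h
  have hbb := hb.bm hI
  have hbb' := hb'.bm hI
  obtain ⟨B, hB, rfl⟩ := hb.fac
  obtain ⟨B', hB', rfl⟩ := hb'.fac
  have hFB : BM fun e => F (B e, B' e) := (BM.of hF K hF1).comp (hB.1.prodMk hB'.1)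
  refine (ha.best hI hg hFB).trans ?_
  rw [← integral_add (BM.integrable (by bm)) (BM.integrable (by bm)), ← integral_const_mul,
    ← integral_const_mul, ← integral_add (BM.integrable (by bm)) (BM.integrable (by bm))]
  have := hFB.comp hI
  refine integral_mono_BM (by bm) (by bm) ?_
  filter_upwards [hχ1] with x hx
  have h1 : (g x - F (m x, m' x)) ^ 2 ≤ 4 * K ^ 2 * χ x := by
    by_cases hx' : x ∈ Γ
    · rw [hF2 x hx']; have := hχ0 x; simp only [sub_self, ne_eq, OfNat.ofNat_ne_zero,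
        not_false_eq_true, zero_pow]; positivity
    · have h2 : |g x - F (m x, m' x)| ≤ 2 * K := (abs_sub _ _).trans (by linarith [hK x, hF1 (m x, m' x)])
      have h3 := pow_le_pow_left₀ (abs_nonneg _) h2 2
      rw [sq_abs] at h3
      nlinarith [hx hx', sq_nonneg K]
  have h2 : (F (m x, m' x) - F (B (I x), B' (I x))) ^ 2 ≤
      4 * L ^ 2 * ((m x - B (I x)) ^ 2 + (m' x - B' (I x)) ^ 2) := by
    have h3 := pow_le_pow_left₀ (abs_nonneg _) (hF3 (m x, m' x) (B (I x), B' (I x))) 2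
    rw [sq_abs, mul_pow, mul_pow, Prod.dist_eq, Real.dist_eq, Real.dist_eq] at h3
    refine h3.trans ?_
    have h4 : max |m x - B (I x)| |m' x - B' (I x)| ^ 2 ≤
        (m x - B (I x)) ^ 2 + (m' x - B' (I x)) ^ 2 := by
      rcases max_choice |m x - B (I x)| |m' x - B' (I x)| with h | h <;> rw [h, sq_abs] <;>
        nlinarith [sq_nonneg (m x - B (I x)), sq_nonneg (m' x - B' (I x))]
    norm_num
    gcongr
  nlinarith [sq_nonneg (g x - F (m x, m' x) - (F (m x, m' x) - F (B (I x), B' (I x))))]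

lemma IsProj.add (hI : Measurable I) {f a g b : Ω → ℝ} (hf : BM f) (hg : BM g) (h : IsProj μ I f a)
    (h' : IsProj μ I g b) : IsProj μ I (fun x => f x + g x) fun x => a x + b x := by
  have ha := h.bm hI
  have hb := h'.bm hI
  refine ⟨?_, fun B hB => ?_⟩
  · obtain ⟨A, hA, rfl⟩ := h.fac
    obtain ⟨A', hA', rfl⟩ := h'.fac
    exact ⟨_, hA.add hA', rfl⟩
  · have := hB.comp hI
    rw [← add_zero (0 : ℝ)]
    nth_rw 1 [← h.orth B hB]
    rw [← h'.orth B hB, ← integral_add (BM.integrable (by bm)) (BM.integrable (by bm))]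
    congr 1; funext x; ring

lemma IsProj.sum (hI : Measurable I) {ι : Type*} (s : Finset ι) {f a : ι → Ω → ℝ}
    (hf : ∀ i, BM (f i)) (h : ∀ i, IsProj μ I (f i) (a i)) :
    IsProj μ I (fun x => ∑ i ∈ s, f i x) fun x => ∑ i ∈ s, a i x := by
  classical
  induction s using Finset.induction_on with
  | empty => exact ⟨⟨fun _ => 0, BM.const 0, by simp⟩, by simp⟩
  | insert i s hi ih =>
    simp only [Finset.sum_insert hi]
    exact IsProj.add hI (hf i) (BM.sum _ fun i _ => hf i) (h i) ih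

lemma IsProj.le_const (hI : Measurable I) {f a : Ω → ℝ} (h : IsProj μ I f a) (hf : BM f) {K : ℝ}
    (hK : ∀ᵐ x ∂μ, f x ≤ K) : ∀ᵐ x ∂μ, a x ≤ K := by
  filter_upwards [h.ae_eq_condExp hI hf, condExp_mono (m := MeasurableSpace.comap I inferInstance)
    hf.integrable (integrable_const K) hK] with x h1 h2
  rw [condExp_const hI.comap_le] at h2
  rw [h1]; exact h2

lemma IsProj.exp_le (hI : Measurable I) {L a D b : Ω → ℝ} (hL : BM L) (hD : BM D)
    (h : IsProj μ I L a) (h' : IsProj μ I D b) (h0 : ∀ x, 0 ≤ D x) :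
    ∫ x, exp (2 * a x) * D x ∂μ ≤ ∫ x, exp (2 * L x) * b x ∂μ := by
  have ha := h.bm hI
  have hb := h'.bm hI
  have hb0 := h'.nonneg hI hD h0
  obtain ⟨A, hA, rfl⟩ := h.fac
  obtain ⟨B, hB, rfl⟩ := h'.fac
  rw [h'.mul_eq hI hD (B := fun e => exp (2 * A e)) (by bm)]
  have h1 := h.orth (fun e => 2 * (exp (2 * A e) * B e)) (by bm)
  rw [← add_zero (∫ x, exp (2 * A (I x)) * B (I x) ∂μ), ← h1,
    ← integral_add (BM.integrable (by bm)) (BM.integrable (by bm))]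
  refine integral_mono_BM (by bm) (by bm) ?_
  filter_upwards [hb0] with x hx
  have h2 : exp (2 * L x) = exp (2 * A (I x)) * exp (2 * (L x - A (I x))) := by
    rw [← exp_add]; congr 1; ring
  have h3 := mul_le_mul_of_nonneg_left (add_one_le_exp (2 * (L x - A (I x))))
    (mul_nonneg (exp_pos (2 * A (I x))).le hx)
  rw [h2]; linarith

end Proj

/-- Osgood modulus -/
noncomputable def ph (η : ℝ) : ℝ := η * (1 - log η)

lemma le_ph {η : ℝ} (h0 : 0 < η) (h1 : η ≤ 1) : η ≤ ph η := by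
  have := log_nonpos h0.le h1
  unfold ph; nlinarith

lemma min_le_ph {C c : ℝ} (hC : 1 ≤ C) (hc : 0 < c) : ∃ C' : ℝ, 1 ≤ C' ∧ ∀ s η a : ℝ, 0 < s → s ≤ 1 →
    0 < η → η ≤ 1 → a ≤ C * η → a ≤ C * (exp (-(c / s ^ 10)) + s ^ 10 * η) →
    a ≤ C' * s ^ 10 * ph η := by
  refine ⟨C * (2 + 2 / c * (1 + 2 / c)), ?_, fun s η a hs0 hs1 h0 h1 ha ha' => ?_⟩
  · have : 0 ≤ 2 / c * (1 + 2 / c) := by positivity
    nlinarith
  obtain ⟨t, ht⟩ : ∃ t, t = s ^ 10 := ⟨_, rfl⟩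
  have ht0 : 0 < t := by rw [ht]; positivity
  rw [← ht] at ha' ⊢
  have hp := le_ph h0 h1
  have hl := log_nonpos h0.le h1
  have hc' : 0 ≤ 2 / c * (1 + 2 / c) := by positivity
  rcases le_or_gt (exp (-(c / t))) (t * η) with h | h
  · calc a ≤ C * (2 * (t * η)) := ha'.trans (by gcongr; linarith)
      _ ≤ C * (2 * (t * ph η)) := by gcongr
      _ ≤ _ := by
        have : 0 ≤ C * (2 / c * (1 + 2 / c)) * t * ph η := by
          have : 0 ≤ ph η := by linarith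
          positivity
        linarith
  · -- here `η` is tiny
    have h2 : log t + log η < -(c / t) := by
      rw [← log_mul ht0.ne' h0.ne', log_lt_iff_lt_exp (by positivity)]; exact h
    have h3 : -log t ≤ c / (2 * t) + 2 / c := by
      have h4 := log_le_sub_one_of_pos (show 0 < c / (2 * t) by positivity)
      have h5 := log_le_sub_one_of_pos (show 0 < 2 / c by positivity)
      have h6 : log (c / (2 * t)) + log (2 / c) = -log t := by
        rw [← log_mul (by positivity) (by positivity), ← log_inv]; congr 1; field_simp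
      linarith
    have h4 : c / (2 * t) ≤ (1 + 2 / c) * (1 - log η) := by
      have : c / t = 2 * (c / (2 * t)) := by field_simp
      have h5 : 0 ≤ 2 / c * -log η := mul_nonneg (by positivity) (by linarith)
      nlinarith
    rw [div_le_iff₀ (by positivity)] at h4
    have h5 : 1 ≤ 2 / c * (1 + 2 / c) * t * (1 - log η) := by
      rw [show 2 / c * (1 + 2 / c) * t * (1 - log η) = (1 + 2 / c) * (1 - log η) * (2 * t) / c by ring,
        le_div_iff₀ hc]
      linarith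
    calc a ≤ C * η * 1 := by linarith
      _ ≤ C * η * (2 / c * (1 + 2 / c) * t * (1 - log η)) := by gcongr
      _ ≤ _ := by
        have : 0 ≤ C * 2 * t * ph η := by
          have : 0 ≤ ph η := by linarith
          positivity
        unfold ph at *
        linarith

variable {V : Type*} {G : SimpleGraph V} {ρ : V} {θ : ℝ} [DecidableEq V] [G.LocallyFinite]

variable (G ρ θ) in
/-- edge term at time `s` -/
noncomputable def gg (n : ℕ) (s : ℝ) (y y' : V) (z : Ix V → ℝ) : ℝ :=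
  ge G θ (hS G ρ n s univ z) y y'

variable (G ρ θ) in
/-- vertex term at time `s` -/
noncomputable def ll (n : ℕ) (s : ℝ) (y : V) (z : Ix V → ℝ) : ℝ := ell G θ (hS G ρ n s univ z) y

variable (G ρ θ) in
/-- error of the projection -/
noncomputable def er (n : ℕ) (s : ℝ) (f : (Ix V → ℝ) → ℝ) (z : Ix V → ℝ) : ℝ :=
  f z - pr G ρ θ n s f z

/-- effective time -/
def sb (n : ℕ) (s : ℝ) : ℝ := if n = 0 then s else 1

/-- a common bound -/
noncomputable def KK (n d : ℕ) : ℝ := 4 * cosh (n + 1 + d) ^ 2 * (n + 1 + d)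

lemma cosh_le_KK (n d : ℕ) : cosh ((n : ℝ) + 1 + d) ^ 2 ≤ KK n d := by
  have h1 : (1 : ℝ) ≤ n + 1 + d := by
    have : (0 : ℝ) ≤ n + d := by positivity
    linarith
  unfold KK; nlinarith [sq_nonneg (cosh ((n : ℝ) + 1 + d))]

lemma one_le_KK (n d : ℕ) : 1 ≤ KK n d := (one_le_pow₀ (one_le_cosh _)).trans (cosh_le_KK n d)

lemma BM_er (n : ℕ) (s : ℝ) {f : (Ix V → ℝ) → ℝ} (hf : BM f) : BM (er G ρ θ n s f) :=
  hf.sub (BM_pr n s hf)

lemma abs_er_le (n : ℕ) (s : ℝ) {f : (Ix V → ℝ) → ℝ} (hf : BM f) {K : ℝ} (hK : ∀ z, |f z| ≤ K) :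
    ∀ᵐ z ∂PP V θ, er G ρ θ n s f z ^ 2 ≤ 4 * K ^ 2 := by
  filter_upwards [abs_proj_le (measurable_II (G := G) (ρ := ρ) (θ := θ) n s) hf hK] with z hz
  have h : |er G ρ θ n s f z| ≤ 2 * K := (abs_sub _ _).trans (by linarith [hK z, show |pr G ρ θ n s f z| ≤ K from hz])
  have := pow_le_pow_left₀ (abs_nonneg _) h 2
  rw [sq_abs] at this
  linarith

lemma er_act (hT : G.IsTree) (n : ℕ) (s : ℝ) {f f' : (Ix V → ℝ) → ℝ} (hf : BM f) (hf' : BM f')
    (g : G ≃g G) (h : (fun z => f (act ρ g z)) =ᵐ[PP V θ] f') :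
    (fun z => er G ρ θ n s f (act ρ g z)) =ᵐ[PP V θ] er G ρ θ n s f' := by
  filter_upwards [h, pr_act hT n s hf hf' g h] with z h1 h2
  simp only [er, h1, h2]

variable {d : ℕ} (hc : Ctx G θ d)
include hc

lemma abs_gg_le (n : ℕ) (s : ℝ) (y y' : V) (z : Ix V → ℝ) : |gg G ρ θ n s y y' z| ≤ KK n d :=
  abs_ge_le hc.adm hc.reg (abs_hS_le n s univ z) y y'

lemma abs_ll_le (n : ℕ) (s : ℝ) (y : V) (z : Ix V → ℝ) : |ll G ρ θ n s y z| ≤ KK n d :=
  (abs_ell_le hc.adm hc.reg (abs_hS_le n s univ z) y).trans (cosh_le_KK n d)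

lemma BM_gg (n : ℕ) (s : ℝ) (y y' : V) : BM (gg G ρ θ n s y y') :=
  BM.of (by unfold gg; fun_prop) _ (abs_gg_le hc n s y y')

lemma BM_ll (n : ℕ) (s : ℝ) (y : V) : BM (ll G ρ θ n s y) :=
  BM.of (by unfold ll; fun_prop) _ (abs_ll_le hc n s y)

lemma gg_act (n : ℕ) (s : ℝ) (g : G ≃g G) (y y' : V) (z : Ix V → ℝ) :
    gg G ρ θ n s y y' (act ρ g z) = gg G ρ θ n s (g y) (g y') z := by
  rw [gg, hS_act hc.tree, ge_iso, gg]

lemma ll_act (n : ℕ) (s : ℝ) (g : G ≃g G) (y : V) (z : Ix V → ℝ) :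
    ll G ρ θ n s y (act ρ g z) = ll G ρ θ n s (g y) z := by
  rw [ll, hS_act hc.tree, ell_iso, ll]

lemma gg_err (n : ℕ) (s : ℝ) {η lam p : ℝ} (hη : ∀ v, dl G ρ θ n s v ≤ η) (hlam : 0 ≤ lam)
    (hp : ∀ y y', G.Adj y' y → ∫ w, (if lam < |tanh (Hi G θ (hS G ρ n s univ w) y y')| then (1 : ℝ)
      else 0) ∂PP V θ ≤ p) {y y' : V} (hy : G.Adj y y') :
    ∫ z, er G ρ θ n s (gg G ρ θ n s y y') z ^ 2 ∂PP V θ ≤
      1024 * KK n d ^ 4 * (p + lam ^ 2 * η) := by
  have hb : ∀ y y', BM fun w =>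
      (if lam < |tanh (Hi G θ (hS G ρ n s univ w) y y')| then (1 : ℝ) else 0) := fun y y' =>
    BM.ite (measurableSet_lt measurable_const (by fun_prop)) (BM.const 1) (BM.const 0)
  have hK := one_le_KK n d
  have := proj_err (μ := PP V θ) (measurable_II (G := G) (ρ := ρ) (θ := θ) n s) (BM_gg hc n s y y')
    (BM_mm (G := G) (ρ := ρ) (θ := θ) n s y) (BM_mm (G := G) (ρ := ρ) (θ := θ) n s y')
    (pr_spec n s (BM_gg (ρ := ρ) hc n s y y')) (pr_spec n s (BM_mm n s y)) (pr_spec n s (BM_mm n s y'))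
    {z | Good G θ (hS G ρ n s univ z) ∧ |tanh (Hi G θ (hS G ρ n s univ z) y y')| ≤ lam ∧
      |tanh (Hi G θ (hS G ρ n s univ z) y' y)| ≤ lam}
    (L := 8 * cosh (n + 1 + d) ^ 4 * lam) (by positivity) (by linarith) (abs_gg_le hc n s y y')
    (fun z hz z' hz' => abs_ge_sub hc.adm hc.reg hz.1 hz'.1 (abs_hS_le n s univ z)
      (abs_hS_le n s univ z') hy hz.2.1 hz.2.2 hz'.2.1 hz'.2.2)
    ((hb y y').add (hb y' y)) (fun z => by positivity) (by
      filter_upwards [ae_good_hS (ρ := ρ) hc n s univ] with z h1 h2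
      simp only [mem_ofPred_eq, h1, true_and, not_and_or, not_le] at h2
      rcases h2 with h2 | h2 <;> rw [if_pos h2] <;> split_ifs <;> norm_num)
  rw [integral_add (hb y y').integrable (hb y' y).integrable] at this
  refine this.trans ?_
  have h1 := hp y y' hy.symm
  have h2 := hp y' y hy
  have h3 := hη y
  have h4 := hη y'
  have hp0 : 0 ≤ p := le_trans (integral_nonneg fun z => by positivity) h1
  have hη0 := (dl_nonneg n s y).trans h3
  have h5 : cosh ((n : ℝ) + 1 + d) ^ 4 ≤ KK n d ^ 2 := by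
    rw [show cosh ((n : ℝ) + 1 + d) ^ 4 = (cosh ((n : ℝ) + 1 + d) ^ 2) ^ 2 by ring]
    exact pow_le_pow_left₀ (by positivity) (cosh_le_KK n d) 2
  have h6 : KK n d ^ 2 ≤ KK n d ^ 4 := pow_le_pow_right₀ hK (by norm_num)
  calc _ ≤ 8 * KK n d ^ 4 * (p + p) + 8 * (8 * KK n d ^ 2 * lam) ^ 2 * (η + η) := by
        unfold dl at h3 h4
        gcongr
    _ ≤ _ := by
        have : 0 ≤ KK n d ^ 4 * p := by positivity
        nlinarith

lemma ll_err (n : ℕ) (s : ℝ) {η lam p : ℝ} (hη : ∀ v, dl G ρ θ n s v ≤ η) (hlam : 0 ≤ lam) {y : V}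
    (hp : ∫ w, (if lam < |tanh (Hi G θ (hS G ρ n s univ w) y y)| then (1 : ℝ)
      else 0) ∂PP V θ ≤ p) :
    ∫ z, er G ρ θ n s (ll G ρ θ n s y) z ^ 2 ∂PP V θ ≤
      1024 * KK n d ^ 4 * (p + lam ^ 2 * η) := by
  have hb : BM fun w =>
      (if lam < |tanh (Hi G θ (hS G ρ n s univ w) y y)| then (1 : ℝ) else 0) :=
    BM.ite (measurableSet_lt measurable_const (by fun_prop)) (BM.const 1) (BM.const 0)
  have hK := one_le_KK n d
  have := proj_err (μ := PP V θ) (measurable_II (G := G) (ρ := ρ) (θ := θ) n s) (BM_ll hc n s y)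
    (BM_mm (G := G) (ρ := ρ) (θ := θ) n s y) (BM_mm (G := G) (ρ := ρ) (θ := θ) n s y)
    (pr_spec n s (BM_ll (ρ := ρ) hc n s y)) (pr_spec n s (BM_mm n s y)) (pr_spec n s (BM_mm n s y))
    {z | |tanh (Hi G θ (hS G ρ n s univ z) y y)| ≤ lam}
    (L := cosh (n + 1 + d) ^ 2 * lam) (by positivity) (by linarith) (abs_ll_le hc n s y)
    (fun z hz z' hz' => (abs_ell_sub hc.adm hc.reg (abs_hS_le n s univ z)
      (abs_hS_le n s univ z') hz hz').trans (mul_le_mul_of_nonneg_left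
        (le_add_of_nonneg_right (abs_nonneg _)) (by positivity)))
    hb (fun z => by positivity) (ae_of_all _ fun z h2 => by
      simp only [mem_ofPred_eq, not_le] at h2
      rw [if_pos h2])
  refine this.trans ?_
  have h3 := hη y
  have hp0 : 0 ≤ p := le_trans (integral_nonneg fun z => by positivity) hp
  have hη0 := (dl_nonneg n s y).trans h3
  have h5 := cosh_le_KK n d
  have h6 : KK n d ^ 2 ≤ KK n d ^ 4 := pow_le_pow_right₀ hK (by norm_num)
  calc _ ≤ 8 * KK n d ^ 4 * p + 8 * (KK n d * lam) ^ 2 * (η + η) := by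
        unfold dl at h3
        gcongr
    _ ≤ _ := by
        have : 0 ≤ KK n d ^ 4 * p := by positivity
        have h7 := mul_le_mul_of_nonneg_right h6 (show 0 ≤ lam ^ 2 * η by positivity)
        have : 0 ≤ KK n d ^ 4 * (lam ^ 2 * η) := by positivity
        nlinarith

/-- local errors -/
lemma local_err (n : ℕ) : ∃ C : ℝ, 1 ≤ C ∧ ∀ s η : ℝ, 0 < sb n s → sb n s ≤ 1 → 0 < η → η ≤ 1 →
    (∀ v, dl G ρ θ n s v ≤ η) →
    (∀ y y', G.Adj y y' → ∫ z, er G ρ θ n s (gg G ρ θ n s y y') z ^ 2 ∂PP V θ ≤ C * η ∧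
      ∫ z, er G ρ θ n s (gg G ρ θ n s y y') z ^ 2 ∂PP V θ ≤ C * sb n s ^ 10 * ph η) ∧
    ∀ y, ∫ z, er G ρ θ n s (ll G ρ θ n s y) z ^ 2 ∂PP V θ ≤ C * η ∧
      ∫ z, er G ρ θ n s (ll G ρ θ n s y) z ^ 2 ∂PP V θ ≤ C * sb n s ^ 10 * ph η := by
  obtain ⟨C, c, hC, hc0, h⟩ := tail (ρ := ρ) hc
  have hK : 1 ≤ 1024 * KK n d ^ 4 := by linarith [one_le_pow₀ (n := 4) (one_le_KK n d)]
  obtain ⟨C', hC', h'⟩ := min_le_ph (C := 1024 * KK n d ^ 4 * C) (by nlinarith) hc0
  have h0 : ∀ s y y', ∫ w, (if 1 < |tanh (Hi G θ (hS G ρ n s univ w) y y')| then (1 : ℝ)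
      else 0) ∂PP V θ ≤ 0 := fun s y y' => by
    simp [not_lt.2 (abs_tanh_le_one _)]
  have key : ∀ s η a : ℝ, 0 < sb n s → sb n s ≤ 1 → 0 < η → η ≤ 1 →
      a ≤ 1024 * KK n d ^ 4 * (0 + 1 ^ 2 * η) →
      (n = 0 → a ≤ 1024 * KK n d ^ 4 * (C * exp (-(c / s ^ 10)) + (s ^ 5) ^ 2 * η)) →
      a ≤ (1024 * KK n d ^ 4 + C') * η ∧ a ≤ (1024 * KK n d ^ 4 + C') * sb n s ^ 10 * ph η := by
    intro s η a hs0 hs1 h1 h2 h3 h4
    have hp := le_ph h1 h2
    refine ⟨by nlinarith, ?_⟩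
    by_cases hn : n = 0
    · simp only [sb, if_pos hn] at hs0 hs1 ⊢
      have h5 := h' s η a hs0 hs1 h1 h2 (by nlinarith [mul_le_mul_of_nonneg_left hC (show 0 ≤ 1024 * KK n d ^ 4 * η by positivity)]) ((h4 hn).trans (by
        have := mul_le_mul_of_nonneg_left hC (show 0 ≤ 1024 * KK n d ^ 4 * (s ^ 10 * η) by positivity)
        nlinarith))
      have : 0 ≤ 1024 * KK n d ^ 4 * s ^ 10 * ph η := by
        have : 0 ≤ ph η := by linarith
        positivity
      linarith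
    · simp only [sb, if_neg hn]
      have := mul_le_mul_of_nonneg_left hp (show 0 ≤ 1024 * KK n d ^ 4 by positivity)
      nlinarith
  refine ⟨1024 * KK n d ^ 4 + C', by linarith, fun s η hs0 hs1 h1 h2 hη => ⟨fun y y' hy => ?_, fun y => ?_⟩⟩
  · refine key s η _ hs0 hs1 h1 h2 (gg_err hc n s hη zero_le_one (fun y y' _ => h0 s y y') hy) ?_
    rintro rfl
    exact gg_err hc 0 s hη (by simp only [sb, if_pos] at hs0; positivity)
      (fun y y' hy => h s hs0 hs1 y y' (Or.inr hy)) hy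
  · refine key s η _ hs0 hs1 h1 h2 (ll_err hc n s hη zero_le_one (h0 s y y)) ?_
    rintro rfl
    exact ll_err hc 0 s hη (by simp only [sb, if_pos] at hs0; positivity) (h s hs0 hs1 y y (Or.inl rfl))

end Crest.Agent.R160
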