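import Crest.Agent.R160.BP
import Crest.Agent.R160.Chan
import Crest.Agent.R160.Gen

set_option autoImplicit false

/-!
The probability space in gauge coordinates: spins, symmetries, partition functions.
-/

namespace Crest.Agent.R160

open Real MeasureTheory Set Filter SimpleGraph Function
open Crest.Agent.R168 (clamp mu0 clamp_nonneg clamp_le_one clamp_of_mem measurable_clamp)

/-- coordinates of the probability space -/
inductive Ix (V : Type*)
  | root
  | edge (e : Sym2 V)
  | tim (j : V × ℕ)
  | noi (j : V × ℕ)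

noncomputable instance (V : Type*) : DecidableEq (Ix V) := Classical.decEq _

/-- two-point law with mean `θ` -/
noncomputable def ber (θ : ℝ) : Measure ℝ :=
  ENNReal.ofReal (clamp ((1 + θ) / 2)) • Measure.dirac 1 +
    ENNReal.ofReal (1 - clamp ((1 + θ) / 2)) • Measure.dirac (-1)

instance (θ : ℝ) : IsProbabilityMeasure (ber θ) := ⟨by
  simp only [ber, Measure.coe_add, Measure.coe_smul, Pi.add_apply, Pi.smul_apply, measure_univ,
    smul_eq_mul, mul_one]
  rw [← ENNReal.ofReal_add (clamp_nonneg _) (sub_nonneg.2 (clamp_le_one _))]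
  simp⟩

lemma integral_ber {θ : ℝ} (h0 : 0 ≤ θ) (h1 : θ ≤ 1) (f : ℝ → ℝ) :
    ∫ y, f y ∂ber θ = (1 + θ) / 2 * f 1 + (1 - θ) / 2 * f (-1) := by
  unfold ber
  rw [clamp_of_mem (by linarith) (by linarith), integral_add_measure, integral_smul_measure,
    integral_smul_measure, integral_dirac, integral_dirac, ENNReal.toReal_ofReal (by linarith),
    ENNReal.toReal_ofReal (by linarith), smul_eq_mul, smul_eq_mul]
  · ring
  · exact (integrable_dirac (by simp)).smul_measure ENNReal.ofReal_ne_top
  · exact (integrable_dirac (by simp)).smul_measure ENNReal.ofReal_ne_top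

/-- laws of the coordinates -/
noncomputable def mix (V : Type*) (θ : ℝ) : Ix V → Measure ℝ
  | .root => ber 0
  | .edge _ => ber θ
  | .tim _ => mu0
  | .noi _ => mu0

instance (V : Type*) (θ : ℝ) (k : Ix V) : IsProbabilityMeasure (mix V θ k) := by
  cases k <;> unfold mix <;> infer_instance

/-- the probability -/
noncomputable def PP (V : Type*) (θ : ℝ) : Measure (Ix V → ℝ) := Measure.infinitePi (mix V θ)

instance (V : Type*) (θ : ℝ) : IsProbabilityMeasure (PP V θ) := by unfold PP; infer_instance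

/-- sign -/
noncomputable def sg (y : ℝ) : ℝ := if 0 < y then 1 else -1

lemma sg_cases (y : ℝ) : sg y = 1 ∨ sg y = -1 := by unfold sg; split_ifs <;> simp

lemma sg_of_sign {s : ℝ} (hs : s = 1 ∨ s = -1) : sg s = s := by
  rcases hs with rfl | rfl <;> simp [sg]

@[fun_prop] lemma measurable_sg : Measurable sg :=
  Measurable.ite (measurableSet_lt measurable_const measurable_id) measurable_const measurable_const

lemma sign_mul {s t : ℝ} (hs : s = 1 ∨ s = -1) (ht : t = 1 ∨ t = -1) : s * t = 1 ∨ s * t = -1 := by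
  rcases hs with rfl | rfl <;> rcases ht with rfl | rfl <;> simp

lemma sign_mul_self {s : ℝ} (hs : s = 1 ∨ s = -1) : s * s = 1 := by
  rcases hs with rfl | rfl <;> simp

lemma abs_sign {s : ℝ} (hs : s = 1 ∨ s = -1) : |s| = 1 := by
  rcases hs with rfl | rfl <;> simp

lemma BM.sign {Ω : Type*} [MeasurableSpace Ω] {F : ℝ → Ω → ℝ} (h1 : BM (F 1)) (h2 : BM (F (-1)))
    {c : Ω → ℝ} (hc : Measurable c) (hc' : ∀ z, c z = 1 ∨ c z = -1) : BM fun z => F (c z) z := by
  classical
  have : (fun z => F (c z) z) = fun z => if c z = 1 then F 1 z else F (-1) z := by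
    funext z
    rcases hc' z with h | h
    · simp [h]
    · rw [h, if_neg (by norm_num)]
  rw [this]
  exact BM.ite (measurableSet_eq_fun hc measurable_const) h1 h2

variable {V : Type*} (G : SimpleGraph V) (ρ : V)

/-- product of the edge signs from `v` to the root -/
noncomputable def pth (z : Ix V → ℝ) (v : V) : ℝ :=
  ∏ i ∈ Finset.range (G.dist v ρ), sg (z (.edge s(geo G v ρ i, geo G v ρ (i + 1))))

/-- the spins -/
noncomputable def spin (z : Ix V → ℝ) (v : V) : ℝ := sg (z .root) * pth G ρ z v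

variable {G ρ}

lemma pth_cases (z : Ix V → ℝ) (v : V) : pth G ρ z v = 1 ∨ pth G ρ z v = -1 :=
  Finset.prod_induction _ (fun x => x = 1 ∨ x = -1) (fun _ _ => sign_mul) (Or.inl rfl)
    fun _ _ => sg_cases _

lemma spin_cases (z : Ix V → ℝ) (v : V) : spin G ρ z v = 1 ∨ spin G ρ z v = -1 :=
  sign_mul (sg_cases _) (pth_cases z v)

lemma spin_mul_self (z : Ix V → ℝ) (v : V) : spin G ρ z v * spin G ρ z v = 1 :=
  sign_mul_self (spin_cases z v)

lemma measurable_pth (v : V) : Measurable fun z => pth G ρ z v := by unfold pth; fun_prop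

@[fun_prop] lemma measurable_spin (v : V) : Measurable fun z => spin G ρ z v :=
  (measurable_sg.comp (measurable_pi_apply _)).mul (measurable_pth v)

lemma BM_spin (v : V) : BM fun z => spin G ρ z v :=
  BM.of (measurable_spin v) 1 fun z => (abs_sign (spin_cases z v)).le

lemma pth_congr {z z' : Ix V → ℝ} (h : ∀ e, z (.edge e) = z' (.edge e)) (v : V) :
    pth G ρ z v = pth G ρ z' v := by simp only [pth, h]

lemma spin_congr {z z' : Ix V → ℝ} (h0 : z .root = z' .root) (h : ∀ e, z (.edge e) = z' (.edge e)) :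
    spin G ρ z = spin G ρ z' := by
  funext v; simp only [spin, h0, pth_congr h]

lemma spin_update_tim (z : Ix V → ℝ) (j : V × ℕ) (y : ℝ) :
    spin G ρ (update z (.tim j) y) = spin G ρ z := spin_congr (by simp) (by simp)

lemma spin_update_noi (z : Ix V → ℝ) (j : V × ℕ) (y : ℝ) :
    spin G ρ (update z (.noi j) y) = spin G ρ z := spin_congr (by simp) (by simp)

lemma spin_update_root (z : Ix V → ℝ) (y : ℝ) (v : V) :
    spin G ρ (update z .root y) v = sg y * pth G ρ z v := by
  rw [spin, pth_congr (z' := z) (by simp)]; simp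

lemma spin_adj (hT : G.IsTree) (z : Ix V → ℝ) {x y : V} (h : G.Adj x y) :
    spin G ρ z x * spin G ρ z y = sg (z (.edge s(x, y))) := by
  have key : ∀ x y, G.Adj x y → nxt G ρ x = y →
      spin G ρ z x * spin G ρ z y = sg (z (.edge s(x, y))) := by
    rintro x y h rfl
    have hx : x ≠ ρ := by rintro rfl; rw [nxt_self] at h; exact h.ne rfl
    have : pth G ρ z x = pth G ρ z (nxt G ρ x) * sg (z (.edge s(x, nxt G ρ x))) := by
      unfold pth
      rw [← (nxt_spec hT hx).2, Finset.prod_range_succ']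
      simp only [geo_succ', geo_zero]
    have h1 := spin_mul_self (G := G) (ρ := ρ) z (nxt G ρ x)
    unfold spin at h1 ⊢
    rw [this]
    linear_combination (sg (z (.edge s(x, nxt G ρ x)))) * h1
  by_cases h1 : nxt G ρ x = y
  · exact key x y h h1
  · rw [mul_comm, Sym2.eq_swap]; exact key y x h.symm (nxt_back hT h h1)

lemma spin_adj' (hT : G.IsTree) (z : Ix V → ℝ) {x y : V} (h : G.Adj x y) :
    spin G ρ z y = spin G ρ z x * sg (z (.edge s(x, y))) := by
  rw [← spin_adj (ρ := ρ) hT z h, ← mul_assoc, spin_mul_self, one_mul]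

variable {θ : ℝ}

lemma integral_spin {F : ℝ → (Ix V → ℝ) → ℝ} (h1 : BM (F 1)) (h2 : BM (F (-1)))
    (hF : ∀ s z y, F s (update z .root y) = F s z) (v : V) :
    ∫ z, F (spin G ρ z v) z ∂PP V θ = (∫ z, F 1 z ∂PP V θ + ∫ z, F (-1) z ∂PP V θ) / 2 := by
  unfold PP
  rw [integral_update _ .root (BM.sign h1 h2 (measurable_spin v) fun z => spin_cases z v),
    ← integral_add h1.integrable h2.integrable, ← integral_div]
  refine integral_congr_ae (ae_of_all _ fun z => ?_)
  simp only [hF, spin_update_root, mix]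
  rw [integral_ber le_rfl zero_le_one, sg_of_sign (Or.inl rfl), sg_of_sign (Or.inr rfl)]
  rcases pth_cases (G := G) (ρ := ρ) z v with h | h <;> simp [h] <;> ring

lemma integral_edge (hθ : Adm θ) {F : ℝ → (Ix V → ℝ) → ℝ} (h1 : BM (F 1)) (h2 : BM (F (-1)))
    (e : Sym2 V) (hF : ∀ s z y, F s (update z (.edge e) y) = F s z) :
    ∫ z, F (sg (z (.edge e))) z ∂PP V θ =
      (1 + θ) / 2 * ∫ z, F 1 z ∂PP V θ + (1 - θ) / 2 * ∫ z, F (-1) z ∂PP V θ := by
  unfold PP
  rw [integral_update _ (.edge e) (BM.sign h1 h2 (by fun_prop) fun z => sg_cases _),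
    ← integral_const_mul, ← integral_const_mul,
    ← integral_add (h1.integrable.const_mul _) (h2.integrable.const_mul _)]
  refine integral_congr_ae (ae_of_all _ fun z => ?_)
  simp only [hF, update_self, mix]
  rw [integral_ber hθ.nonneg (by linarith [hθ.le]), sg_of_sign (Or.inl rfl), sg_of_sign (Or.inr rfl)]

/-! ### symmetries -/

lemma mp_skew {c : (Ix V → ℝ) → ℝ} (hc : Measurable c) (hc' : ∀ z, c z = 1 ∨ c z = -1)
    (hc'' : ∀ z y, c (update z .root y) = c z) :
    MeasurePreserving (fun z => update z .root (sg (z .root) * c z)) (PP V θ) (PP V θ) := by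
  have hm : Measurable fun z : Ix V → ℝ => update z .root (sg (z .root) * c z) :=
    measurable_update'.comp (measurable_id.prodMk (by fun_prop))
  refine mp_of_integral hm fun f hf => ?_
  unfold PP
  rw [integral_update _ .root hf, integral_update _ .root (hf.comp hm)]
  refine integral_congr_ae (ae_of_all _ fun z => ?_)
  simp only [hc'', update_self, update_idem, mix]
  rw [integral_ber le_rfl zero_le_one, integral_ber le_rfl zero_le_one, sg_of_sign (Or.inl rfl),
    sg_of_sign (Or.inr rfl)]
  rcases hc' z with h | h <;> simp [h]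
  ring

/-- global spin flip -/
noncomputable def flip (z : Ix V → ℝ) : Ix V → ℝ := update z .root (sg (z .root) * -1)

lemma mp_flip : MeasurePreserving flip (PP V θ) (PP V θ) :=
  mp_skew measurable_const (fun _ => Or.inr rfl) fun _ _ => rfl

lemma spin_flip (z : Ix V → ℝ) (v : V) : spin G ρ (flip z) v = -spin G ρ z v := by
  rw [flip, spin_update_root, sg_of_sign (sign_mul (sg_cases _) (Or.inr rfl)), spin]; ring

/-- action of a map of vertices on the coordinates -/
def ixmap (g : V → V) : Ix V → Ix V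
  | .root => .root
  | .edge e => .edge (e.map g)
  | .tim j => .tim (g j.1, j.2)
  | .noi j => .noi (g j.1, j.2)

variable (ρ) in
/-- action of an automorphism on the probability space -/
noncomputable def act (g : G ≃g G) (z : Ix V → ℝ) : Ix V → ℝ :=
  fun k => update z .root (sg (z .root) * pth G ρ z (g ρ)) (ixmap g k)

lemma mp_act (g : G ≃g G) : MeasurePreserving (act ρ g) (PP V θ) (PP V θ) := by
  have hinj : Injective (ixmap g : Ix V → Ix V) := by
    have h1 : Injective (Sym2.map g) := Sym2.map.injective g.injective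
    rintro (_ | a | ⟨a, n⟩ | ⟨a, n⟩) (_ | b | ⟨b, m⟩ | ⟨b, m⟩) h <;>
      simp only [ixmap, reduceCtorEq, Ix.edge.injEq, Ix.tim.injEq, Ix.noi.injEq, Prod.mk.injEq,
        EmbeddingLike.apply_eq_iff_eq] at h ⊢
    · exact h1 h
    · exact h
    · exact h
  have h1 : MeasurePreserving (fun (z : Ix V → ℝ) k => z (ixmap g k)) (PP V θ) (PP V θ) := by
    refine ⟨by fun_prop, ?_⟩
    unfold PP
    rw [Measure.map_infinitePi_infinitePi_of_inj hinj]
    congr 1
    funext k
    cases k <;> rfl
  exact h1.comp (mp_skew (measurable_pth (g ρ)) (fun z => pth_cases z _)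
    fun z y => pth_congr (by simp) _)

lemma act_edge (g : G ≃g G) (z : Ix V → ℝ) (e : Sym2 V) :
    act ρ g z (.edge e) = z (.edge (e.map g)) := by simp [act, ixmap]

lemma act_tim (g : G ≃g G) (z : Ix V → ℝ) (j : V × ℕ) :
    act ρ g z (.tim j) = z (.tim (g j.1, j.2)) := by simp [act, ixmap]

lemma act_noi (g : G ≃g G) (z : Ix V → ℝ) (j : V × ℕ) :
    act ρ g z (.noi j) = z (.noi (g j.1, j.2)) := by simp [act, ixmap]

lemma spin_act (hT : G.IsTree) (g : G ≃g G) (z : Ix V → ℝ) (v : V) :
    spin G ρ (act ρ g z) v = spin G ρ z (g v) := by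
  refine dist_induction hT ρ (P := fun v => spin G ρ (act ρ g z) v = spin G ρ z (g v)) ?_
    (fun v hv ih => ?_) v
  · simp only [spin, pth, dist_self, Finset.range_zero, Finset.prod_empty, mul_one, act, ixmap,
      update_self]
    exact sg_of_sign (spin_cases (G := G) (ρ := ρ) z (g ρ))
  · have h := (nxt_spec hT hv).1.symm
    rw [spin_adj' hT _ h, ih, spin_adj' hT z (g.map_adj_iff.2 h), act_edge]
    rfl

/-! ### partition functions -/

variable [DecidableEq V] [G.LocallyFinite]

variable (G) in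
/-- coordinates inside a half tree -/
def K0 (p x : V) : Set (Ix V) := fun k =>
  match k with
  | .root => False
  | .edge e => ∀ y ∈ e, y ∈ Tinf G p x
  | .tim j => j.1 ∈ Tinf G p x
  | .noi j => j.1 ∈ Tinf G p x

variable (G) in
/-- coordinates inside a half tree and the edge leading to it -/
def K1 (p x : V) : Set (Ix V) := insert (.edge s(p, x)) (K0 G p x)

lemma K0_ch {p x c : V} (hc : c ∈ ch G p x) : K0 G x c ⊆ K0 G p x := by
  rintro (_ | e | j | j) h
  · exact h
  · exact fun y hy => Tinf_ch hc (h y hy)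
  · exact Tinf_ch hc h
  · exact Tinf_ch hc h

lemma K1_ch {p x c : V} (hc : c ∈ ch G p x) : K1 G x c ⊆ K0 G p x := by
  rintro k (rfl | h)
  · intro y hy
    rcases Sym2.mem_iff.1 hy with rfl | rfl
    · exact self_mem_Tinf _ _
    · exact Tinf_ch hc (self_mem_Tinf _ _)
  · exact K0_ch hc h

lemma edge_notMem_K0 (hT : G.IsTree) {x c c' : V} (hc' : G.Adj x c') :
    Ix.edge s(x, c) ∉ K0 G x c' := fun h => not_mem_Tinf hT hc' (h x (by simp))

lemma K1_disj (hT : G.IsTree) {x c c' : V} (hc : G.Adj x c) (hc' : G.Adj x c') (hne : c ≠ c') :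
    Disjoint (K1 G x c) (K1 G x c') := by
  rw [Set.disjoint_left]
  rintro k (rfl | h) (h' | h')
  · simp only [Ix.edge.injEq, Sym2.eq_iff, true_and] at h'
    rcases h' with h' | h'
    · exact hne h'
    · exact hc'.ne h'.1
  · exact edge_notMem_K0 hT hc' h'
  · exact edge_notMem_K0 hT hc (h' ▸ h)
  · rcases k with _ | e | j | j
    · exact h
    · induction e using Sym2.ind with
      | _ a b => exact hne (Tinf_disj hT hc hc' (h a (by simp)) (h' a (by simp)))
    · exact hne (Tinf_disj hT hc hc' h h')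
    · exact hne (Tinf_disj hT hc hc' h h')

variable (G) in
/-- Boltzmann weight of a finite half tree given the spin at its top -/
noncomputable def Wz (h : V → ℝ) : ℕ → V → V → ℝ → (Ix V → ℝ) → ℝ
  | 0, _, x, s, _ => exp (h x * s)
  | k + 1, p, x, s, z => exp (h x * s) * ∏ c ∈ ch G p x, Wz h k x c (s * sg (z (.edge s(x, c)))) z

lemma Wz_spin (hT : G.IsTree) (h : V → ℝ) (k : ℕ) (p x : V) (z : Ix V → ℝ) :
    Wz G h k p x (spin G ρ z x) z = ∏ y ∈ Tk G k p x, exp (h y * spin G ρ z y) := by
  induction k generalizing p x with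
  | zero => simp [Wz, Tk_zero]
  | succ k ih =>
    rw [Wz, prod_Tk_succ hT]
    congr 1
    exact Finset.prod_congr rfl fun c hc => by rw [← spin_adj' hT z (mem_ch.1 hc).2, ih]

lemma Wz_dep (h : V → ℝ) (k : ℕ) (p x : V) (s : ℝ) : DependsOn (Wz G h k p x s) (K0 G p x) := by
  induction k generalizing p x s with
  | zero => exact fun _ _ _ => rfl
  | succ k ih =>
    intro z z' hz
    simp only [Wz]
    congr 1
    refine Finset.prod_congr rfl fun c hc => ?_
    rw [hz _ (K1_ch hc (Or.inl rfl))]
    exact ih _ _ _ fun i hi => hz i (K0_ch hc hi)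

lemma BM_Wz (h : V → ℝ) (k : ℕ) (p x : V) (s : ℝ) : BM (Wz G h k p x s) := by
  induction k generalizing p x s with
  | zero => exact BM.const _
  | succ k ih =>
    refine (BM.const _).mul (BM.prod _ fun c _ => ?_)
    exact BM.sign (F := fun t z => Wz G h k x c (s * t) z) (ih _ _ _) (ih _ _ _) (by fun_prop)
      fun z => sg_cases _

lemma integral_Wz (hT : G.IsTree) (hθ : Adm θ) (h : V → ℝ) (k : ℕ) (p x : V) :
    ∫ z, Wz G h k p x 1 z ∂PP V θ = exp (2 * Hn G θ h k p x) * ∫ z, Wz G h k p x (-1) z ∂PP V θ := by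
  induction k generalizing p x with
  | zero =>
    simp only [Wz, Hn, integral_const, probReal_univ, smul_eq_mul, one_mul, ← exp_add]
    congr 1; ring
  | succ k ih =>
    have key : ∀ s, ∫ z, Wz G h (k + 1) p x s z ∂PP V θ = exp (h x * s) * ∏ c ∈ ch G p x,
        ((1 + θ) / 2 * ∫ z, Wz G h k x c (s * 1) z ∂PP V θ +
          (1 - θ) / 2 * ∫ z, Wz G h k x c (s * -1) z ∂PP V θ) := by
      intro s
      simp only [Wz, integral_const_mul]
      congr 1
      unfold PP
      rw [integral_prod_indep _ _ (S := fun c => K1 G x c)]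
      · refine Finset.prod_congr rfl fun c hc => ?_
        exact integral_edge hθ (F := fun t z => Wz G h k x c (s * t) z) (BM_Wz _ _ _ _ _)
          (BM_Wz _ _ _ _ _) _ fun t z y => Wz_dep _ _ _ _ _ fun i hi => update_of_ne
            (by rintro rfl; exact edge_notMem_K0 hT (mem_ch.1 hc).2 hi) _ _
      · exact fun c _ => BM.sign (F := fun t z => Wz G h k x c (s * t) z) (BM_Wz _ _ _ _ _)
          (BM_Wz _ _ _ _ _) (by fun_prop) fun z => sg_cases _
      · intro c _ z z' hz
        simp only
        rw [hz _ (Or.inl rfl)]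
        exact Wz_dep _ _ _ _ _ fun i hi => hz i (Or.inr hi)
      · exact fun c hc c' hc' hne => K1_disj hT (mem_ch.1 hc).2 (mem_ch.1 hc').2 hne
    rw [key, key, Hn, mul_add, exp_add, Finset.mul_sum, exp_sum]
    simp only [mul_one, mul_neg, neg_neg, ih]
    have e : exp (h x) = exp (2 * h x) * exp (-h x) := by rw [← exp_add]; congr 1; ring
    rw [e, mul_mul_mul_comm, ← Finset.prod_mul_distrib]
    congr 1
    refine Finset.prod_congr rfl fun c _ => ?_
    linear_combination (∫ z, Wz G h k x c (-1) z ∂PP V θ) * exp_two_uu hθ (Hn G θ h k x c)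

lemma static_bayes (hT : G.IsTree) (hθ : Adm θ) (h : V → ℝ) (k : ℕ) (p x : V) :
    ∫ z, spin G ρ z x * ∏ y ∈ Tk G k p x, exp (h y * spin G ρ z y) ∂PP V θ =
      tanh (Hn G θ h k p x) * ∫ z, ∏ y ∈ Tk G k p x, exp (h y * spin G ρ z y) ∂PP V θ := by
  simp only [← Wz_spin hT]
  have hu : ∀ s z y, Wz G h k p x s (update z .root y) = Wz G h k p x s z := fun s z y =>
    Wz_dep _ _ _ _ _ fun i hi => update_of_ne (by rintro rfl; exact hi) _ _
  rw [integral_spin (F := fun s z => s * Wz G h k p x s z) ((BM.const _).mul (BM_Wz _ _ _ _ _))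
    ((BM.const _).mul (BM_Wz _ _ _ _ _)) (fun s z y => by simp only [hu]),
    integral_spin (F := fun s z => Wz G h k p x s z) (BM_Wz _ _ _ _ _) (BM_Wz _ _ _ _ _) hu,
    integral_const_mul, integral_const_mul, integral_Wz hT hθ, tanh_eq_exp]
  have := exp_pos (2 * Hn G θ h k p x)
  field_simp
  ring

end Crest.Agent.R160
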