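import Crest.Agent.R160.Bayes

set_option autoImplicit false

/-!
Static estimates: time cuts, locality in the gauge coordinates and decay of the products of
derivatives along geodesics.
-/

namespace Crest.Agent.R160

open Real MeasureTheory Set Filter SimpleGraph Function Topology
open Crest.Agent.R168 (clamp mu0 clamp_nonneg clamp_le_one clamp_of_mem measurable_clamp)

variable {V : Type*}

/-- observations made before time `r` of round `n` -/
def cut (n : ℕ) (r : ℝ) (τ : V × ℕ → ℝ) : Set (V × ℕ) := {j | j.2 < n ∨ (j.2 = n ∧ τ j < r)}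

lemma measurableSet_cut {Ω : Type*} [MeasurableSpace Ω] (n : ℕ) {r : Ω → ℝ} (hr : Measurable r)
    {τ : Ω → V × ℕ → ℝ} (hτ : Measurable τ) (j : V × ℕ) : MeasurableSet {x | j ∈ cut n (r x) (τ x)} :=
  (MeasurableSet.const _).union ((MeasurableSet.const _).inter (measurableSet_lt (by fun_prop) hr))

lemma lt_of_mem_cut {n : ℕ} {r : ℝ} {τ : V × ℕ → ℝ} {j : V × ℕ} (h : j ∈ cut n r τ) : j.2 < n + 1 := by
  rcases h with h | h <;> omega

lemma cut_mono {n : ℕ} {r r' : ℝ} (h : r ≤ r') (τ : V × ℕ → ℝ) : cut n r τ ⊆ cut n r' τ :=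
  fun _ hj => hj.imp id fun h' => ⟨h'.1, h'.2.trans_le h⟩

/-- static pattern -/
def PS (n : ℕ) (r : ℝ) (A : Set V) : Pat V where
  N := n + 1
  a τ := {j | j ∈ cut n r τ ∧ j.1 ∈ A}
  meas j := (measurableSet_cut n measurable_const measurable_id j).inter (MeasurableSet.const _)
  lt _ _ h := lt_of_mem_cut h.1

/-- static pattern with a time depending on the site -/
def PV (n : ℕ) (r : V → ℝ) (A : Set V) : Pat V where
  N := n + 1
  a τ := {j | j ∈ cut n (r j.1) τ ∧ j.1 ∈ A}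
  meas j := (measurableSet_cut n measurable_const measurable_id j).inter (MeasurableSet.const _)
  lt _ _ h := lt_of_mem_cut h.1

/-- standing assumptions -/
structure Ctx (G : SimpleGraph V) [G.LocallyFinite] (θ : ℝ) (d : ℕ) : Prop where
  tree : G.IsTree
  adm : Adm θ
  reg : G.IsRegularOfDegree d
  three : 3 ≤ d
  crit : ((d - 1 : ℕ) : ℝ) * θ ^ 2 ≤ 1

variable (G : SimpleGraph V) (ρ : V) (θ : ℝ)

/-- the field at a deterministic time -/
noncomputable def hS (n : ℕ) (r : ℝ) (A : Set V) (z : Ix V → ℝ) : V → ℝ :=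
  (PS n r A).fld (data G ρ z)

/-- gauge transformed field -/
noncomputable def gfld (n : ℕ) (r : ℝ) (A : Set V) (z : Ix V → ℝ) : V → ℝ :=
  (PS n r A).fld (tau z, gobs z)

/-- the field at a deterministic time depending on the site -/
noncomputable def hV (n : ℕ) (r : V → ℝ) (A : Set V) (z : Ix V → ℝ) : V → ℝ :=
  (PV n r A).fld (data G ρ z)

/-- gauge transformed field -/
noncomputable def gV (n : ℕ) (r : V → ℝ) (A : Set V) (z : Ix V → ℝ) : V → ℝ :=
  (PV n r A).fld (tau z, gobs z)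

/-- coordinates attached to a vertex -/
def Kv (x : V) : Set (Ix V) := {k | ∃ i, k = .tim (x, i) ∨ k = .noi (x, i)}

variable {G ρ θ}

@[fun_prop] lemma measurable_hS (n : ℕ) (r : ℝ) (A : Set V) : Measurable (hS G ρ n r A) :=
  (PS n r A).measurable_fld.comp (measurable_data G ρ)

lemma abs_hS_le (n : ℕ) (r : ℝ) (A : Set V) (z : Ix V → ℝ) (y : V) : |hS G ρ n r A z y| ≤ n + 1 := by
  exact ((PS n r A).abs_fld_le (data G ρ z) y).trans_eq (Nat.cast_succ n)

lemma abs_gfld_le (n : ℕ) (r : ℝ) (A : Set V) (z : Ix V → ℝ) (y : V) : |gfld n r A z y| ≤ n + 1 := by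
  exact ((PS n r A).abs_fld_le (tau z, gobs z) y).trans_eq (Nat.cast_succ n)

lemma measurable_gfld (n : ℕ) (r : ℝ) (A : Set V) (y : V) : Measurable fun z => gfld n r A z y :=
  (measurable_pi_apply y).comp ((PS n r A).measurable_fld.comp (by fun_prop))

lemma spin_mul_hS (n : ℕ) (r : ℝ) (A : Set V) (z : Ix V → ℝ) (y : V) :
    spin G ρ z y * hS G ρ n r A z y = gfld n r A z y := by
  simp only [hS, gfld, Pat.fld, Finset.mul_sum, data]
  refine Finset.sum_congr rfl fun i _ => ?_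
  split_ifs
  · rw [eta_sign (spin_cases z y), ← mul_assoc, spin_mul_self, one_mul]
  · simp

lemma gfld_dep (n : ℕ) (r : ℝ) (A : Set V) (y : V) : DependsOn (fun z => gfld n r A z y) (Kv y) := by
  intro z z' h
  simp only [gfld, Pat.fld]
  refine Finset.sum_congr rfl fun i _ => ?_
  have h1 : tau z (y, i) = tau z' (y, i) := h _ ⟨i, Or.inl rfl⟩
  have h2 : gobs z (y, i) = gobs z' (y, i) := by
    simp only [gobs, h _ ⟨i, Or.inl rfl⟩, h _ ⟨i, Or.inr rfl⟩]
  have h3 : (y, i) ∈ (PS n r A).a (tau z) ↔ (y, i) ∈ (PS n r A).a (tau z') := by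
    simp only [PS, cut, mem_ofPred_eq, h1]
  rw [h1, h2, propext h3]

@[fun_prop] lemma measurable_hV (n : ℕ) (r : V → ℝ) (A : Set V) : Measurable (hV G ρ n r A) :=
  (PV n r A).measurable_fld.comp (measurable_data G ρ)

lemma abs_hV_le (n : ℕ) (r : V → ℝ) (A : Set V) (z : Ix V → ℝ) (y : V) : |hV G ρ n r A z y| ≤ n + 1 := by
  exact ((PV n r A).abs_fld_le (data G ρ z) y).trans_eq (Nat.cast_succ n)

lemma abs_gV_le (n : ℕ) (r : V → ℝ) (A : Set V) (z : Ix V → ℝ) (y : V) : |gV n r A z y| ≤ n + 1 := by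
  exact ((PV n r A).abs_fld_le (tau z, gobs z) y).trans_eq (Nat.cast_succ n)

lemma measurable_gV (n : ℕ) (r : V → ℝ) (A : Set V) (y : V) : Measurable fun z => gV n r A z y :=
  (measurable_pi_apply y).comp ((PV n r A).measurable_fld.comp (by fun_prop))

lemma spin_mul_hV (n : ℕ) (r : V → ℝ) (A : Set V) (z : Ix V → ℝ) (y : V) :
    spin G ρ z y * hV G ρ n r A z y = gV n r A z y := by
  simp only [hV, gV, Pat.fld, Finset.mul_sum, data]
  refine Finset.sum_congr rfl fun i _ => ?_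
  split_ifs
  · rw [eta_sign (spin_cases z y), ← mul_assoc, spin_mul_self, one_mul]
  · simp

lemma gV_dep (n : ℕ) (r : V → ℝ) (A : Set V) (y : V) : DependsOn (fun z => gV n r A z y) (Kv y) := by
  intro z z' h
  simp only [gV, Pat.fld]
  refine Finset.sum_congr rfl fun i _ => ?_
  have h1 : tau z (y, i) = tau z' (y, i) := h _ ⟨i, Or.inl rfl⟩
  have h2 : gobs z (y, i) = gobs z' (y, i) := by
    simp only [gobs, h _ ⟨i, Or.inl rfl⟩, h _ ⟨i, Or.inr rfl⟩]
  have h3 : (y, i) ∈ (PV n r A).a (tau z) ↔ (y, i) ∈ (PV n r A).a (tau z') := by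
    simp only [PV, cut, mem_ofPred_eq, h1]
  rw [h1, h2, propext h3]

lemma integral_sum_sq_le {I X ι : Type*} [MeasurableSpace X] (μ : I → Measure X)
    [∀ j, IsProbabilityMeasure (μ j)] (s : Finset ι) {f : ι → (I → X) → ℝ} {S : ι → Set I}
    (hf : ∀ i ∈ s, BM (f i)) (hS : ∀ i ∈ s, DependsOn (f i) (S i))
    (hd : ∀ i ∈ s, ∀ j ∈ s, i ≠ j → Disjoint (S i) (S j)) :
    ∫ z, (∑ i ∈ s, f i z) ^ 2 ∂Measure.infinitePi μ ≤
      ∑ i ∈ s, ∫ z, f i z ^ 2 ∂Measure.infinitePi μ +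
        (∑ i ∈ s, ∫ z, f i z ∂Measure.infinitePi μ) ^ 2 := by
  classical
  simp only [sq, Finset.sum_mul_sum]
  rw [integral_finsetSum _ fun i hi => (BM.sum _ fun j hj => (hf i hi).mul (hf j hj)).integrable,
    ← Finset.sum_add_distrib]
  refine Finset.sum_le_sum fun i hi => ?_
  rw [integral_finsetSum _ fun j hj => ((hf i hi).mul (hf j hj)).integrable,
    ← Finset.add_sum_erase _ _ hi, ← Finset.add_sum_erase _ _ hi,
    Finset.sum_congr rfl fun j hj => integral_mul_indep μ (hf i hi) (hf j (Finset.mem_of_mem_erase hj))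
      (hS i hi) (hS j (Finset.mem_of_mem_erase hj))
      (hd i hi j (Finset.mem_of_mem_erase hj) (Finset.ne_of_mem_erase hj).symm)]
  linarith [mul_self_nonneg (∫ z, f i z ∂Measure.infinitePi μ)]

lemma sq_le_of_orth {Ω : Type*} [MeasurableSpace Ω] {μ : Measure Ω} [IsProbabilityMeasure μ]
    {a f : Ω → ℝ} (ha : BM a) (hf : BM f) (h : ∫ x, a x * f x ∂μ = ∫ x, f x * f x ∂μ) :
    ∫ x, (a x - f x) ^ 2 ∂μ = ∫ x, a x ^ 2 ∂μ - ∫ x, f x ^ 2 ∂μ := by
  have e : ∀ x, (a x - f x) ^ 2 = (a x ^ 2 - f x ^ 2) - 2 * (a x * f x - f x * f x) :=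
    fun x => by ring
  simp only [e]
  rw [integral_sub (BM.integrable (by bm)) (BM.integrable (by bm)),
    integral_sub (BM.integrable (by bm)) (BM.integrable (by bm)), integral_const_mul,
    integral_sub (BM.integrable (by bm)) (BM.integrable (by bm)), h]
  ring

variable [DecidableEq V] [G.LocallyFinite]

lemma Kv_sub {p x y : V} (hy : y ∈ Tinf G p x) : Kv y ⊆ K0 G p x := by
  rintro _ ⟨i, rfl | rfl⟩ <;> exact hy

lemma Kv_disj (hT : G.IsTree) {x c : V} (hc : G.Adj x c) : Disjoint (Kv x) (K1 G x c) := by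
  rw [Set.disjoint_left]
  rintro _ ⟨i, rfl | rfl⟩ (h | h)
  · simp at h
  · exact not_mem_Tinf hT hc h
  · simp at h
  · exact not_mem_Tinf hT hc h

section Dep

variable (hT : G.IsTree) (n : ℕ) (r : V → ℝ) (A : Set V)
include hT

lemma Hn_depV (k : ℕ) (p x : V) :
    DependsOn (fun z => spin G ρ z x * Hn G θ (hV G ρ n r A z) k p x) (K0 G p x) := by
  intro z z' h
  refine Hn_gauge (spin_cases z) (spin_cases z') k p x (fun y hy => ?_) fun y hy y' hy' hyy => ?_
  · rw [spin_mul_hV, spin_mul_hV]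
    exact gV_dep n r A y fun i hi => h i (Kv_sub (Tk_sub_Tinf hy) hi)
  · rw [spin_adj hT z hyy, spin_adj hT z' hyy, h]
    intro w hw
    rcases Sym2.mem_iff.1 hw with rfl | rfl
    · exact Tk_sub_Tinf hy
    · exact Tk_sub_Tinf hy'

lemma Hi_depV (p x : V) :
    DependsOn (fun z => spin G ρ z x * Hi G θ (hV G ρ n r A z) p x) (K0 G p x) := by
  intro z z' h
  simp only [Hi]
  rw [← slim_sign (spin_cases z x), ← slim_sign (spin_cases z' x)]
  congr 1
  funext k
  exact Hn_depV hT n r A k p x h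

lemma GG_depV (p x : V) : DependsOn (fun z => GG θ (Hi G θ (hV G ρ n r A z) p x)) (K0 G p x) := by
  intro z z' h
  simp only
  exact (GG_sign θ (spin_cases (G := G) (ρ := ρ) z x) _).symm.trans
    ((congrArg _ (Hi_depV hT n r A p x h)).trans (GG_sign θ (spin_cases (G := G) (ρ := ρ) z' x) _))

lemma nxt_mem_ch {c x : V} (h : 2 ≤ G.dist c x) : nxt G x (nxt G x c) ∈ ch G c (nxt G x c) := by
  have hc : c ≠ x := by rintro rfl; simp at h
  have h1 := nxt_spec hT hc
  have hc' : nxt G x c ≠ x := by intro h'; rw [h'] at h1; simp at h1; omega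
  have h2 := nxt_spec hT hc'
  refine mem_ch.2 ⟨fun h' => ?_, h2.1⟩
  rw [h'] at h2; omega

lemma Wp_depV (k : ℕ) (c x : V) (hk : k ≤ G.dist c x) :
    DependsOn (fun z => Wp G θ (hV G ρ n r A z) k c x) (K0 G c (nxt G x c)) := by
  induction k generalizing c with
  | zero => exact fun _ _ _ => by simp [Wp]
  | succ k ih =>
    intro z z' h
    simp only [Wp_succ]
    rw [show GG θ (Hi G θ (hV G ρ n r A z) c (nxt G x c)) = _ from GG_depV hT n r A c _ h]
    congr 1
    rcases Nat.eq_zero_or_pos k with rfl | hk0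
    · simp [Wp]
    · have hc : c ≠ x := by rintro rfl; simp at hk
      have := (nxt_spec hT hc).2
      exact ih _ (by omega) fun i hi => h i (K0_ch (nxt_mem_ch hT (by omega)) hi)

end Dep

lemma Hn_dep (hT : G.IsTree) (n : ℕ) (r : ℝ) (A : Set V) (k : ℕ) (p x : V) :
    DependsOn (fun z => spin G ρ z x * Hn G θ (hS G ρ n r A z) k p x) (K0 G p x) :=
  Hn_depV hT n (fun _ => r) A k p x

lemma Wp_dep (hT : G.IsTree) (n : ℕ) (r : ℝ) (A : Set V) (k : ℕ) (c x : V) (hk : k ≤ G.dist c x) :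
    DependsOn (fun z => Wp G θ (hS G ρ n r A z) k c x) (K0 G c (nxt G x c)) :=
  Wp_depV hT n (fun _ => r) A k c x hk

lemma BM_GG (hθ : Adm θ) : BM (GG θ) :=
  BM.of (measurable_GG θ) 1 fun H => by rw [abs_of_pos (GG_pos hθ H)]; exact GG_le_one hθ H

lemma BM_uu (hθ : Adm θ) : BM (uu θ) := BM.of (measurable_uu θ) 1 (abs_uu_le hθ)

lemma BM_Wp (hθ : Adm θ) (k : ℕ) (c x : V) : BM fun h => Wp G θ h k c x :=
  BM.of (measurable_Wp k c x) 1 fun h => by
    rw [abs_of_pos (Wp_pos hθ h k c x)]; exact Wp_le_one hθ h k c x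

variable {d : ℕ} (hc : Ctx G θ d)
include hc

lemma ae_good_hS (n : ℕ) (r : ℝ) (A : Set V) : ∀ᵐ z ∂PP V θ, Good G θ (hS G ρ n r A z) :=
  ae_good hc.tree hc.adm hc.reg _

lemma ae_good_hV (n : ℕ) (r : V → ℝ) (A : Set V) : ∀ᵐ z ∂PP V θ, Good G θ (hV G ρ n r A z) :=
  ae_good hc.tree hc.adm hc.reg _

lemma decay_step (n : ℕ) (r : V → ℝ) (A : Set V) {z c c' : V} (hcc : c' ∈ ch G z c) {ζ : ℝ}
    (hζ : ζ ≤ ∫ w, tanh (Hi G θ (hV G ρ n r A w) c c') ^ 2 ∂PP V θ) {W : (Ix V → ℝ) → ℝ}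
    (hW : BM W) (hW0 : ∀ w, 0 ≤ W w) {S : Set (Ix V)} (hXX' : DependsOn W S)
    (hd : Disjoint (K1 G c c') S) :
    ∫ w, GG θ (Hi G θ (hV G ρ n r A w) z c) * W w ∂PP V θ ≤
      (1 - θ ^ 2 * ζ / (8 * cosh (n + 1 + d + 1) ^ 4)) * ∫ w, W w ∂PP V θ := by
  have hθ := hc.adm
  have hadj := (mem_ch.1 hcc).2
  obtain ⟨Hg, hHg⟩ : ∃ Hg : V → (Ix V → ℝ) → ℝ, ∀ y w,
      Hg y w = spin G ρ w y * Hi G θ (hV G ρ n r A w) c y := ⟨_, fun _ _ => rfl⟩
  have hHm : ∀ y, Measurable (Hg y) := fun y => by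
    rw [show Hg y = _ from funext (hHg y)]; fun_prop
  have hHd : ∀ y, DependsOn (Hg y) (K0 G c y) := fun y => by
    rw [show Hg y = _ from funext (hHg y)]; exact Hi_depV hc.tree n r A c y
  obtain ⟨X, hX⟩ : ∃ X : (Ix V → ℝ) → ℝ, ∀ w, X w = gV n r A w c +
      ∑ y ∈ (ch G z c).erase c', sg (w (.edge s(c, y))) * uu θ (Hg y w) := ⟨_, fun _ => rfl⟩
  have hXm : Measurable X := by
    rw [show X = _ from funext hX]
    exact (measurable_gV n r A c).add (Finset.measurable_sum _ fun y _ => by fun_prop)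
  have hXb : ∀ w, |X w| ≤ n + 1 + d := fun w => by
    rw [hX]
    refine (abs_add_le _ _).trans (add_le_add (abs_gV_le _ _ _ _ _)
      ((Finset.abs_sum_le_sum_abs _ _).trans ?_))
    refine (Finset.sum_le_card_nsmul _ _ 1 fun y _ => ?_).trans ?_
    · rw [abs_mul, abs_sign (sg_cases _), one_mul]; exact abs_uu_le hθ _
    · simpa using Finset.card_erase_le.trans (card_ch_le hc.reg z c)
  have hU := (BM_uu hθ).comp (hHm c')
  have hupd : ∀ {f : (Ix V → ℝ) → ℝ} {T : Set (Ix V)}, DependsOn f T → Ix.edge s(c, c') ∉ T →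
      ∀ w y, f (update w (.edge s(c, c')) y) = f w :=
    fun hf hT w y => hf fun i hi => update_of_ne (by rintro rfl; exact hT hi) _ _
  have e1 : ∫ w, GG θ (Hi G θ (hV G ρ n r A w) z c) * W w ∂PP V θ =
      ∫ w, GG θ (X w + sg (w (.edge s(c, c'))) * uu θ (Hg c' w)) * W w ∂PP V θ := by
    refine integral_congr_ae ?_
    filter_upwards [ae_good_hV (ρ := ρ) hc n r A] with w hw
    rw [← GG_sign θ (spin_cases (G := G) (ρ := ρ) w c), Hi_eq hθ hw, hX, add_assoc,
      Finset.sum_erase_add _ (fun y => sg (w (.edge s(c, y))) * uu θ (Hg y w)) hcc, mul_add,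
      spin_mul_hV, Finset.mul_sum]
    congr 3
    refine Finset.sum_congr rfl fun y hy => ?_
    rw [hHg, uu_sign θ (spin_cases w y), ← spin_adj (ρ := ρ) hc.tree w (mem_ch.1 hy).2, mul_assoc,
      ← mul_assoc (spin G ρ w y), spin_mul_self, one_mul]
  have hb : ∀ t, BM fun w => GG θ (X w + t * uu θ (Hg c' w)) * W w :=
    fun t => ((BM_GG hθ).comp (by fun_prop)).mul hW
  rw [e1, integral_edge hθ (F := fun t w => GG θ (X w + t * uu θ (Hg c' w)) * W w) (hb _) (hb _),
    ← integral_const_mul, ← integral_const_mul,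
    ← integral_add ((hb _).integrable.const_mul _) ((hb _).integrable.const_mul _)]
  swap
  · intro t w y
    have h1 : X (update w (.edge s(c, c')) y) = X w := by
      rw [hX, hX, hupd (gV_dep n r A c) (by simp [Kv])]
      congr 1
      refine Finset.sum_congr rfl fun y' hy' => ?_
      have h2 := Finset.mem_erase.1 hy'
      rw [hupd (hHd y') (edge_notMem_K0 hc.tree (mem_ch.1 h2.2).2), update_of_ne]
      simp only [ne_eq, Ix.edge.injEq, Sym2.eq_iff, true_and, not_or, not_and]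
      exact ⟨h2.1, fun h => absurd h hadj.ne⟩
    simp only [h1, hupd (hHd c') (edge_notMem_K0 hc.tree hadj),
      hupd hXX' (disjoint_left.1 hd (Or.inl rfl))]
  have hK : 0 < 8 * cosh ((n : ℝ) + 1 + d + 1) ^ 4 := by have := cosh_pos ((n : ℝ) + 1 + d + 1); positivity
  calc _ ≤ ∫ w, (W w - uu θ (Hg c' w) ^ 2 * W w / (8 * cosh ((n : ℝ) + 1 + d + 1) ^ 4)) ∂PP V θ := by
        refine integral_mono_BM (by bm [hb]) (by bm) (ae_of_all _ fun w => ?_)
        have := mul_le_mul_of_nonneg_right (GG_avg hθ (hXb w) (abs_uu_le hθ (Hg c' w))) (hW0 w)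
        simp only [one_mul, neg_mul, ← sub_eq_add_neg]
        refine le_trans (le_of_eq (by ring)) (this.trans (le_of_eq (by ring)))
    _ = (1 - (∫ w, uu θ (Hg c' w) ^ 2 ∂PP V θ) / (8 * cosh ((n : ℝ) + 1 + d + 1) ^ 4)) *
          ∫ w, W w ∂PP V θ := by
        rw [integral_sub hW.integrable (BM.integrable (by bm)), integral_div]
        unfold PP
        rw [integral_mul_indep _ (by bm) hW (S := K0 G c c') (fun w w' h => by simp only [hHd c' h])
          hXX' (hd.mono_left (subset_insert _ _))]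
        ring
    _ ≤ _ := by
        refine mul_le_mul_of_nonneg_right ?_ (integral_nonneg hW0)
        gcongr
        refine le_trans (mul_le_mul_of_nonneg_left hζ (sq_nonneg θ)) ?_
        rw [← integral_const_mul]
        have := BM_tanh.comp (show Measurable fun w => Hi G θ (hV G ρ n r A w) c c' by fun_prop)
        refine integral_mono_BM (by bm) (by bm) (ae_of_all _ fun w => ?_)
        have := sq_le_uu_sq hθ (Hg c' w)
        rw [hHg, tanh_sign (spin_cases w c'), mul_pow, sq (spin G ρ w c'), spin_mul_self,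
          one_mul] at this
        rw [hHg]; exact this

lemma decay_aux (n : ℕ) (r : V → ℝ) (A : Set V) (J : ℕ) {ζ : ℝ}
    (hζ : ∀ p z, G.Adj p z → (Tk G J p z : Set V) ⊆ A →
      ζ ≤ ∫ w, tanh (Hi G θ (hV G ρ n r A w) p z) ^ 2 ∂PP V θ)
    (hζ1 : θ ^ 2 * ζ / (8 * cosh (n + 1 + d + 1) ^ 4) ≤ 1)
    (x : V) (k : ℕ) (p z : V) (hk : k ≤ G.dist z x) (hp : k ≠ 0 → nxt G x z ≠ p)
    (hA : (Tk G (k + 1 + J) p z : Set V) ⊆ A) :
    ∫ w, Wp G θ (hV G ρ n r A w) k z x ∂PP V θ ≤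
      (1 - θ ^ 2 * ζ / (8 * cosh (n + 1 + d + 1) ^ 4)) ^ k := by
  induction k generalizing p z with
  | zero => simp [Wp]
  | succ k ih =>
    have hz : z ≠ x := by rintro rfl; simp at hk
    obtain ⟨h1, h2⟩ := nxt_spec hc.tree hz
    have hch : nxt G x z ∈ ch G p z := mem_ch.2 ⟨hp (by omega), h1⟩
    obtain ⟨c', h3, h4, h5⟩ := exists_side hc.reg hc.three (nxt G x z) z (nxt G x (nxt G x z))
    have hA' : (Tk G (k + 1 + J) z (nxt G x z) : Set V) ⊆ A := fun y hy =>
      hA (by rw [show k + 1 + 1 + J = k + 1 + J + 1 by ring]; exact Tk_ch hch hy)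
    have h6 : c' ∈ ch G z (nxt G x z) := mem_ch.2 ⟨h4, h3⟩
    have h7 := hζ _ _ h3 fun y hy => hA' (Tk_mono (by omega) _ _ (Tk_ch h6 hy))
    have hW := (BM_Wp (G := G) hc.adm k (nxt G x z) x).comp (measurable_hV (G := G) (ρ := ρ) n r A)
    have h8 : ∃ S, DependsOn (fun w => Wp G θ (hV G ρ n r A w) k (nxt G x z) x) S ∧
        Disjoint (K1 G (nxt G x z) c') S := by
      rcases Nat.eq_zero_or_pos k with rfl | hk0
      · exact ⟨∅, fun _ _ _ => by simp [Wp], by simp⟩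
      · refine ⟨_, Wp_depV hc.tree n r A k _ x (by omega), ?_⟩
        exact (K1_disj hc.tree h3 (mem_ch.1 (nxt_mem_ch hc.tree (by omega))).2 h5).mono_right
          (subset_insert _ _)
    obtain ⟨S, h8, h9⟩ := h8
    simp only [Wp_succ]
    refine (decay_step hc n r A h6 h7 hW (fun w => (Wp_pos hc.adm _ _ _ _).le) h8 h9).trans ?_
    rw [pow_succ' _ k]
    refine mul_le_mul_of_nonneg_left (ih z _ (by omega) (fun hk0 => ?_) hA') (sub_nonneg.2 hζ1)
    exact (mem_ch.1 (nxt_mem_ch hc.tree (by omega))).1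

lemma sq_mono (P P' : Pat V) (J : ℕ) (p z : V)
    (h : ∀ τ j, j ∈ P.a τ → j.1 ∈ Tk G J p z → j ∈ P'.a τ) :
    ∫ w, tanh (Hn G θ (P.fld (data G ρ w)) J p z) ^ 2 ∂PP V θ ≤
      ∫ w, tanh (Hi G θ (P'.fld (data G ρ w)) p z) ^ 2 ∂PP V θ := by
  have h1 := bayes_fin (ρ := ρ) hc.tree hc.adm P J p z (BM_tanh_Hn (G := G) (θ := θ) P J p z)
    (adapted_Hn P J p z tanh)
  have h2 := bayes_inf (ρ := ρ) hc.tree hc.adm hc.reg P' p z (BM_tanh_Hn (G := G) (θ := θ) P J p z)
    fun τ u u' hu => adapted_Hn P J p z tanh τ u u' fun j hj hj' =>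
      hu j (h τ j hj hj') (Tk_sub_Tinf hj')
  have := sq_le_of_orth ((BM_tanh_Hi P' p z).comp (measurable_data G ρ))
    ((BM_tanh_Hn P J p z).comp (measurable_data G ρ)) (h2.symm.trans h1)
  have h3 : 0 ≤ ∫ w, (tanh (Hi G θ (P'.fld (data G ρ w)) p z) -
      tanh (Hn G θ (P.fld (data G ρ w)) J p z)) ^ 2 ∂PP V θ := integral_nonneg fun _ => sq_nonneg _
  linarith

end Crest.Agent.R160
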