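import Crest.Agent.R160.Est

set_option autoImplicit false
set_option maxHeartbeats 400000

/-!
The one-step estimate and the Osgood argument.
-/

namespace Crest.Agent.R160

open Real MeasureTheory Set Filter SimpleGraph Function Topology
open Crest.Agent.R168 (clamp mu0 clamp_of_mem)

lemma osgood {f : ℝ → ℝ} {a c M : ℝ} (ha : a ≤ 1) (ha0 : 0 ≤ a) (hc : 0 ≤ c)
    (hM : 1 ≤ M * exp (-(2 * (c + 1)))) (h0 : f a ≤ exp (1 - M))
    (h : ∀ γ > 0, ∃ C, 0 ≤ C ∧ ∀ s t η, a ≤ s → s ≤ t → t ≤ 1 → 0 < η → η ≤ 1 → f s ≤ η →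
      f t ≤ f s + (t - s) * (γ + c * ph η + C * (t - s))) :
    f 1 ≤ exp (1 - M * exp (-(2 * (c + 1)))) := by
  obtain ⟨C, hC, h⟩ := h (exp (1 - M) / 2) (by positivity)
  have hM0 : 0 ≤ M := by
    by_contra h'
    nlinarith [exp_pos (-(2 * (c + 1)))]
  obtain ⟨N, hN⟩ := exists_nat_gt (2 * (c + 1) + 2 * C / exp (1 - M))
  have h1 : 0 ≤ 2 * C / exp (1 - M) := by positivity
  have hN0 : (0 : ℝ) < N := by linarith
  obtain ⟨δ, hδ⟩ : ∃ δ, δ = (1 - a) / N := ⟨_, rfl⟩
  have hδ0 : 0 ≤ δ := by rw [hδ]; exact div_nonneg (by linarith) hN0.le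
  have hδ1 : N * δ = 1 - a := by rw [hδ]; field_simp
  have h2 : (c + 1) * δ ≤ 1 / 2 := by
    by_contra h'
    nlinarith
  have h3 : C * δ ≤ exp (1 - M) / 2 := by
    have h4 : 2 * C / exp (1 - M) ≤ N := by linarith
    rw [div_le_iff₀ (exp_pos _)] at h4
    nlinarith [exp_pos (1 - M), mul_le_mul_of_nonneg_right h4 hδ0]
  have h4 : exp (-(2 * ((c + 1) * δ))) ≤ 1 - (c + 1) * δ := by
    have h5 : 0 ≤ (c + 1) * δ := by positivity
    rw [exp_neg, inv_le_comm₀ (exp_pos _) (by linarith), inv_eq_one_div, div_le_iff₀ (by linarith)]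
    nlinarith [add_one_le_exp (2 * ((c + 1) * δ))]
  have h5 : ∀ i ≤ N, exp (-(2 * (c + 1))) ≤ (1 - (c + 1) * δ) ^ i := fun i hi => by
    refine le_trans ?_ (pow_le_pow_left₀ (exp_pos _).le h4 i)
    rw [← exp_nat_mul, exp_le_exp]
    have : (i : ℝ) * δ ≤ N * δ := by gcongr
    nlinarith
  have key : ∀ i ≤ N, f (a + i * δ) ≤ exp (1 - M * (1 - (c + 1) * δ) ^ i) := by
    intro i hi
    induction i with
    | zero => simpa using h0
    | succ i ih =>
      have ih := ih (by omega)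
      have h6 : 1 ≤ M * (1 - (c + 1) * δ) ^ i := hM.trans (mul_le_mul_of_nonneg_left (h5 i (by omega)) hM0)
      have h7 : M * (1 - (c + 1) * δ) ^ i ≤ M :=
        mul_le_of_le_one_right hM0 (pow_le_one₀ (by linarith) (by nlinarith))
      have h8 : ((i + 1 : ℕ) : ℝ) * δ ≤ N * δ := by gcongr
      rw [pow_succ, ← mul_assoc]
      generalize M * (1 - (c + 1) * δ) ^ i = L at *
      have h9 := h (a + i * δ) (a + (i + 1 : ℕ) * δ) _ (le_add_of_nonneg_right (by positivity))
        (by push_cast; linarith) (by linarith) (exp_pos _) (exp_le_one_iff.2 (by linarith)) ih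
      rw [show a + (i + 1 : ℕ) * δ - (a + i * δ) = δ by push_cast; ring, ph, log_exp] at h9
      have h10 : exp (1 - M) ≤ exp (1 - L) * L :=
        (exp_le_exp.2 (by linarith)).trans (le_mul_of_one_le_right (exp_pos _).le h6)
      rw [show 1 - L * (1 - (c + 1) * δ) = 1 - L + L * ((c + 1) * δ) by ring, exp_add]
      have h11 := mul_le_mul_of_nonneg_left (add_one_le_exp (L * ((c + 1) * δ))) (exp_pos (1 - L)).le
      nlinarith [mul_le_mul_of_nonneg_left h10 hδ0, mul_le_mul_of_nonneg_left h3 hδ0]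
  have := key N le_rfl
  rw [hδ1, add_sub_cancel] at this
  exact this.trans (exp_le_exp.2 (by nlinarith [h5 N le_rfl]))

lemma one_obs {V : Type*} [DecidableEq V] (T : Finset V) (w : V → Prop) [DecidablePred w]
    (F : Finset V → ℝ) (a : V → ℝ) (hF : ∀ E, F E = F (E.filter w)) (ha : ∀ x, ¬w x → a x = 0)
    (hF1 : ∀ E, |F E| ≤ 1) (ha1 : ∀ x, |a x| ≤ 1) :
    (F T - F ∅ - ∑ x ∈ T, a x) ^ 2 ≤ ∑ x ∈ T, (F {x} - F ∅ - a x) ^ 2 + (2 + T.card) ^ 2 *
      ∑ x ∈ T, ∑ y ∈ T.erase x, (if w x then 1 else 0) * (if w y then 1 else 0) := by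
  have h0 : (0 : ℝ) ≤ ∑ x ∈ T, ∑ y ∈ T.erase x, (if w x then 1 else 0) * (if w y then 1 else 0) := by
    positivity
  have h1 : ∑ x ∈ T, a x = ∑ x ∈ T.filter w, a x := by
    rw [Finset.sum_filter]
    refine Finset.sum_congr rfl fun x _ => ?_
    split_ifs with h
    exacts [rfl, ha x h]
  by_cases h : 1 < (T.filter w).card
  · obtain ⟨x, hx, y, hy, hxy⟩ := Finset.one_lt_card.1 h
    rw [Finset.mem_filter] at hx hy
    have h2 : (1 : ℝ) ≤ ∑ x ∈ T, ∑ y ∈ T.erase x, (if w x then 1 else 0) * (if w y then 1 else 0) := by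
      refine le_trans ?_ (Finset.single_le_sum (f := fun x => ∑ y ∈ T.erase x,
        (if w x then (1 : ℝ) else 0) * (if w y then 1 else 0)) (fun _ _ => by positivity) hx.1)
      refine le_trans ?_ (Finset.single_le_sum (f := fun y =>
        (if w x then (1 : ℝ) else 0) * (if w y then 1 else 0)) (fun _ _ => by positivity)
        (Finset.mem_erase.2 ⟨hxy.symm, hy.1⟩))
      simp [hx.2, hy.2]
    have h3 : |∑ x ∈ T, a x| ≤ T.card := (Finset.abs_sum_le_sum_abs _ _).trans
      ((Finset.sum_le_card_nsmul _ _ _ fun x _ => ha1 x).trans_eq (by simp))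
    have h4 : |F T - F ∅ - ∑ x ∈ T, a x| ≤ 2 + T.card :=
      (abs_sub _ _).trans (add_le_add ((abs_sub _ _).trans (by linarith [hF1 T, hF1 ∅])) h3)
    have h5 := pow_le_pow_left₀ (abs_nonneg _) h4 2
    rw [sq_abs] at h5
    refine le_add_of_nonneg_of_le (Finset.sum_nonneg fun _ _ => sq_nonneg _) (h5.trans ?_)
    exact le_mul_of_one_le_right (sq_nonneg _) h2
  · refine le_add_of_le_of_nonneg ?_ (mul_nonneg (sq_nonneg _) h0)
    rw [hF T, h1]
    rcases Nat.le_one_iff_eq_zero_or_eq_one.1 (not_lt.1 h) with h' | h'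
    on_goal 1 => rw [Finset.card_eq_zero] at h'
    on_goal 2 => obtain ⟨x, h'⟩ := Finset.card_eq_one.1 h'
    · rw [h']; simp only [sub_self, Finset.sum_empty, ne_eq, OfNat.ofNat_ne_zero, not_false_eq_true,
        zero_pow]; positivity
    · have : x ∈ T := (Finset.mem_filter.1 (h' ▸ Finset.mem_singleton_self x)).1
      rw [h', Finset.sum_singleton]
      exact Finset.single_le_sum (f := fun x => (F {x} - F ∅ - a x) ^ 2) (fun _ _ => sq_nonneg _) this

variable {V : Type*} {G : SimpleGraph V} {ρ : V} {θ : ℝ}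

lemma win_le (j : V × ℕ) {s t b : ℝ} (hs : 0 ≤ s) (hst : s ≤ t) (ht : t ≤ 1)
    {F : ℝ × (Ix V → ℝ) → ℝ} (hF : BM F) (hF0 : ∀ p, 0 ≤ F p)
    (h : ∀ r z y, s ≤ r → r ≤ y → F (r, update z (.tim j) y) = F (r, update z (.tim j) r))
    (hb : ∀ r, s ≤ r → r < t → ∫ z, F (r, z) ∂PP V θ ≤ b) (hb0 : 0 ≤ b) :
    ∫ z, (Ico s t).indicator 1 (tau z j) * eps (tau z j) ^ 2 * F (tau z j, z) ∂PP V θ ≤
      (t - s) * t ^ 62 * b := by
  have hI := BM.indicator_one (measurableSet_Ico (a := s) (b := t))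
  have hτ : Measurable fun z : Ix V → ℝ => tau z j := by fun_prop
  have hG : ∀ r, BM fun p : ℝ × (Ix V → ℝ) => F (r, update p.2 (.tim j) p.1) := fun r =>
    hF.comp (by fun_prop)
  unfold PP
  rw [integral_update' _ (.tim j) (((hI.comp hτ).mul ((BM_eps.comp hτ).pow 2)).mul
    (hF.comp (by fun_prop)))]
  simp only [tau, update_self, integral_const_mul]
  rw [← integral_indicator_mu0 hs hst ht, ← integral_mul_const, ← integral_mul_const]
  refine integral_mono_BM (μ := mu0) ((hI.mul (BM_eps.pow 2)).mul (BM.integral_right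
    (F := fun p : ℝ × (Ix V → ℝ) => F (p.1, update p.2 (.tim j) p.1)) (hF.comp (by fun_prop)) _))
    (by bm) (ae_of_all _ fun r => ?_)
  by_cases hr : r ∈ Ico s t
  · simp only [indicator_of_mem hr, Pi.one_apply, one_mul]
    have h1 := hb r hr.1 hr.2
    unfold PP at h1
    rw [integral_update' _ (.tim j) (hF.comp (by fun_prop))] at h1
    have h2 : (1 - r) * ∫ z, F (r, update z (.tim j) r) ∂Measure.infinitePi (mix V θ) ≤ b := by
      refine le_trans ?_ h1
      rw [← integral_indicator_mu0 (hs.trans hr.1) (hr.2.le.trans ht) le_rfl, ← integral_mul_const]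
      refine integral_mono_BM (μ := mu0) ((BM.indicator_one measurableSet_Ico).mul (BM.const _))
        ((hG r).integral_right _) (ae_of_all _ fun y => ?_)
      by_cases hy : y ∈ Ico r 1
      · simp only [indicator_of_mem hy, Pi.one_apply, one_mul, h r _ y hr.1 hy.1, le_refl]
      · simp only [indicator_of_notMem hy, zero_mul]
        exact integral_nonneg fun z => hF0 _
    have h3 : eps r ^ 2 ≤ t ^ 62 * (1 - r) := by
      have h4 := hs.trans hr.1
      have h5 := hr.2.le.trans ht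
      rw [eps, clamp_of_mem h4 h5, mul_pow, ← pow_mul]
      exact mul_le_mul (pow_le_pow_left₀ h4 hr.2.le _) (by nlinarith) (sq_nonneg _)
        (pow_nonneg (hs.trans hst) _)
    calc _ ≤ t ^ 62 * (1 - r) * ∫ z, F (r, update z (.tim j) r) ∂Measure.infinitePi (mix V θ) :=
          mul_le_mul_of_nonneg_right h3 (integral_nonneg fun z => hF0 _)
      _ ≤ _ := by rw [mul_assoc]; exact mul_le_mul_of_nonneg_left h2 (pow_nonneg (hs.trans hst) _)
  · simp [indicator_of_notMem hr]

lemma notMem_cut_update (z : Ix V → ℝ) (x : V) (n : ℕ) {s y : ℝ} (h : s ≤ y) :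
    (x, n) ∉ cut n s (data G ρ (update z (.tim (x, n)) y)).1 := by
  simp [cut, data, tau, h]

lemma fld_PV_congr (n : ℕ) {r r' : V → ℝ} (e : Dat V) {y : V}
    (h : e.1 (y, n) < r y ↔ e.1 (y, n) < r' y) : (PV n r univ).fld e y = (PV n r' univ).fld e y := by
  refine Finset.sum_congr rfl fun i _ => ?_
  have : (y, i) ∈ (PV n r univ).a e.1 ↔ (y, i) ∈ (PV n r' univ).a e.1 := by
    simp only [PV, cut, mem_ofPred_eq, mem_univ, and_true]
    refine or_congr_right (and_congr_right ?_)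
    rintro rfl; exact h
  rw [propext this]

lemma fld_PV_win (n : ℕ) {r r' : V → ℝ} (e : Dat V) {y : V} (h : r y ≤ e.1 (y, n))
    (h' : e.1 (y, n) < r' y) :
    (PV n r' univ).fld e y = (PV n r univ).fld e y + eta (e.1 (y, n)) (e.2 (y, n)) := by
  simp only [Pat.fld, PV, Finset.sum_range_succ, cut, mem_ofPred_eq, mem_univ, and_true, lt_irrefl,
    false_or, true_and, if_pos h', if_neg (not_lt.2 h), add_zero, add_left_inj]
  refine Finset.sum_congr rfl fun i hi => ?_
  rw [if_pos (Or.inl (Finset.mem_range.1 hi)), if_pos (Or.inl (Finset.mem_range.1 hi))]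

lemma measurable_fld_time (n : ℕ) :
    Measurable fun p : ℝ × (Ix V → ℝ) => hS G ρ n p.1 univ p.2 := by
  refine measurable_pi_lambda _ fun x =>
    Finset.measurable_sum (Finset.range (n + 1)) (f := fun i (p : ℝ × (Ix V → ℝ)) => _) fun i _ => ?_
  refine Measurable.ite ((measurableSet_cut n measurable_fst (τ := fun p => (data G ρ p.2).1)
    (by fun_prop) (x, i)).inter (MeasurableSet.const _)) (by fun_prop) measurable_const

variable [DecidableEq V]

/-- hybrid times -/
def rE (s t : ℝ) (E : Finset V) (y : V) : ℝ := if y ∈ E then t else s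

lemma rE_mono {s t : ℝ} (h : s ≤ t) {E E' : Finset V} (hE : E ⊆ E') (y : V) :
    rE s t E y ≤ rE s t E' y := by
  unfold rE
  split_ifs with h1 h2
  exacts [le_rfl, absurd (hE h1) h2, h, le_rfl]

lemma le_rE {s t : ℝ} (h : s ≤ t) (E : Finset V) (y : V) : s ≤ rE s t E y := by
  unfold rE; split_ifs; exacts [h, le_rfl]

lemma rE_le {s t : ℝ} (h : s ≤ t) (E : Finset V) (y : V) : rE s t E y ≤ t := by
  unfold rE; split_ifs; exacts [le_rfl, h]

variable [G.LocallyFinite]

variable (G ρ θ) in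
/-- hybrid magnetisation -/
noncomputable def mE (n : ℕ) (s t : ℝ) (v : V) (E : Finset V) (z : Ix V → ℝ) : ℝ :=
  mag G θ (hV G ρ n (rE s t E) univ z) v

lemma BM_mE (n : ℕ) (s t : ℝ) (v : V) (E : Finset V) : BM (mE G ρ θ n s t v E) :=
  (BM_mag _ v).comp (measurable_data G ρ)

lemma mE_empty (n : ℕ) (s t : ℝ) (v : V) : mE G ρ θ n s t v ∅ = mm G ρ θ n s v := by
  have : rE s t (∅ : Finset V) = fun _ => s := funext fun _ => by simp [rE]
  funext z
  rw [mE, this]
  rfl

variable {d : ℕ} (hc : Ctx G θ d)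
include hc

lemma hyb_step (n : ℕ) {s t : ℝ} (hs : 0 ≤ s) (hst : s ≤ t) (ht : t ≤ 1) (v : V) {E : Finset V}
    {x : V} (hx : x ∉ E) :
    ∫ z, mE G ρ θ n s t v (insert x E) z ^ 2 ∂PP V θ ≤ ∫ z, mE G ρ θ n s t v E z ^ 2 ∂PP V θ +
      4 * (t - s) * ((θ ^ 2) ^ G.dist v x *
        ∫ z, Wp G θ (hV G ρ n (rE s t E) univ z) (G.dist v x) v x ∂PP V θ) := by
  have h1 := sq_sub_le (ρ := ρ) hc (P := PV n (rE s t E) univ) (P' := PV n (rE s t (insert x E)) univ)
    (fun τ j hj => ⟨cut_mono (rE_mono hst (Finset.subset_insert _ _) _) τ hj.1, hj.2⟩) v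
  have hW := (BM_Wp (G := G) hc.adm (G.dist v x) v x).comp
    (measurable_hV (G := G) (ρ := ρ) n (rE s t E) univ)
  have hrx : rE s t E x = s := if_neg hx
  have h2 := win_le (θ := θ) (x, n) hs hst ht
    (F := fun p => Wp G θ (hV G ρ n (rE s t E) univ p.2) (G.dist v x) v x) (hW.comp measurable_snd)
    (fun p => (Wp_pos hc.adm _ _ _ _).le) (fun r z y h1 h2 => by
      simp only [hV]
      rw [(agree_update z (x, n) y r).fld univ (by rw [hrx]; exact notMem_cut_update z x n (h1.trans h2))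
        (by rw [hrx]; exact notMem_cut_update z x n h1)])
    (fun _ _ _ => le_rfl) (integral_nonneg fun z => (Wp_pos hc.adm _ _ _ _).le)
  have hI := (BM.indicator_one (measurableSet_Ico (a := s) (b := t))).comp
    (show Measurable fun z : Ix V → ℝ => tau z (x, n) by fun_prop)
  have he := BM_eps.comp (show Measurable fun z : Ix V → ℝ => tau z (x, n) by fun_prop)
  have h3 : ∫ z, (mE G ρ θ n s t v (insert x E) z - mE G ρ θ n s t v E z) ^ 2 ∂PP V θ ≤
      ∫ z, 4 * (θ ^ 2) ^ G.dist v x * ((Ico s t).indicator 1 (tau z (x, n)) * eps (tau z (x, n)) ^ 2 *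
        Wp G θ (hV G ρ n (rE s t E) univ z) (G.dist v x) v x) ∂PP V θ := by
    refine integral_mono_BM (by bm [BM_mE]) (by bm) ?_
    filter_upwards [ae_good_hV (ρ := ρ) hc n (rE s t E) univ,
      ae_good_hV (ρ := ρ) hc n (rE s t (insert x E)) univ] with z h4 h5
    have h6 : ∀ y, y ≠ x → hV G ρ n (rE s t (insert x E)) univ z y = hV G ρ n (rE s t E) univ z y :=
      fun y hy => fld_PV_congr n _ (by simp [rE, hy])
    by_cases hw : tau z (x, n) ∈ Ico s t
    · have := jump_bound hc h4 h5 (fld_PV_win n (data G ρ z) (hrx.trans_le hw.1)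
        (hw.2.trans_eq (if_pos (Finset.mem_insert_self _ _)).symm)) h6
        (e := eps (tau z (x, n))) (by
          rw [tanh_eta, abs_mul, abs_of_nonneg (eps_nonneg _)]
          exact mul_le_of_le_one_right (eps_nonneg _) (abs_cl_le _))
        (by rw [tanh_eta]; exact abs_eps_cl _ _) v le_rfl
      rw [indicator_of_mem hw, Pi.one_apply]
      unfold mE
      linarith
    · have : hV G ρ n (rE s t (insert x E)) univ z = hV G ρ n (rE s t E) univ z := by
        funext y
        by_cases hy : y = x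
        · subst hy
          refine fld_PV_congr n _ ?_
          rw [hrx, rE, if_pos (Finset.mem_insert_self _ _)]
          exact ⟨fun h => by_contra fun h' => hw ⟨not_lt.1 h', h⟩, fun h => h.trans_le hst⟩
        · exact h6 y hy
      simp [mE, this, indicator_of_notMem hw]
  rw [integral_const_mul] at h3
  have h4 := mul_le_mul_of_nonneg_left h2 (show 0 ≤ 4 * (θ ^ 2) ^ G.dist v x by positivity)
  have h5 : (t - s) * t ^ 62 ≤ t - s :=
    mul_le_of_le_one_right (by linarith) (pow_le_one₀ (hs.trans hst) ht)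
  have h6 := mul_le_mul_of_nonneg_right h5 (show 0 ≤ 4 * (θ ^ 2) ^ G.dist v x *
    ∫ z, Wp G θ (hV G ρ n (rE s t E) univ z) (G.dist v x) v x ∂PP V θ from
    mul_nonneg (by positivity) (integral_nonneg fun z => (Wp_pos hc.adm _ _ _ _).le))
  simp only [mE, hV] at *
  linarith

lemma hyb_close (n : ℕ) {s t ϱ : ℝ} (hs : 0 ≤ s) (hst : s ≤ t) (ht : t ≤ 1) (hϱ0 : 0 ≤ ϱ)
    (hϱ1 : ϱ < 1) (hϱ : ∀ (r : V → ℝ) (v x : V), (∀ y, s ≤ r y) →
      (((d - 1 : ℕ) : ℝ) * θ ^ 2) ^ G.dist v x *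
        ∫ z, Wp G θ (hV G ρ n r univ z) (G.dist v x) v x ∂PP V θ ≤ ϱ ^ G.dist v x)
    (v : V) {E : Finset V} {K : ℕ} (hE : ∀ x, G.dist v x < K → x ∈ E) :
    ∫ z, (mm G ρ θ n t v z - mE G ρ θ n s t v E z) ^ 2 ∂PP V θ ≤
      8 * (t - s) * (ϱ ^ K / (1 - ϱ)) := by
  have hb := dm1_pos hc
  have h1 : ∀ E' : Finset V, ∫ z, mE G ρ θ n s t v (E' ∪ E) z ^ 2 ∂PP V θ ≤
      ∫ z, mE G ρ θ n s t v E z ^ 2 ∂PP V θ + 4 * (t - s) * ∑ x ∈ E',
        (if G.dist v x < K then 0 else ϱ ^ G.dist v x) / ((d - 1 : ℕ) : ℝ) ^ G.dist v x := by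
    intro E'
    induction E' using Finset.induction_on with
    | empty => simp
    | insert x E' hx ih =>
      rw [Finset.sum_insert hx, Finset.insert_union, mul_add]
      by_cases hx' : x ∈ E' ∪ E
      · rw [Finset.insert_eq_of_mem hx']
        have : 0 ≤ 4 * (t - s) * ((if G.dist v x < K then 0 else ϱ ^ G.dist v x) /
          ((d - 1 : ℕ) : ℝ) ^ G.dist v x) := mul_nonneg (by linarith) (by positivity)
        linarith
      · have h2 := hϱ _ v x (le_rE hst (E' ∪ E))
        rw [mul_pow, mul_assoc, ← le_div_iff₀' (by positivity)] at h2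
        rw [if_neg fun h => hx' (Finset.mem_union_right _ (hE x h))]
        linarith [hyb_step (ρ := ρ) hc n hs hst ht v hx',
          mul_le_mul_of_nonneg_left h2 (show 0 ≤ 4 * (t - s) by linarith)]
  have h2 : ∀ R, ∫ z, tanh (Hn G θ (hS G ρ n t univ z) R v v) ^ 2 ∂PP V θ ≤
      ∫ z, mE G ρ θ n s t v E z ^ 2 ∂PP V θ + 8 * (t - s) * (ϱ ^ K / (1 - ϱ)) := by
    intro R
    have h3 := sq_sub_le (ρ := ρ) hc (P := PS n t (Tk G R v v))
      (P' := PV n (rE s t (Tk G R v v ∪ E)) univ) (fun τ j hj => ⟨by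
        rw [rE, if_pos (Finset.mem_union_left _ hj.2)]; exact hj.1, trivial⟩) v
    have h4 : (0 : ℝ) ≤ _ := h3 ▸ integral_nonneg fun _ => sq_nonneg _
    simp only [← mag_trunc hc n t R (Or.inl rfl)]
    refine (sub_nonneg.1 h4).trans ((h1 _).trans (add_le_add le_rfl ?_))
    rw [show 8 * (t - s) * (ϱ ^ K / (1 - ϱ)) = 4 * (t - s) * (2 * (ϱ ^ K / (1 - ϱ))) by ring]
    refine mul_le_mul_of_nonneg_left ?_ (by linarith)
    rw [sum_Tk hc.tree]
    calc _ ≤ ∑ i ∈ Finset.range (R + 1), 2 * (if i < K then 0 else ϱ ^ i) := by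
          refine Finset.sum_le_sum fun i _ => ?_
          rw [Finset.sum_congr rfl fun x hx => by rw [Sph_dist hc.tree hx]]
          exact (sum_Sph_le hc i v v (by positivity)).trans_eq (by field_simp)
      _ ≤ _ := by
          rw [← Finset.mul_sum]
          refine mul_le_mul_of_nonneg_left (le_trans (le_of_eq ?_)
            (geom_sum_Ico_le_of_lt_one (m := K) (n := R + 1) hϱ0 hϱ1)) zero_le_two
          rw [Finset.sum_ite, Finset.sum_const_zero, zero_add]
          refine Finset.sum_congr ?_ fun _ _ => rfl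
          ext i; simp; tauto
  have h3 := tendsto_integral_BM (μ := PP V θ) (F := fun R z => tanh (Hn G θ (hS G ρ n t univ z) R v v) ^ 2)
    (f := fun z => mm G ρ θ n t v z ^ 2) (fun R => by fun_prop) 1 (fun R z => by
      rw [abs_of_nonneg (sq_nonneg _), sq_le_one_iff_abs_le_one]; exact abs_tanh_le_one _) (by
      filter_upwards [ae_good_hS (ρ := ρ) hc n t univ] with z hz
      exact ((continuous_tanh.tendsto _).comp (hz v v)).pow 2)
  have h4 := sq_sub_le (ρ := ρ) hc (P := PV n (rE s t E) univ) (P' := PS n t univ)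
    (fun τ j hj => ⟨cut_mono (rE_le hst E _) τ hj.1, trivial⟩) v
  exact h4.trans_le (sub_le_iff_le_add'.2 (le_of_tendsto' h3 h2))

end Crest.Agent.R160
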