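import Crest.Agent.R160.Lower

set_option autoImplicit false
set_option maxHeartbeats 400000

/-!
Tail estimate for the magnetisation at small times, and exponential moments of averaged products.
-/

namespace Crest.Agent.R160

open Real MeasureTheory Set Filter SimpleGraph Function Topology

variable {V : Type*} {G : SimpleGraph V} {ρ : V} {θ : ℝ}

lemma fld_PS_of_mem (n : ℕ) (r : ℝ) {A A' : Set V} (e : Dat V) {y : V} (h : y ∈ A ↔ y ∈ A') :
    (PS n r A).fld e y = (PS n r A').fld e y := by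
  refine Finset.sum_congr rfl fun i _ => ?_
  have : (y, i) ∈ (PS n r A).a e.1 ↔ (y, i) ∈ (PS n r A').a e.1 := and_congr_right' h
  rw [propext this]

lemma fld_PS_of_notMem (n : ℕ) (r : ℝ) {A : Set V} (e : Dat V) {y : V} (h : y ∉ A) :
    (PS n r A).fld e y = 0 := by
  simp [Pat.fld, PS, h]

lemma abs_tanh_fld_zero {s : ℝ} (hs : 0 ≤ s) (A : Set V) (e : Dat V) (x : V) :
    |tanh ((PS 0 s A).fld e x)| ≤ min (s ^ 31) (1 / 4) := by
  by_cases hx : x ∈ A
  · rw [fld_zero s A e hx]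
    split_ifs with h
    · rw [tanh_eta]
      refine le_min ?_ (abs_eps_cl _ _)
      rw [abs_mul, abs_of_nonneg (eps_nonneg _)]
      simpa using mul_le_mul (eps_le_pow hs h.le) (abs_cl_le (e.2 (x, 0))) (abs_nonneg _)
        (pow_nonneg hs _)
    · simp only [tanh_zero, abs_zero]; positivity
  · rw [fld_PS_of_notMem _ _ _ hx]; simp only [tanh_zero, abs_zero]; positivity

variable [DecidableEq V] [G.LocallyFinite] {d : ℕ} (hc : Ctx G θ d)
include hc

lemma jump_bound {h h' : V → ℝ} (hg : Good G θ h) (hg' : Good G θ h') {x : V} {η e : ℝ}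
    (hx : h' x = h x + η) (hne : ∀ y, y ≠ x → h' y = h y) (he : |tanh η| ≤ e) (he' : |tanh η| ≤ 1 / 4)
    (v : V) {k : ℕ} (hk : k ≤ G.dist v x) :
    (mag G θ h' v - mag G θ h v) ^ 2 ≤ 4 * e ^ 2 * ((θ ^ 2) ^ G.dist v x * Wp G θ h k v x) := by
  rw [mag_jump hc.adm hc.tree hg hg' hx hne v, mul_pow, mul_pow, ← exp_nat_mul, ← pow_mul,
    mul_comm _ 2, pow_mul, SimpleGraph.dist_comm (u := x), mul_comm]
  have h1 : |mag G θ h x * tanh η| ≤ 1 * (1 / 4) := by
    rw [abs_mul]; exact mul_le_mul (abs_mag_le h x) he' (abs_nonneg _) zero_le_one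
  have h2 : (tanh η / (1 + mag G θ h x * tanh η)) ^ 2 ≤ 4 * e ^ 2 := by
    have h3 : 1 / 2 ≤ 1 + mag G θ h x * tanh η := by linarith [(abs_le.1 h1).1]
    rw [div_pow, div_le_iff₀ (by positivity), ← sq_abs]
    have h4 : |tanh η| ^ 2 ≤ e ^ 2 := pow_le_pow_left₀ (abs_nonneg _) he 2
    have h5 : (1 / 2) ^ 2 ≤ (1 + mag G θ h x * tanh η) ^ 2 := pow_le_pow_left₀ (by norm_num) h3 2
    nlinarith [sq_nonneg e]
  have h3 := exp_two_LL_le hc.adm hc.tree h x v
  rw [SimpleGraph.dist_comm (u := x)] at h3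
  have h4 : Wp G θ h (G.dist v x) v x ≤ Wp G θ h k v x :=
    Wp_le_sub hc.adm h (i := 0) (by omega) v x
  have h5 := Wp_le_one (G := G) hc.adm h (G.dist v x) x v
  have h6 := Wp_pos (G := G) hc.adm h (G.dist v x) v x
  have h7 : exp (((2 : ℕ) : ℝ) * LL G θ h x v) ≤ Wp G θ h k v x := by
    push_cast; nlinarith
  gcongr

lemma bayes_le {P P' : Pat V} (h : ∀ τ, P.a τ ⊆ P'.a τ) (v : V) {F : Dat V → ℝ} (hF : BM F)
    (hA : P.Adapted univ F) :
    ∫ z, mag G θ (P'.fld (data G ρ z)) v * F (data G ρ z) ∂PP V θ =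
      ∫ z, mag G θ (P.fld (data G ρ z)) v * F (data G ρ z) ∂PP V θ :=
  (bayes hc.tree hc.adm hc.reg P' v hF fun τ u u' hu => hA τ u u' fun j hj hj' =>
    hu j (h τ hj) hj').symm.trans (bayes hc.tree hc.adm hc.reg P v hF hA)

lemma sq_sub_le {P P' : Pat V} (h : ∀ τ, P.a τ ⊆ P'.a τ) (v : V) :
    ∫ z, (mag G θ (P'.fld (data G ρ z)) v - mag G θ (P.fld (data G ρ z)) v) ^ 2 ∂PP V θ =
      ∫ z, mag G θ (P'.fld (data G ρ z)) v ^ 2 ∂PP V θ -
        ∫ z, mag G θ (P.fld (data G ρ z)) v ^ 2 ∂PP V θ :=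
  sq_le_of_orth ((BM_mag P' v).comp (measurable_data G ρ)) ((BM_mag P v).comp (measurable_data G ρ))
    (bayes_le hc h v (BM_mag P v) (adapted_fld P fun h => mag G θ h v))

lemma static_jump {s : ℝ} (hs : 0 ≤ s) {A : Set V} {x : V} (hx : x ∉ A) (v : V) {k : ℕ}
    (hk : k ≤ G.dist v x) : ∀ᵐ z ∂PP V θ,
      (mag G θ (hS G ρ 0 s (insert x A) z) v - mag G θ (hS G ρ 0 s A z) v) ^ 2 ≤
        4 * (s ^ 31) ^ 2 * ((θ ^ 2) ^ G.dist v x * Wp G θ (hS G ρ 0 s A z) k v x) := by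
  filter_upwards [ae_good_hS (ρ := ρ) hc 0 s A, ae_good_hS (ρ := ρ) hc 0 s (insert x A)] with z h1 h2
  have h3 := abs_tanh_fld_zero hs (insert x A) (data G ρ z) x
  refine jump_bound hc h1 h2 (η := hS G ρ 0 s (insert x A) z x) ?_ (fun y hy => ?_)
    (h3.trans (min_le_left _ _)) (h3.trans (min_le_right _ _)) v hk
  · rw [show hS G ρ 0 s A z x = 0 from fld_PS_of_notMem _ _ _ hx, zero_add]
  · exact fld_PS_of_mem _ _ _ (by simp [hy])

omit hc in
lemma BM_mag_hS (n : ℕ) (r : ℝ) (A : Set V) (v : V) : BM fun z => mag G θ (hS G ρ n r A z) v :=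
  (BM_mag (PS n r A) v).comp (measurable_data G ρ)

lemma azuma {s γ : ℝ} (hs : 0 ≤ s) (hγ : |γ| * (2 * s ^ 31) ≤ 1) (v : V) (S : Finset V) :
    ∫ z, exp (γ * mag G θ (hS G ρ 0 s S z) v) ∂PP V θ ≤
      exp (γ ^ 2 * (4 * (s ^ 31) ^ 2) * ∑ x ∈ S, (θ ^ 2) ^ G.dist v x) := by
  induction S using Finset.induction_on with
  | empty =>
    have : ∀ z, mag G θ (hS G ρ 0 s ∅ z) v = 0 := fun z => by
      have : ∀ k, Hn G θ (hS G ρ 0 s ∅ z) k v v = 0 := fun k =>
        Hn_zero_field k v v fun y _ => fld_PS_of_notMem _ _ _ (notMem_empty y)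
      simp only [mag, Hi, this, slim_of_tendsto tendsto_const_nhds, tanh_zero]
    simp [this]
  | insert x S hx ih =>
    have h1 := BM_mag_hS (G := G) (ρ := ρ) (θ := θ) 0 s S v
    have h2 := BM_mag_hS (G := G) (ρ := ρ) (θ := θ) 0 s (insert x S) v
    have h3 := bayes_le (ρ := ρ) hc (P := PS 0 s S) (P' := PS 0 s (insert x S))
      (fun τ j hj => ⟨hj.1, Or.inr hj.2⟩) v (((BM.const γ).mul (BM_mag (G := G) (θ := θ) (PS 0 s S) v)).exp)
      (adapted_fld _ fun h => exp (γ * mag G θ h v))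
    obtain ⟨a, ha⟩ : ∃ a, a = γ ^ 2 * (4 * (s ^ 31) ^ 2) * (θ ^ 2) ^ G.dist v x := ⟨_, rfl⟩
    rw [Finset.sum_insert hx, mul_add, exp_add, Finset.coe_insert, ← ha]
    have ha0 : 0 ≤ a := by rw [ha]; positivity
    calc _ ≤ ∫ z, ((1 + a) * exp (γ * mag G θ (hS G ρ 0 s S z) v) + γ *
          (mag G θ (hS G ρ 0 s (insert x S) z) v * exp (γ * mag G θ (hS G ρ 0 s S z) v) -
            mag G θ (hS G ρ 0 s S z) v * exp (γ * mag G θ (hS G ρ 0 s S z) v))) ∂PP V θ := by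
          refine integral_mono_BM (by bm) (by bm) ?_
          filter_upwards [static_jump (ρ := ρ) hc hs (A := S) (x := x) hx v (k := 0) (by omega)] with z hz
          simp only [Wp, Finset.range_zero, Finset.prod_empty, mul_one] at hz
          generalize mag G θ (hS G ρ 0 s (insert x S) z) v = m' at *
          generalize mag G θ (hS G ρ 0 s S z) v = m at *
          have h4 : (γ * (m' - m)) ^ 2 ≤ a := by
            rw [ha, mul_pow, mul_assoc]; gcongr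
          have h5 : |γ * (m' - m)| ≤ 1 := by
            have h6 : (θ ^ 2) ^ G.dist v x ≤ 1 :=
              pow_le_one₀ (sq_nonneg θ) (by linarith [hc.adm.sq_le])
            have h7 : (|γ| * (2 * s ^ 31)) ^ 2 ≤ 1 := pow_le_one₀ (by positivity) hγ
            rw [← sq_le_one_iff_abs_le_one]
            refine h4.trans ?_
            rw [mul_pow, sq_abs] at h7
            rw [ha]
            calc _ ≤ γ ^ 2 * (4 * (s ^ 31) ^ 2) * 1 := by gcongr
              _ ≤ 1 := by linarith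
          have h6 := (abs_le.1 (abs_exp_sub_one_sub_id_le h5)).2
          have e : exp (γ * m') = exp (γ * m) * exp (γ * (m' - m)) := by
            rw [← exp_add]; congr 1; ring
          rw [e]
          nlinarith [exp_pos (γ * m)]
      _ = (1 + a) * ∫ z, exp (γ * mag G θ (hS G ρ 0 s S z) v) ∂PP V θ := by
          rw [integral_add (BM.integrable (by bm)) (BM.integrable (by bm)), integral_const_mul,
            integral_const_mul, integral_sub (BM.integrable (by bm)) (BM.integrable (by bm))]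
          simp only [hS] at h3 ⊢
          rw [h3]; ring
      _ ≤ _ := mul_le_mul (by linarith [add_one_le_exp a]) ih
          (integral_nonneg fun _ => (exp_pos _).le) (exp_pos _).le

lemma layer {s : ℝ} (hs : 0 ≤ s) (v : V) (A : Set V) (k : ℕ) (B : V → ℝ) (E : Finset V)
    (hk : ∀ x ∈ E, k ≤ G.dist v x) (hB : ∀ x ∈ E, ∀ A', A ⊆ A' →
      (θ ^ 2) ^ G.dist v x * ∫ z, Wp G θ (hS G ρ 0 s A' z) k v x ∂PP V θ ≤ B x) :
    ∫ z, mag G θ (hS G ρ 0 s (A ∪ E) z) v ^ 2 ∂PP V θ ≤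
      ∫ z, mag G θ (hS G ρ 0 s A z) v ^ 2 ∂PP V θ + 4 * (s ^ 31) ^ 2 * ∑ x ∈ E, B x := by
  induction E using Finset.induction_on with
  | empty => simp
  | insert x E hx ih =>
    have ih := ih (fun y hy => hk y (Finset.mem_insert_of_mem hy))
      fun y hy => hB y (Finset.mem_insert_of_mem hy)
    have h1 := hB x (Finset.mem_insert_self _ _) (A ∪ E) subset_union_left
    have hW := (BM_Wp (G := G) hc.adm k v x).comp (measurable_hS (G := G) (ρ := ρ) 0 s (A ∪ E))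
    have h0 : 0 ≤ B x := le_trans (mul_nonneg (by positivity)
      (integral_nonneg fun w => (Wp_pos hc.adm _ _ _ _).le)) h1
    rw [Finset.sum_insert hx, Finset.coe_insert, union_insert, mul_add]
    by_cases hxA : x ∈ A ∪ E
    · rw [insert_eq_of_mem hxA]
      have : 0 ≤ 4 * (s ^ 31) ^ 2 * B x := by positivity
      linarith
    have h2 := sq_sub_le (ρ := ρ) hc (P := PS 0 s (A ∪ E)) (P' := PS 0 s (insert x (A ∪ E)))
      (fun τ j hj => ⟨hj.1, Or.inr hj.2⟩) v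
    have h3 := integral_mono_BM (μ := PP V θ) (by bm [BM_mag_hS]) (by bm)
      (static_jump (ρ := ρ) hc hs hxA v (hk x (Finset.mem_insert_self _ _)))
    rw [integral_const_mul, integral_const_mul] at h3
    have h4 := mul_le_mul_of_nonneg_left h1 (show 0 ≤ 4 * (s ^ 31) ^ 2 by positivity)
    simp only [hS] at *
    linarith

lemma mag_trunc (n : ℕ) (r : ℝ) (R : ℕ) {p z : V} (hp : p = z ∨ G.Adj z p) (w : Ix V → ℝ) :
    mag G θ (hS G ρ n r (Tk G R p z) w) z = tanh (Hn G θ (hS G ρ n r univ w) R p z) := by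
  rw [mag, Hi_trunc hc.tree (h := hS G ρ n r univ w) (h' := hS G ρ n r (Tk G R p z) w) R hp (fun y hy => fld_PS_of_mem _ _ _ (by simpa using hy))
    fun y hy => fld_PS_of_notMem _ _ _ (by simpa using hy)]

lemma sum_Sph_le (i : ℕ) (p z : V) {B : ℝ} (hB : 0 ≤ B) :
    ∑ _x ∈ Sph G i p z, B ≤ 2 * ((d - 1 : ℕ) : ℝ) ^ i * B := by
  rw [Finset.sum_const, nsmul_eq_mul]
  exact mul_le_mul_of_nonneg_right (card_Sph_le hc.reg hc.tree hc.three i p z) hB

lemma sum_Tk_le (m : ℕ) (p z : V) : ∑ x ∈ Tk G m p z, (θ ^ 2) ^ G.dist z x ≤ 2 * (m + 1) := by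
  rw [sum_Tk hc.tree]
  refine (Finset.sum_le_card_nsmul _ _ 2 fun i _ => ?_).trans (by simp [mul_comm])
  rw [Finset.sum_congr rfl fun x hx => by rw [Sph_dist hc.tree hx]]
  refine (sum_Sph_le hc i p z (by positivity)).trans ?_
  rw [mul_assoc, ← mul_pow]
  linarith [pow_le_one₀ (n := i) (show 0 ≤ ((d - 1 : ℕ) : ℝ) * θ ^ 2 by positivity) hc.crit]

omit [DecidableEq V] in
lemma dm1_pos : (2 : ℝ) ≤ ((d - 1 : ℕ) : ℝ) := by
  have := hc.three
  exact_mod_cast (by omega : 2 ≤ d - 1)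

lemma l2_close {s ϱ : ℝ} (hs : 0 ≤ s) (hϱ0 : 0 ≤ ϱ) (hϱ1 : ϱ < 1) {J : ℕ}
    (hJ : ∀ (A : Set V) (p z x : V) (k i : ℕ),
      k ≤ i → k ≤ G.dist z x → (k ≠ 0 → nxt G x z ≠ p) → (Tk G (k + 1 + J) p z : Set V) ⊆ A →
      (((d - 1 : ℕ) : ℝ) * θ ^ 2) ^ i * ∫ w, Wp G θ (hS G ρ 0 s A w) k z x ∂PP V θ ≤ ϱ ^ k)
    {p z : V} (hp : p = z ∨ G.Adj z p) (m : ℕ) :
    ∫ w, (tanh (Hi G θ (hS G ρ 0 s univ w) p z) -
      mag G θ (hS G ρ 0 s (Tk G (m + 1 + J) p z) w) z) ^ 2 ∂PP V θ ≤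
      8 * (s ^ 31) ^ 2 * (ϱ ^ m / (1 - ϱ)) := by
  have hb := dm1_pos hc
  have step : ∀ k, ∫ w, mag G θ (hS G ρ 0 s (Tk G (k + 1 + J + 1) p z) w) z ^ 2 ∂PP V θ ≤
      ∫ w, mag G θ (hS G ρ 0 s (Tk G (k + 1 + J) p z) w) z ^ 2 ∂PP V θ +
        8 * (s ^ 31) ^ 2 * ϱ ^ k := by
    intro k
    have e : (Tk G (k + 1 + J + 1) p z : Set V) =
        (Tk G (k + 1 + J) p z : Set V) ∪ (Sph G (k + 1 + J + 1) p z : Set V) := by
      rw [← Finset.coe_union, Tk, Finset.range_add_one, Finset.biUnion_insert, Finset.union_comm]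
      rfl
    rw [e]
    refine (layer hc hs z _ k (fun _ => ϱ ^ k / ((d - 1 : ℕ) : ℝ) ^ (k + 1 + J + 1)) _
      (fun x hx => by rw [Sph_dist hc.tree hx]; omega) fun x hx A' hA' => ?_).trans ?_
    · have := hJ A' p z x k (k + 1 + J + 1) (by omega) (by rw [Sph_dist hc.tree hx]; omega)
        (fun _ => (mem_ch.1 (Sph_succ_nxt hc.tree hx).1).1) hA'
      rw [Sph_dist hc.tree hx, le_div_iff₀ (by positivity)]
      rw [mul_pow] at this
      linarith
    · have := sum_Sph_le hc (k + 1 + J + 1) p z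
        (B := ϱ ^ k / ((d - 1 : ℕ) : ℝ) ^ (k + 1 + J + 1)) (by positivity)
      rw [mul_assoc, mul_div_cancel₀ _ (by positivity)] at this
      have h2 := mul_le_mul_of_nonneg_left this (show 0 ≤ 4 * (s ^ 31) ^ 2 by positivity)
      linarith
  have iter : ∀ l, ∫ w, mag G θ (hS G ρ 0 s (Tk G (m + l + 1 + J) p z) w) z ^ 2 ∂PP V θ ≤
      ∫ w, mag G θ (hS G ρ 0 s (Tk G (m + 1 + J) p z) w) z ^ 2 ∂PP V θ +
        8 * (s ^ 31) ^ 2 * ((ϱ ^ m - ϱ ^ (m + l)) / (1 - ϱ)) := by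
    intro l
    induction l with
    | zero => simp
    | succ l ih =>
      have := step (m + l)
      rw [show m + (l + 1) + 1 + J = m + l + 1 + J + 1 by ring]
      have e : (ϱ ^ m - ϱ ^ (m + (l + 1))) / (1 - ϱ) = (ϱ ^ m - ϱ ^ (m + l)) / (1 - ϱ) + ϱ ^ (m + l) := by
        have : 1 - ϱ ≠ 0 := by linarith
        field_simp; ring
      rw [e]; linarith
  have lim : Tendsto (fun l => ∫ w, (mag G θ (hS G ρ 0 s (Tk G (m + l + 1 + J) p z) w) z -
      mag G θ (hS G ρ 0 s (Tk G (m + 1 + J) p z) w) z) ^ 2 ∂PP V θ) atTop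
      (𝓝 (∫ w, (tanh (Hi G θ (hS G ρ 0 s univ w) p z) -
        mag G θ (hS G ρ 0 s (Tk G (m + 1 + J) p z) w) z) ^ 2 ∂PP V θ)) := by
    refine tendsto_integral_BM (fun l => by fun_prop) (2 ^ 2) (fun l w => ?_) ?_
    · rw [abs_pow]
      refine pow_le_pow_left₀ (abs_nonneg _) ((abs_sub _ _).trans ?_) 2
      linarith [abs_mag_le (G := G) (θ := θ) (hS G ρ 0 s (Tk G (m + l + 1 + J) p z) w) z,
        abs_mag_le (G := G) (θ := θ) (hS G ρ 0 s (Tk G (m + 1 + J) p z) w) z]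
    · filter_upwards [ae_good_hS (ρ := ρ) hc 0 s univ] with w hw
      refine (Tendsto.sub_const ?_ _).pow 2
      simp only [mag_trunc hc 0 s _ hp]
      refine (continuous_tanh.tendsto _).comp ((hw p z).comp ?_)
      exact tendsto_atTop_mono (fun l => by simp only [id]; omega) tendsto_id
  refine le_of_tendsto' lim fun l => ?_
  have h1 := sq_sub_le (ρ := ρ) hc (P := PS 0 s (Tk G (m + 1 + J) p z))
    (P' := PS 0 s (Tk G (m + l + 1 + J) p z))
    (fun τ j hj => ⟨hj.1, Tk_mono (by omega) p z hj.2⟩) z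
  have h2 := iter l
  have h3 : (ϱ ^ m - ϱ ^ (m + l)) / (1 - ϱ) ≤ ϱ ^ m / (1 - ϱ) := by
    have := pow_nonneg hϱ0 (m + l)
    gcongr <;> linarith
  have h4 := mul_le_mul_of_nonneg_left h3 (show 0 ≤ 8 * (s ^ 31) ^ 2 by positivity)
  simp only [hS] at *
  linarith

/-- tail estimate at small times -/
lemma tail : ∃ C c : ℝ, 1 ≤ C ∧ 0 < c ∧ ∀ s : ℝ, 0 < s → s ≤ 1 → ∀ p z : V, (p = z ∨ G.Adj z p) →
    ∫ w, (if s ^ 5 < |tanh (Hi G θ (hS G ρ 0 s univ w) p z)| then (1 : ℝ) else 0) ∂PP V θ ≤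
      C * exp (-(c / s ^ 10)) := by
  obtain ⟨c, hc0, hc1, H⟩ := decay (ρ := ρ) hc 0
  obtain ⟨C1, hC1⟩ : ∃ C1, C1 = 1 / c + 4 := ⟨_, rfl⟩
  have hC : 4 ≤ C1 := by rw [hC1]; linarith [one_div_pos.2 hc0]
  obtain ⟨c1, hc1d⟩ : ∃ c1, c1 = 1 / (32 * C1) := ⟨_, rfl⟩
  have hc10 : 0 < c1 := by rw [hc1d]; positivity
  have hc11 : c1 * (32 * C1) = 1 := by rw [hc1d]; field_simp
  refine ⟨2 + 32 / c, min c (c1 / 4), by linarith [div_pos (show (0 : ℝ) < 32 by norm_num) hc0],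
    by positivity, fun s hs0 hs1 p z hp => ?_⟩
  obtain ⟨J, hJ, H⟩ := H s hs0 hs1
  have hs32 : c * s ^ 32 ≤ 1 := mul_le_one₀ hc1 (by positivity) (pow_le_one₀ hs0.le hs1)
  have hpos : 0 < c * s ^ 32 := by positivity
  obtain ⟨m, hm⟩ : ∃ m, m = ⌈1 / s ^ 42⌉₊ := ⟨_, rfl⟩
  have hm1 : 1 / s ^ 42 ≤ m := hm ▸ Nat.le_ceil _
  have hm2 : (m : ℝ) ≤ 1 / s ^ 42 + 1 := hm ▸ (Nat.ceil_lt_add_one (by positivity)).le
  have h1 := l2_close (ρ := ρ) hc hs0.le (sub_nonneg.2 hs32) (by linarith) (H s fun _ => le_rfl) hp m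
  obtain ⟨γ, hγ⟩ : ∃ γ, γ = c1 / s ^ 15 := ⟨_, rfl⟩
  have hγ0 : 0 < γ := by rw [hγ]; positivity
  have hγ1 : γ * (2 * s ^ 31) ≤ 1 := by
    have : γ * (2 * s ^ 31) = 2 * c1 * s ^ 16 := by rw [hγ]; field_simp
    rw [this]
    have := pow_le_one₀ (n := 16) hs0.le hs1
    nlinarith
  have hexp : ∀ g : ℝ, |g| = γ → exp (-(γ * s ^ 5 / 2)) *
      ∫ w, exp (g * mag G θ (hS G ρ 0 s (Tk G (m + 1 + J) p z) w) z) ∂PP V θ ≤
      exp (-(min c (c1 / 4) / s ^ 10)) := by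
    intro g hg
    refine (mul_le_mul_of_nonneg_left (azuma hc hs0.le (hg ▸ hγ1) z _) (exp_pos _).le).trans ?_
    rw [← exp_add, exp_le_exp, ← sq_abs, hg]
    have h2 := sum_Tk_le hc (m + 1 + J) p z
    have h3 : (((m + 1 + J : ℕ) : ℝ) + 1) ≤ C1 / s ^ 42 := by
      have h4 : 1 ≤ 1 / s ^ 42 := one_le_one_div (by positivity) (pow_le_one₀ hs0.le hs1)
      have h5 : 1 / (c * s ^ 32) ≤ 1 / c * (1 / s ^ 42) := by
        rw [one_div_mul_one_div]
        exact one_div_le_one_div_of_le (by positivity) (mul_le_mul_of_nonneg_left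
          (pow_le_pow_of_le_one hs0.le hs1 (by norm_num)) hc0.le)
      rw [hC1, div_eq_mul_one_div _ (s ^ 42)]
      push_cast; linarith
    have h4 : γ ^ 2 * (4 * (s ^ 31) ^ 2) * ∑ x ∈ Tk G (m + 1 + J) p z, (θ ^ 2) ^ G.dist z x ≤
        γ ^ 2 * (4 * (s ^ 31) ^ 2) * (2 * (C1 / s ^ 42)) := by gcongr; linarith
    have h5 : γ ^ 2 * (4 * (s ^ 31) ^ 2) * (2 * (C1 / s ^ 42)) = c1 / 4 / s ^ 10 := by
      rw [hγ]; field_simp; linarith
    have h6 : γ * s ^ 5 / 2 = 2 * (c1 / 4 / s ^ 10) := by rw [hγ]; field_simp; ring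
    have h7 : min c (c1 / 4) / s ^ 10 ≤ c1 / 4 / s ^ 10 := by gcongr; exact min_le_right _ _
    linarith
  have h2 : 4 / s ^ 10 * (8 * (s ^ 31) ^ 2 * ((1 - c * s ^ 32) ^ m / (1 - (1 - c * s ^ 32)))) ≤
      32 / c * exp (-(min c (c1 / 4) / s ^ 10)) := by
    have e : 4 / s ^ 10 * (8 * (s ^ 31) ^ 2 * ((1 - c * s ^ 32) ^ m / (1 - (1 - c * s ^ 32)))) =
        32 / c * (s ^ 20 * (1 - c * s ^ 32) ^ m) := by
      rw [sub_sub_cancel]; field_simp; ring
    rw [e]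
    gcongr
    have h3 : (1 - c * s ^ 32) ^ m ≤ exp (-(c * s ^ 32)) ^ m :=
      pow_le_pow_left₀ (sub_nonneg.2 hs32) (by linarith [add_one_le_exp (-(c * s ^ 32))]) m
    have h4 : exp (-(c * s ^ 32)) ^ m ≤ exp (-(min c (c1 / 4) / s ^ 10)) := by
      rw [← exp_nat_mul, exp_le_exp]
      have h5 : min c (c1 / 4) / s ^ 10 ≤ c / s ^ 10 := by gcongr; exact min_le_left _ _
      have h6 : c / s ^ 10 = 1 / s ^ 42 * (c * s ^ 32) := by field_simp
      have h7 := mul_le_mul_of_nonneg_right hm1 hpos.le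
      linarith
    calc _ ≤ 1 * exp (-(min c (c1 / 4) / s ^ 10)) :=
          mul_le_mul (pow_le_one₀ hs0.le hs1) (h3.trans h4) (pow_nonneg (sub_nonneg.2 hs32) m)
            zero_le_one
      _ = _ := one_mul _
  have hb1 := BM_mag_hS (G := G) (ρ := ρ) (θ := θ) 0 s (Tk G (m + 1 + J) p z) z
  have hb2 : BM fun w => tanh (Hi G θ (hS G ρ 0 s univ w) p z) := BM_tanh.comp (by fun_prop)
  calc _ ≤ ∫ w, (exp (-(γ * s ^ 5 / 2)) * exp (γ * mag G θ (hS G ρ 0 s (Tk G (m + 1 + J) p z) w) z) +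
        exp (-(γ * s ^ 5 / 2)) * exp (-γ * mag G θ (hS G ρ 0 s (Tk G (m + 1 + J) p z) w) z) +
        4 / s ^ 10 * (tanh (Hi G θ (hS G ρ 0 s univ w) p z) -
          mag G θ (hS G ρ 0 s (Tk G (m + 1 + J) p z) w) z) ^ 2) ∂PP V θ := by
        refine integral_mono_BM (BM.ite (measurableSet_lt measurable_const hb2.1.abs) (BM.const _)
          (BM.const _)) (by bm) (ae_of_all _ fun w => ?_)
        generalize mag G θ (hS G ρ 0 s (Tk G (m + 1 + J) p z) w) z = a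
        generalize tanh (Hi G θ (hS G ρ 0 s univ w) p z) = b
        have p1 := exp_pos (-(γ * s ^ 5 / 2) + γ * a)
        have p2 := exp_pos (-(γ * s ^ 5 / 2) + -γ * a)
        have p3 : 0 ≤ 4 / s ^ 10 * (b - a) ^ 2 := by positivity
        rw [← exp_add, ← exp_add]
        split_ifs with h
        · by_cases h1 : s ^ 5 / 2 ≤ a
          · linarith [one_le_exp (x := -(γ * s ^ 5 / 2) + γ * a) (by nlinarith)]
          by_cases h2 : a ≤ -(s ^ 5 / 2)
          · linarith [one_le_exp (x := -(γ * s ^ 5 / 2) + -γ * a) (by nlinarith)]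
          have h3 : s ^ 5 / 2 ≤ |b - a| := by
            have := abs_sub_abs_le_abs_sub b a
            have : |a| ≤ s ^ 5 / 2 := abs_le.2 ⟨by linarith, by linarith⟩
            linarith
          have h4 := pow_le_pow_left₀ (by positivity) h3 2
          rw [sq_abs] at h4
          have h5 : 4 / s ^ 10 * (s ^ 5 / 2) ^ 2 = 1 := by field_simp; ring
          have h6 := mul_le_mul_of_nonneg_left h4 (show 0 ≤ 4 / s ^ 10 by positivity)
          linarith
        · linarith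
    _ ≤ _ := by
        rw [integral_add (BM.integrable (by bm)) (BM.integrable (by bm)),
          integral_add (BM.integrable (by bm)) (BM.integrable (by bm)), integral_const_mul,
          integral_const_mul, integral_const_mul]
        have := hexp γ (abs_of_pos hγ0)
        have := hexp (-γ) (by rw [abs_neg, abs_of_pos hγ0])
        have := mul_le_mul_of_nonneg_left h1 (show 0 ≤ 4 / s ^ 10 by positivity)
        linarith

end Crest.Agent.R160
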