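import Crest.Agent.R160.ExpMom
import Crest.Agent.R160.Homog

set_option autoImplicit false
set_option maxHeartbeats 400000

/-!
Correlation decay of even, centred, equivariant edge fields.
-/

namespace Crest.Agent.R160

open Real MeasureTheory Set Filter SimpleGraph Function Topology

variable {V : Type*} {G : SimpleGraph V} {ρ : V} {θ : ℝ}

lemma dist_branch (hT : G.IsTree) {z y y' : V} (h : nxt G y z ≠ nxt G y' z) :
    G.dist y y' = G.dist y z + G.dist z y' := by
  have key : ∀ i ≤ G.dist z y, G.dist (geo G z y i) y' = i + G.dist z y' ∧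
      (i < G.dist z y → nxt G y' (geo G z y i) ≠ geo G z y (i + 1)) := by
    intro i hi
    induction i with
    | zero => exact ⟨by simp [geo_zero], fun _ => h.symm⟩
    | succ i ih =>
      obtain ⟨h1, h2⟩ := ih (by omega)
      have hadj := adj_geo hT z y hi
      refine ⟨by rw [dist_of_ne_nxt hT hadj (h2 hi), h1]; ring, fun hi' h' => ?_⟩
      rw [nxt_back hT hadj (h2 hi)] at h'
      have h3 := dist_geo' hT z y (i := i) (by omega)
      rw [h', dist_geo' hT z y hi'] at h3
      omega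
  have := (key _ le_rfl).1
  rwa [geo_dist hT, SimpleGraph.dist_comm (u := z) (v := y)] at this

variable (G ρ θ) in
/-- symmetric equivariant edge fields -/
structure EField (ξ : V → V → (Ix V → ℝ) → ℝ) : Prop where
  bm : ∀ y y', BM (ξ y y')
  symm : ∀ y y', ξ y y' =ᵐ[PP V θ] ξ y' y
  equiv : ∀ (g : G ≃g G) y y', (fun z => ξ y y' (act ρ g z)) =ᵐ[PP V θ] ξ (g y) (g y')

variable (G θ) in
/-- correlation of the two extreme edges of a geodesic -/
noncomputable def kap (ξ : V → V → (Ix V → ℝ) → ℝ) (y y' : V) : ℝ :=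
  ∫ z, ξ y (nxt G y' y) z * ξ y' (nxt G y y') z ∂PP V θ

variable (G) in
/-- coordinates close to two vertices -/
def KR (R : ℕ) (y y' : V) : Set (Ix V) := fun k =>
  match k with
  | .root => False
  | .edge e => ∀ w ∈ e, G.dist y w ≤ R ∧ G.dist y' w ≤ R
  | .tim j => G.dist y j.1 ≤ R ∧ G.dist y' j.1 ≤ R
  | .noi j => G.dist y j.1 ≤ R ∧ G.dist y' j.1 ≤ R

open Classical in
/-- keep only the coordinates in `S` -/
noncomputable def keep (S : Set (Ix V)) (z : Ix V → ℝ) : Ix V → ℝ := fun k => if k ∈ S then z k else 0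

lemma measurable_keep (S : Set (Ix V)) : Measurable (keep S) := by
  refine measurable_pi_lambda _ fun k => ?_
  unfold keep
  split_ifs <;> fun_prop

lemma KR_symm (R : ℕ) (y y' : V) : KR G R y y' = KR G R y' y := by
  ext k
  rcases k with _ | e | j | j
  · rfl
  · exact forall₂_congr fun _ _ => and_comm
  · exact and_comm
  · exact and_comm

lemma KR_mono {R R' : ℕ} (h : R ≤ R') (y y' : V) : KR G R y y' ⊆ KR G R' y y' := by
  rintro (_ | e | j | j) hk
  · exact hk
  · exact fun w hw => ⟨(hk w hw).1.trans h, (hk w hw).2.trans h⟩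
  · exact ⟨hk.1.trans h, hk.2.trans h⟩
  · exact ⟨hk.1.trans h, hk.2.trans h⟩

lemma KR_iso (hT : G.IsTree) (g : G ≃g G) (R : ℕ) (y y' : V) (k : Ix V) :
    ixmap g k ∈ KR G R (g y) (g y') ↔ k ∈ KR G R y y' := by
  rcases k with _ | e | j | j
  · rfl
  · induction e using Sym2.ind with
    | _ a b =>
      change (∀ w ∈ s(g a, g b), _) ↔ ∀ w ∈ s(a, b), _
      simp [dist_iso hT]
  · change (_ ∧ _) ↔ (_ ∧ _)
    simp [dist_iso hT]
  · change (_ ∧ _) ↔ (_ ∧ _)
    simp [dist_iso hT]

lemma ixmap_symm (g : G ≃g G) (k : Ix V) : ixmap g (ixmap g.symm k) = k := by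
  rcases k with _ | e | j | j <;> simp [ixmap, Sym2.map_map]

lemma act_of_ne (g : G ≃g G) (z : Ix V → ℝ) {k : Ix V} (hk : k ≠ .root) :
    act ρ g z k = z (ixmap g k) := by
  rcases k with _ | e | j | j
  · exact absurd rfl hk
  · exact act_edge g z e
  · exact act_tim g z j
  · exact act_noi g z j

lemma ae_root : ∀ᵐ z ∂PP V θ, z .root = sg (z .root) := by
  have h1 : ∀ᵐ y ∂ber 0, y = sg y := by
    have hm : MeasurableSet {y : ℝ | y = sg y} := measurableSet_eq_fun measurable_id measurable_sg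
    unfold ber
    rw [ae_add_measure_iff]
    exact ⟨Measure.ae_smul_measure ((ae_dirac_iff hm).2 (by simp [sg])) _,
      Measure.ae_smul_measure ((ae_dirac_iff hm).2 (by simp [sg])) _⟩
  have h2 : (PP V θ).map (fun z => z .root) = ber 0 := Measure.infinitePi_map_eval _ _
  rw [← h2] at h1
  exact ae_of_ae_map (measurable_pi_apply _).aemeasurable h1

lemma tendsto_block {f : (Ix V → ℝ) → ℝ} (hf : BM f) (he : (fun z => f (flip z)) =ᵐ[PP V θ] f)
    (y y' : V) {a : ℕ → (Ix V → ℝ) → ℝ} (ha : ∀ R, IsProj (PP V θ) (keep (KR G R y y')) f (a R)) :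
    ∀ᵐ z ∂PP V θ, Tendsto (fun R => a R z) atTop (𝓝 (f z)) := by
  let ℱ : Filtration ℕ (inferInstance : MeasurableSpace (Ix V → ℝ)) :=
    { seq := fun R => MeasurableSpace.comap (keep (KR G R y y')) inferInstance
      mono' := fun m n hmn => by
        have : keep (KR G m y y') = keep (KR G m y y') ∘ keep (KR G n y y') := by
          funext z k
          by_cases hk : k ∈ KR G m y y'
          · simp [keep, hk, KR_mono hmn y y' hk]
          · simp [keep, hk]
        simp only
        rw [this, ← MeasurableSpace.comap_comp]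
        exact MeasurableSpace.comap_mono (measurable_keep _).comap_le
      le' := fun R => (measurable_keep _).comap_le }
  have hle : (⨆ R, ℱ R) ≤ (inferInstance : MeasurableSpace _) := iSup_le fun R => ℱ.le R
  have hW : ∀ c : ℝ, Measurable[⨆ R, ℱ R] fun z : Ix V → ℝ => update z .root c := by
    intro c
    refine @measurable_pi_lambda _ _ _ (⨆ R, ℱ R) _ _ fun k => ?_
    by_cases hk : k = .root
    · subst hk; simp only [update_self]; exact measurable_const
    · have : ∃ R, k ∈ KR G R y y' := by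
        rcases k with _ | e | j | j
        · exact absurd rfl hk
        · induction e using Sym2.ind with
          | _ a b =>
            refine ⟨G.dist y a + G.dist y b + G.dist y' a + G.dist y' b, fun w hw => ?_⟩
            rcases Sym2.mem_iff.1 hw with rfl | rfl <;> omega
        · exact ⟨G.dist y j.1 + G.dist y' j.1, by omega, by omega⟩
        · exact ⟨G.dist y j.1 + G.dist y' j.1, by omega, by omega⟩
      obtain ⟨R, hR⟩ := this
      have h1 : Measurable[⨆ R, ℱ R] (keep (KR G R y y')) :=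
        (comap_measurable _).mono (le_iSup (fun R => ℱ R) R) le_rfl
      have := (measurable_pi_apply k).comp h1
      convert this using 1
      funext z
      simp [keep, hk, hR]
  have h1 : f =ᵐ[PP V θ] fun z => (f (update z .root 1) + f (update z .root (-1))) / 2 := by
    filter_upwards [ae_root, he] with z h1 h2
    unfold flip at h2
    rcases sg_cases (z .root) with h | h
    · rw [h] at h1 h2
      rw [one_mul] at h2
      rw [h2, ← h1, update_eq_self]; ring
    · rw [h] at h1 h2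
      rw [neg_mul_neg, one_mul] at h2
      rw [h2, ← h1, update_eq_self]; ring
  have h2 : (PP V θ)[f | ⨆ R, ℱ R] =ᵐ[PP V θ] f := by
    refine (condExp_congr_ae h1).trans ?_
    have hm : Measurable[⨆ R, ℱ R] fun z => (f (update z .root 1) + f (update z .root (-1))) / 2 :=
      ((hf.1.comp (hW 1)).add (hf.1.comp (hW (-1)))).div_const 2
    rw [condExp_of_stronglyMeasurable hle hm.stronglyMeasurable (hf.integrable.congr h1)]
    exact h1.symm
  filter_upwards [tendsto_ae_condExp (μ := PP V θ) (ℱ := ℱ) f, h2,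
    ae_all_iff.2 fun R => (ha R).ae_eq_condExp (measurable_keep _) hf] with z h3 h4 h5
  rw [h4] at h3
  simpa only [h5] using h3

variable [DecidableEq V] [G.LocallyFinite] {d : ℕ} (hc : Ctx G θ d)
include hc

omit [DecidableEq V] in
lemma kap_eq {ξ : V → V → (Ix V → ℝ) → ℝ} (hξ : EField G ρ θ ξ) {a b a' b' : V}
    (h : G.dist a b = G.dist a' b') : kap G θ ξ a b = kap G θ ξ a' b' := by
  obtain ⟨g, rfl, rfl⟩ := exists_iso hc.tree hc.reg h
  unfold kap
  rw [nxt_iso hc.tree, nxt_iso hc.tree,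
    ← integral_comp_mp (mp_act (ρ := ρ) g) ((hξ.bm _ _).mul (hξ.bm _ _)).1]
  refine integral_congr_ae ?_
  filter_upwards [hξ.equiv g a (nxt G b a), hξ.equiv g b (nxt G a b)] with z h1 h2
  rw [h1, h2]

lemma sphere_sq {ξ : V → V → (Ix V → ℝ) → ℝ} (hξ : EField G ρ θ ξ) {a0 B : ℝ}
    (ha : ∀ y y', G.Adj y y' → ∫ z, ξ y y' z ^ 2 ∂PP V θ ≤ a0)
    (hB : ∀ j y y', G.dist y y' = j + 1 →
      |kap G θ ξ y y'| * √((d - 1 : ℕ) : ℝ) ^ j ≤ B * (j + 1)) (hB0 : 0 ≤ B)
    (j : ℕ) (p z : V) (hp : G.Adj p z) :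
    ∫ w, (∑ y ∈ Sph G j p z, ξ y (nxt G p y) w) ^ 2 ∂PP V θ ≤
      ((d - 1 : ℕ) : ℝ) ^ j * (a0 + √((d - 1 : ℕ) : ℝ) * B * (j * (j + 1))) := by
  have hT := hc.tree
  have hb := dm1_pos hc
  obtain ⟨s, hs⟩ : ∃ s, s = √((d - 1 : ℕ) : ℝ) := ⟨_, rfl⟩
  have hs2 : ((d - 1 : ℕ) : ℝ) = s ^ 2 := by rw [hs, sq_sqrt (by linarith)]
  have hs0 : 0 < s := by rw [hs]; exact sqrt_pos.2 (by linarith)
  rw [← hs] at hB ⊢
  induction j generalizing p z with
  | zero => simpa [Sph, nxt_adj hT hp.symm] using ha z p hp.symm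
  | succ j ih =>
    have e : ∀ w, ∑ y ∈ Sph G (j + 1) p z, ξ y (nxt G p y) w =
        ∑ c ∈ ch G p z, ∑ y ∈ Sph G j z c, ξ y (nxt G z y) w := by
      intro w
      rw [sum_Sph_succ hT]
      refine Finset.sum_congr rfl fun c hcc => Finset.sum_congr rfl fun y hy => ?_
      have h1 := Sph_spec hT (mem_ch.1 hcc).2 hy
      have h2 := Sph_spec hT hp (k := j + 1) (y := y) (Finset.mem_biUnion.2 ⟨c, hcc, hy⟩)
      rw [nxt_of_between hT (v := y) (y := z) (x := p)]
      · rw [SimpleGraph.dist_comm (u := y), SimpleGraph.dist_comm (u := y), h2.1, h2.2,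
          dist_eq_one_iff_adj.2 hp.symm]
      · rintro rfl; simp at h1
    have hF : ∀ c, BM fun w => ∑ y ∈ Sph G j z c, ξ y (nxt G z y) w := fun c => by bm [hξ.bm]
    simp only [e, sq, Finset.sum_mul_sum (ch G p z)]
    rw [integral_finsetSum _ fun c _ => (BM.sum _ fun c' _ => (hF c).mul (hF c')).integrable]
    refine (Finset.sum_le_card_nsmul _ _ (((d - 1 : ℕ) : ℝ) ^ j * (a0 + s * B * (j * (j + 1))) +
      ((d - 1 : ℕ) : ℝ) * (((d - 1 : ℕ) : ℝ) ^ j * (((d - 1 : ℕ) : ℝ) ^ j *
        (B * (2 * j + 2) / s ^ (2 * j + 1))))) fun c hcc => ?_).trans (le_of_eq ?_)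
    · rw [integral_finsetSum _ fun c' _ => ((hF c).mul (hF c')).integrable,
        ← Finset.add_sum_erase _ _ hcc]
      refine add_le_add (by simpa only [sq] using ih z c (mem_ch.1 hcc).2) ?_
      refine (Finset.sum_le_card_nsmul _ _ (((d - 1 : ℕ) : ℝ) ^ j * (((d - 1 : ℕ) : ℝ) ^ j *
        (B * (2 * j + 2) / s ^ (2 * j + 1)))) fun c' hc' => ?_).trans ?_
      · obtain ⟨hne, hc'⟩ := Finset.mem_erase.1 hc'
        have a1 := (mem_ch.1 hcc).2
        have a2 := (mem_ch.1 hc').2
        simp only [Finset.sum_mul_sum]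
        rw [integral_finsetSum _ fun y _ => (BM.sum _ fun y' _ =>
          (hξ.bm _ _).mul (hξ.bm _ _)).integrable]
        refine (Finset.sum_le_card_nsmul _ _ (((d - 1 : ℕ) : ℝ) ^ j *
          (B * (2 * j + 2) / s ^ (2 * j + 1))) fun y hy => ?_).trans
          (by rw [nsmul_eq_mul, card_Sph_adj hc.reg hT j a1])
        rw [integral_finsetSum _ fun y' _ => ((hξ.bm _ _).mul (hξ.bm _ _)).integrable]
        refine (Finset.sum_le_card_nsmul _ _ (B * (2 * j + 2) / s ^ (2 * j + 1))
          fun y' hy' => ?_).trans (by rw [nsmul_eq_mul, card_Sph_adj hc.reg hT j a2])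
        have h1 := (Sph_spec hT a1 hy).2
        have h2 := (Sph_spec hT a2 hy').2
        have h3 : nxt G y z ≠ nxt G y' z := by
          rw [nxt_of_mem_Sph hT a1 hy, nxt_of_mem_Sph hT a2 hy']; exact hne.symm
        have h4 := dist_branch hT h3
        have h5 := dist_branch hT h3.symm
        have h6 := hB (2 * j + 1) y y' (by rw [h4, SimpleGraph.dist_comm (u := y)]; omega)
        rw [kap, nxt_of_between hT h4.symm (by rintro rfl; simp at h1),
          nxt_of_between hT h5.symm (by rintro rfl; simp at h2)] at h6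
        rw [le_div_iff₀ (by positivity)]
        refine le_trans (mul_le_mul_of_nonneg_right (le_abs_self _) (by positivity))
          (h6.trans (le_of_eq ?_))
        push_cast; ring
      · rw [nsmul_eq_mul]
        refine mul_le_mul_of_nonneg_right ?_ (by positivity)
        exact_mod_cast Finset.card_erase_le.trans (card_ch_adj hc.reg hp).le
    · rw [card_ch_adj hc.reg hp, nsmul_eq_mul, hs2]
      push_cast
      field_simp
      ring

lemma bsv_fin {ξ : V → V → (Ix V → ℝ) → ℝ} (hξ : EField G ρ θ ξ) {a0 : ℝ} (ha0 : 0 ≤ a0)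
    (ha : ∀ y y', G.Adj y y' → ∫ z, ξ y y' z ^ 2 ∂PP V θ ≤ a0) {R : ℕ}
    (hR : ∀ y y', R < G.dist y y' → kap G θ ξ y y' = 0) (j : ℕ) (y y' : V)
    (h : G.dist y y' = j + 1) :
    |kap G θ ξ y y'| * √((d - 1 : ℕ) : ℝ) ^ j ≤ (√((d - 1 : ℕ) : ℝ) + 1) * a0 * (j + 1) := by
  have hT := hc.tree
  have hb := dm1_pos hc
  have hs2 := sq_sqrt (show 0 ≤ ((d - 1 : ℕ) : ℝ) by linarith)
  have hs1 : 1 ≤ √((d - 1 : ℕ) : ℝ) := one_le_sqrt.2 (by linarith)
  have cs : ∀ (j : ℕ) (y y' : V), G.dist y y' = j + 1 → ∀ T : ℝ,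
      ∫ w, (∑ x ∈ Sph G j y (nxt G y' y), ξ x (nxt G y x) w) ^ 2 ∂PP V θ ≤
        ((d - 1 : ℕ) : ℝ) ^ j * T → (|kap G θ ξ y y'| * √((d - 1 : ℕ) : ℝ) ^ j) ^ 2 ≤ a0 * T := by
    intro j y y' h T hT'
    have hy : y ≠ y' := by rintro rfl; simp at h
    have hadj := (nxt_spec hT hy).1
    have h1 := integral_mul_sq_le (μ := PP V θ) (hξ.bm y (nxt G y' y))
      (show BM fun w => ∑ x ∈ Sph G j y (nxt G y' y), ξ x (nxt G y x) w by bm [hξ.bm])
    simp only [Finset.mul_sum] at h1
    rw [integral_finsetSum _ fun x _ => ((hξ.bm _ _).mul (hξ.bm _ _)).integrable,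
      Finset.sum_congr rfl (g := fun _ => kap G θ ξ y y') fun x hx => by
        rw [← kap_eq hc hξ (a := y) (b := x) (by rw [h, (Sph_spec hT hadj hx).2]), kap,
          nxt_of_mem_Sph hT hadj hx],
      Finset.sum_const, nsmul_eq_mul, card_Sph_adj hc.reg hT j hadj] at h1
    have h2 := h1.trans (mul_le_mul (ha _ _ hadj) hT' (integral_nonneg fun _ => sq_nonneg _) ha0)
    rw [mul_pow, sq_abs, ← pow_mul, mul_comm j, pow_mul, hs2]
    have h3 : 0 < ((d - 1 : ℕ) : ℝ) ^ j := by positivity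
    nlinarith
  let S : Set ℝ := {t | ∃ (j : ℕ) (y y' : V), G.dist y y' = j + 1 ∧
    t = |kap G θ ξ y y'| * √((d - 1 : ℕ) : ℝ) ^ j / (j + 1)}
  have hbdd : BddAbove S := by
    refine ⟨a0 * √((d - 1 : ℕ) : ℝ) ^ R, ?_⟩
    rintro _ ⟨j, y, y', h, rfl⟩
    by_cases hj : R < j + 1
    · rw [hR y y' (h ▸ hj)]; simp only [abs_zero, zero_mul, zero_div]; positivity
    have hy : y ≠ y' := by rintro rfl; simp at h
    have h1 := (integral_mul_sq_le (μ := PP V θ) (hξ.bm y (nxt G y' y)) (hξ.bm y' (nxt G y y'))).trans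
      (mul_le_mul (ha _ _ (nxt_spec hT hy).1) (ha _ _ (nxt_spec hT hy.symm).1)
        (integral_nonneg fun _ => sq_nonneg _) ha0)
    have h2 : |kap G θ ξ y y'| ≤ a0 := abs_le_of_sq_le_sq' (by rw [sq a0]; exact h1) ha0 |> abs_le.2
    refine (div_le_self (by positivity) (by linarith [Nat.cast_nonneg (α := ℝ) j])).trans ?_
    exact mul_le_mul h2 (pow_le_pow_right₀ hs1 (by omega)) (by positivity) ha0
  have hB : ∀ j y y', G.dist y y' = j + 1 →
      |kap G θ ξ y y'| * √((d - 1 : ℕ) : ℝ) ^ j ≤ sSup S * (j + 1) := fun j y y' h => by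
    rw [← div_le_iff₀ (by positivity)]
    exact le_csSup hbdd ⟨j, y, y', h, rfl⟩
  have hB0 : 0 ≤ sSup S := le_trans (by positivity) (le_csSup hbdd ⟨j, y, y', h, rfl⟩)
  have h1 : sSup S ≤ √(a0 * (a0 + √((d - 1 : ℕ) : ℝ) * sSup S)) := by
    refine csSup_le ⟨_, j, y, y', h, rfl⟩ ?_
    rintro _ ⟨j, y, y', h, rfl⟩
    have hy : y ≠ y' := by rintro rfl; simp at h
    have h2 := cs j y y' h _ (sphere_sq hc hξ ha hB hB0 j y _ (nxt_spec hT hy).1)
    refine le_sqrt_of_sq_le ?_
    rw [div_pow, div_le_iff₀ (by positivity)]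
    refine h2.trans ?_
    rw [mul_assoc a0]
    refine mul_le_mul_of_nonneg_left ?_ ha0
    have h3 : (0 : ℝ) ≤ j := Nat.cast_nonneg j
    have h4 : 0 ≤ √((d - 1 : ℕ) : ℝ) * sSup S := by positivity
    nlinarith [mul_nonneg ha0 h3, mul_nonneg ha0 (mul_nonneg h3 h3), mul_nonneg h4 h3]
  have h2 : sSup S ≤ (√((d - 1 : ℕ) : ℝ) + 1) * a0 := by
    have h3 := pow_le_pow_left₀ hB0 h1 2
    rw [sq_sqrt (by positivity)] at h3
    by_contra h4
    have h5 := not_le.1 h4
    have h6 : 0 ≤ √((d - 1 : ℕ) : ℝ) * a0 := by positivity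
    nlinarith
  exact (hB j y y' h).trans (by gcongr)

lemma bsv {ξ : V → V → (Ix V → ℝ) → ℝ} (hξ : EField G ρ θ ξ)
    (he : ∀ y y', (fun z => ξ y y' (flip z)) =ᵐ[PP V θ] ξ y y')
    (hm : ∀ y y', ∫ z, ξ y y' z ∂PP V θ = 0) {a0 : ℝ} (ha0 : 0 ≤ a0)
    (ha : ∀ y y', G.Adj y y' → ∫ z, ξ y y' z ^ 2 ∂PP V θ ≤ a0) (j : ℕ) (y y' : V)
    (h : G.dist y y' = j + 1) :
    |kap G θ ξ y y'| * √((d - 1 : ℕ) : ℝ) ^ j ≤ (√((d - 1 : ℕ) : ℝ) + 1) * a0 * (j + 1) := by
  have hT := hc.tree
  choose K hK0 hK using fun y y' => (hξ.bm y y').bdd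
  choose a ha1 ha2 using fun R y y' =>
    exists_isProj (μ := PP V θ) (measurable_keep (KR G R y y')) (hξ.bm y y') (hK y y')
  have hab : ∀ R y y', BM (a R y y') := fun R y y' => (ha1 R y y').bm (measurable_keep _)
  have hE : ∀ R, EField G ρ θ (a R) := fun R =>
    { bm := hab R
      symm := fun y y' => (ha1 R y y').unique (KR_symm R y y' ▸ ha1 R y' y) (measurable_keep _)
        (hξ.bm _ _) (hξ.bm _ _) (hξ.symm y y')
      equiv := fun g y y' => by
        refine IsProj.unique ?_ (ha1 R (g y) (g y')) (measurable_keep _)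
          ((hξ.bm _ _).comp (mp_act (θ := θ) g).measurable) (hξ.bm _ _) (hξ.equiv g y y')
        refine (ha1 R y y').comp (measurable_keep _) (hξ.bm _ _) (mp_act g)
          (ψ := fun e k => e (ixmap g k)) (ψ' := fun e k => e (ixmap g.symm k)) (by fun_prop)
          (by fun_prop) (fun z => funext fun k => ?_) fun z => funext fun k => ?_
        · by_cases hk : k ∈ KR G R y y'
          · simp only [keep, hk, (KR_iso hT g R y y' k).2 hk, if_true]
            exact act_of_ne g z (by rintro rfl; exact hk)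
          · simp only [keep, hk, (KR_iso hT g R y y' k).not.2 hk, if_false]
        · have h1 := KR_iso hT g R y y' (ixmap g.symm k)
          rw [ixmap_symm] at h1
          by_cases hk : k ∈ KR G R (g y) (g y')
          · simp only [keep, hk, h1.1 hk, if_true]
            rw [act_of_ne g z (by intro h2; have := h1.1 hk; rw [h2] at this; exact this), ixmap_symm]
          · simp only [keep, hk, h1.not.1 hk, if_false] }
  have h1 : ∀ R, |kap G θ (a R) y y'| * √((d - 1 : ℕ) : ℝ) ^ j ≤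
      (√((d - 1 : ℕ) : ℝ) + 1) * a0 * (j + 1) := by
    intro R
    refine bsv_fin hc (hE R) ha0 (fun y y' hy => le_trans ?_ (ha y y' hy)) (R := 2 * R)
      (fun y y' hy => ?_) j y y' h
    · obtain ⟨A, hA, e⟩ := (ha1 R y y').fac
      have h2 := (ha1 R y y').mul_eq (measurable_keep _) (hξ.bm _ _) hA
      have h3 := sq_le_of_orth (μ := PP V θ) (hξ.bm y y') (hab R y y') (by
        simpa only [e, mul_comm] using h2)
      have h4 : 0 ≤ ∫ z, (ξ y y' z - a R y y' z) ^ 2 ∂PP V θ := integral_nonneg fun _ => sq_nonneg _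
      linarith
    · have hd : ∀ y y', DependsOn (a R y y') (KR G R y y') := fun y y' z z' h => by
        obtain ⟨A, -, e⟩ := (ha1 R y y').fac
        simp only [e]
        congr 1
        funext k
        by_cases hk : k ∈ KR G R y y' <;> simp [keep, hk, h]
      unfold kap PP
      rw [integral_mul_indep _ (hab _ _ _) (hab _ _ _) (hd _ _) (hd _ _), ← PP,
        (ha1 R _ _).integral_eq (measurable_keep _) (hξ.bm _ _), hm, zero_mul]
      have key : ∀ w, G.dist y w ≤ R → G.dist y' w ≤ R → False := fun w h1 h2 => by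
        have := hT.connected.dist_triangle (u := y) (v := w) (w := y')
        rw [SimpleGraph.dist_comm (u := w)] at this
        omega
      rw [Set.disjoint_left]
      rintro (_ | e | i | i) h1 h2
      · exact h1
      · induction e using Sym2.ind with
        | _ a b => exact key a (h1 a (by simp)).1 (h2 a (by simp)).1
      · exact key _ h1.1 h2.1
      · exact key _ h1.1 h2.1
  refine le_of_tendsto' (((tendsto_integral_BM (fun R => ((hab R _ _).mul (hab R _ _)).1)
    (K y (nxt G y' y) * K y' (nxt G y y')) (fun R z => ?_) ?_).abs).mul_const _) h1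
  · rw [abs_mul]; exact mul_le_mul (ha2 _ _ _ _) (ha2 _ _ _ _) (abs_nonneg _) (hK0 _ _)
  · filter_upwards [tendsto_block (hξ.bm _ _) (he _ _) _ _ fun R => ha1 R y (nxt G y' y),
      tendsto_block (hξ.bm _ _) (he _ _) _ _ fun R => ha1 R y' (nxt G y y')] with z h2 h3
    exact h2.mul h3

/-- linear growth of the variance of sums along geodesics -/
lemma path_var : ∃ C : ℝ, 0 ≤ C ∧ ∀ ξ : V → V → (Ix V → ℝ) → ℝ, EField G ρ θ ξ →
    (∀ y y', (fun z => ξ y y' (flip z)) =ᵐ[PP V θ] ξ y y') →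
    (∀ y y', ∫ z, ξ y y' z ∂PP V θ = 0) → ∀ a0 : ℝ, 0 ≤ a0 →
    (∀ y y', G.Adj y y' → ∫ z, ξ y y' z ^ 2 ∂PP V θ ≤ a0) → ∀ (x v : V) (k : ℕ), k ≤ G.dist x v →
    ∫ z, (∑ i ∈ Finset.range k, ξ (geo G x v i) (geo G x v (i + 1)) z) ^ 2 ∂PP V θ ≤ C * k * a0 := by
  have hT := hc.tree
  have hb := dm1_pos hc
  obtain ⟨s, hs⟩ : ∃ s, s = √((d - 1 : ℕ) : ℝ) := ⟨_, rfl⟩
  have hs1 : 1 < s := by rw [hs]; exact lt_sqrt_of_sq_lt (by linarith)
  have hsum : Summable fun j : ℕ => ((j : ℝ) + 1) * (1 / s) ^ j := by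
    have h1 : ‖1 / s‖ < 1 := by
      rw [Real.norm_eq_abs, abs_of_pos (by positivity), div_lt_one (by linarith)]; exact hs1
    simpa [add_mul] using (summable_pow_mul_geometric_of_norm_lt_one 1 h1).add
      (summable_geometric_of_norm_lt_one h1)
  refine ⟨2 * ((s + 1) * ∑' j : ℕ, ((j : ℝ) + 1) * (1 / s) ^ j), by positivity,
    fun ξ hξ he hm a0 ha0 ha x v k hk => ?_⟩
  induction k with
  | zero => simp
  | succ k ih =>
    have hb1 : BM fun z => ∑ i ∈ Finset.range k, ξ (geo G x v i) (geo G x v (i + 1)) z := by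
      bm [hξ.bm]
    have hb2 := hξ.bm (geo G x v k) (geo G x v (k + 1))
    have h1 : ∀ i ∈ Finset.range (k + 1), ∫ z, ξ (geo G x v i) (geo G x v (i + 1)) z *
        ξ (geo G x v k) (geo G x v (k + 1)) z ∂PP V θ ≤
        (s + 1) * a0 * ((((k - i : ℕ) : ℝ) + 1) * (1 / s) ^ (k - i)) := by
      intro i hi
      have hi := Finset.mem_range.1 hi
      have d1 := dist_geo hT x v (i := i) (by omega)
      have d2 := dist_geo' hT (geo G x v i) v (i := k - i + 1) (by omega)
      rw [geo_geo, show i + (k - i + 1) = k + 1 by omega] at d2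
      have h2 := bsv hc hξ he hm ha0 ha (k - i) (geo G x v i) (geo G x v (k + 1))
        (by rw [SimpleGraph.dist_comm, d2])
      have e1 : nxt G (geo G x v (k + 1)) (geo G x v i) = geo G x v (i + 1) := by
        have := geo_sub hT (geo G x v i) v (j := k - i + 1) (by omega) (i := 1) (by omega)
        rwa [geo_geo, geo_geo, show i + (k - i + 1) = k + 1 by omega] at this
      have e2 : nxt G (geo G x v i) (geo G x v (k + 1)) = geo G x v k := by
        have := nxt_geo_back hT (geo G x v i) v (i := k - i) (by omega)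
        rwa [geo_geo, geo_geo, show i + (k - i + 1) = k + 1 by omega,
          show i + (k - i) = k by omega] at this
      rw [kap, e1, e2, ← hs, ← le_div_iff₀ (by positivity)] at h2
      refine le_trans (le_of_eq (integral_congr_ae ?_)) ((le_abs_self _).trans (h2.trans_eq ?_))
      · filter_upwards [hξ.symm (geo G x v k) (geo G x v (k + 1))] with z hz
        rw [hz]
      · rw [one_div, inv_pow]; ring
    have h2 := Finset.sum_le_sum h1
    rw [← Finset.mul_sum] at h2
    have h3 : ∑ i ∈ Finset.range (k + 1), (((k - i : ℕ) : ℝ) + 1) * (1 / s) ^ (k - i) ≤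
        ∑' j : ℕ, ((j : ℝ) + 1) * (1 / s) ^ j := by
      have := Finset.sum_range_reflect (fun j : ℕ => ((j : ℝ) + 1) * (1 / s) ^ j) (k + 1)
      simp only [Nat.add_sub_cancel] at this
      rw [this]
      exact hsum.sum_le_tsum _ fun j _ => by positivity
    have h4 := h2.trans (mul_le_mul_of_nonneg_left h3 (by positivity))
    rw [← integral_finsetSum _ fun i _ => ((hξ.bm _ _).mul hb2).integrable] at h4
    simp only [← Finset.sum_mul, Finset.sum_range_succ] at h4 ⊢
    calc _ ≤ ∫ z, ((∑ i ∈ Finset.range k, ξ (geo G x v i) (geo G x v (i + 1)) z) ^ 2 +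
          2 * ((∑ i ∈ Finset.range k, ξ (geo G x v i) (geo G x v (i + 1)) z +
            ξ (geo G x v k) (geo G x v (k + 1)) z) * ξ (geo G x v k) (geo G x v (k + 1)) z))
            ∂PP V θ := by
          refine integral_mono_BM (by bm) (by bm) (ae_of_all _ fun z => ?_)
          nlinarith [sq_nonneg (ξ (geo G x v k) (geo G x v (k + 1)) z)]
      _ ≤ _ := by
          rw [integral_add (BM.integrable (by bm)) (BM.integrable (by bm)), integral_const_mul]
          have := ih (by omega)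
          push_cast
          linarith

end Crest.Agent.R160
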