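import Mathlib

set_option autoImplicit false

/-!
Combinatorics of trees: next vertex towards a target, geodesics, spheres of half-trees,
two-point homogeneity of regular trees.
-/

namespace Crest.Agent.R160

open SimpleGraph

variable {V : Type*} (G : SimpleGraph V)

open Classical in
/-- the neighbour of `v` on the way to `x`. -/
noncomputable def nxt (x v : V) : V :=
  if h : ∃ w, G.Adj v w ∧ G.dist w x + 1 = G.dist v x then h.choose else v

/-- the geodesic from `v` to `x`. -/
noncomputable def geo (v x : V) (i : ℕ) : V := (nxt G x)^[i] v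

variable {G}

lemma nxt_self (x : V) : nxt G x x = x := by
  unfold nxt; rw [dif_neg]; simp

lemma geo_zero (v x : V) : geo G v x 0 = v := rfl

lemma geo_succ (v x : V) (i : ℕ) : geo G v x (i + 1) = nxt G x (geo G v x i) :=
  Function.iterate_succ_apply' _ _ _

lemma geo_succ' (v x : V) (i : ℕ) : geo G v x (i + 1) = geo G (nxt G x v) x i :=
  Function.iterate_succ_apply _ _ _

lemma geo_geo (v x : V) (i l : ℕ) : geo G (geo G v x i) x l = geo G v x (i + l) := by
  unfold geo; rw [add_comm, Function.iterate_add_apply]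

section Tree

variable (hT : G.IsTree)
include hT

lemma nxt_spec {x v : V} (h : v ≠ x) :
    G.Adj v (nxt G x v) ∧ G.dist (nxt G x v) x + 1 = G.dist v x := by
  have : ∃ w, G.Adj v w ∧ G.dist w x + 1 = G.dist v x := by
    obtain ⟨p, hp⟩ := hT.connected.exists_walk_length_eq_dist v x
    cases p with
    | nil => exact absurd rfl h
    | cons hadj q =>
      rename_i w
      refine ⟨w, hadj, ?_⟩
      have h1 := dist_le q
      have h2 := hT.connected.dist_triangle (u := v) (v := w) (w := x)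
      rw [dist_eq_one_iff_adj.2 hadj] at h2
      simp only [Walk.length_cons] at hp
      omega
  unfold nxt
  rw [dif_pos this]
  exact this.choose_spec

lemma closer_unique {x v w w' : V} (h : G.Adj v w) (hd : G.dist w x + 1 = G.dist v x)
    (h' : G.Adj v w') (hd' : G.dist w' x + 1 = G.dist v x) : w = w' := by
  obtain ⟨p, hp⟩ := hT.connected.exists_walk_length_eq_dist w x
  obtain ⟨p', hp'⟩ := hT.connected.exists_walk_length_eq_dist w' x
  have h1 : (Walk.cons h p).IsPath := Walk.isPath_of_length_eq_dist _ (by simp; omega)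
  have h2 : (Walk.cons h' p').IsPath := Walk.isPath_of_length_eq_dist _ (by simp; omega)
  have := (hT.isAcyclic.subsingleton_path v x).elim ⟨_, h1⟩ ⟨_, h2⟩
  have h3 : Walk.cons h p = Walk.cons h' p' := congrArg Subtype.val this
  have h4 := congrArg (fun q : G.Walk v x => q.getVert 1) h3
  simpa using h4

lemma nxt_eq {x v w : V} (h : G.Adj v w) (hd : G.dist w x + 1 = G.dist v x) : nxt G x v = w := by
  have hv : v ≠ x := by rintro rfl; simp at hd
  exact closer_unique hT (nxt_spec hT hv).1 (nxt_spec hT hv).2 h hd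

lemma dist_of_ne_nxt {x v w : V} (h : G.Adj v w) (hne : nxt G x v ≠ w) :
    G.dist w x = G.dist v x + 1 := by
  have := hT.dist_eq_dist_add_one_of_adj x h
  rw [dist_comm (u := x), dist_comm (u := x)] at this
  rcases this with h1 | h1
  · exact absurd (nxt_eq hT h h1.symm) hne
  · exact h1

lemma nxt_back {x v w : V} (h : G.Adj v w) (hne : nxt G x v ≠ w) : nxt G x w = v :=
  nxt_eq hT h.symm (dist_of_ne_nxt hT h hne).symm

lemma nxt_adj {v w : V} (h : G.Adj v w) : nxt G w v = w :=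
  nxt_eq hT h (by simp [dist_eq_one_iff_adj.2 h])

lemma dist_eq_zero' {v x : V} : G.dist v x = 0 ↔ v = x := hT.connected.dist_eq_zero_iff

lemma dist_geo (v x : V) {i : ℕ} (hi : i ≤ G.dist v x) : G.dist (geo G v x i) x + i = G.dist v x := by
  induction i with
  | zero => rfl
  | succ i ih =>
    have h1 := ih (by omega)
    have h2 : geo G v x i ≠ x := by
      intro h; rw [h] at h1; simp at h1; omega
    have := (nxt_spec hT h2).2
    rw [geo_succ]; omega

lemma geo_ne (v x : V) {i : ℕ} (hi : i < G.dist v x) : geo G v x i ≠ x := by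
  intro h
  have h1 := dist_geo hT v x hi.le
  rw [h] at h1; simp at h1; omega

lemma adj_geo (v x : V) {i : ℕ} (hi : i < G.dist v x) :
    G.Adj (geo G v x i) (geo G v x (i + 1)) := by
  rw [geo_succ]; exact (nxt_spec hT (geo_ne hT v x hi)).1

lemma geo_dist (v x : V) : geo G v x (G.dist v x) = x := by
  have := dist_geo hT v x le_rfl
  exact (dist_eq_zero' hT).1 (by omega)

lemma dist_geo' (v x : V) {i : ℕ} (hi : i ≤ G.dist v x) : G.dist (geo G v x i) v = i := by
  apply le_antisymm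
  · induction i with
    | zero => simp [geo_zero]
    | succ i ih =>
      have h1 := ih (by omega)
      have h2 := hT.connected.dist_triangle (u := geo G v x (i + 1)) (v := geo G v x i) (w := v)
      rw [dist_eq_one_iff_adj.2 (adj_geo hT v x hi).symm] at h2
      omega
  · have h1 := dist_geo hT v x hi
    have h2 := hT.connected.dist_triangle (u := v) (v := geo G v x i) (w := x)
    rw [dist_comm (u := v) (v := geo G v x i)] at h2
    omega

lemma nxt_geo_back (v x : V) {i : ℕ} (hi : i < G.dist v x) :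
    nxt G v (geo G v x (i + 1)) = geo G v x i :=
  nxt_eq hT (adj_geo hT v x hi).symm (by rw [dist_geo' hT v x hi.le, dist_geo' hT v x hi])

lemma geo_back (v x : V) {j : ℕ} (hj : j ≤ G.dist v x) {i : ℕ} (hi : i ≤ j) :
    geo G (geo G v x j) v i = geo G v x (j - i) := by
  induction i with
  | zero => rfl
  | succ i ih =>
    rw [geo_succ, ih (by omega), show j - i = (j - (i + 1)) + 1 by omega,
      nxt_geo_back hT v x (by omega)]

lemma geo_rev (v x : V) {i : ℕ} (hi : i ≤ G.dist v x) :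
    geo G x v i = geo G v x (G.dist v x - i) := by
  have := geo_back hT v x le_rfl hi
  rwa [geo_dist hT] at this

lemma nxt_of_between {v y x : V} (h : G.dist v y + G.dist y x = G.dist v x) (hy : v ≠ y) :
    nxt G x v = nxt G y v := by
  have h1 := nxt_spec hT hy
  have h2 := hT.connected.dist_triangle (u := nxt G y v) (v := y) (w := x)
  by_contra hne
  have := dist_of_ne_nxt hT h1.1 hne
  omega

lemma geo_sub (v x : V) {j : ℕ} (hj : j ≤ G.dist v x) {i : ℕ} (hi : i ≤ j) :
    geo G v (geo G v x j) i = geo G v x i := by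
  induction i with
  | zero => rfl
  | succ i ih =>
    rw [geo_succ, ih (by omega), geo_succ]
    have h1 := dist_geo hT v x hj
    have h2 := dist_geo hT v x (i := i) (by omega)
    have h3 := dist_geo' hT (geo G v x i) x (i := j - i) (by omega)
    rw [geo_geo, show i + (j - i) = j by omega, dist_comm] at h3
    refine (nxt_of_between hT (by omega) ?_).symm
    intro h
    rw [← h] at h3; simp at h3; omega

lemma dist_iso (g : G ≃g G) (a b : V) : G.dist (g a) (g b) = G.dist a b := by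
  have key : ∀ (g : G ≃g G) (a b : V), G.dist (g a) (g b) ≤ G.dist a b := by
    intro g a b
    obtain ⟨p, hp⟩ := hT.connected.exists_walk_length_eq_dist a b
    have := dist_le (p.map g.toHom)
    rwa [Walk.length_map, hp] at this
  refine le_antisymm (key g a b) ?_
  simpa using key g.symm (g a) (g b)

lemma nxt_iso (g : G ≃g G) (x v : V) : nxt G (g x) (g v) = g (nxt G x v) := by
  by_cases h : v = x
  · subst h; simp [nxt_self]
  · have := nxt_spec hT h
    exact nxt_eq hT (g.map_adj_iff.2 this.1) (by rw [dist_iso hT, dist_iso hT]; exact this.2)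

lemma geo_iso (g : G ≃g G) (v x : V) (i : ℕ) : geo G (g v) (g x) i = g (geo G v x i) := by
  induction i with
  | zero => rfl
  | succ i ih => rw [geo_succ, geo_succ, ih, nxt_iso hT]

/-- induction on the distance to a root -/
lemma dist_induction (o : V) {P : V → Prop} (h0 : P o) (hs : ∀ v, v ≠ o → P (nxt G o v) → P v)
    (v : V) : P v := by
  induction hn : G.dist v o generalizing v with
  | zero => rwa [(dist_eq_zero' hT).1 hn]
  | succ n ih =>
    have hv : v ≠ o := by rintro rfl; simp at hn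
    exact hs v hv (ih _ (by have := (nxt_spec hT hv).2; omega))

end Tree

/-! ### half trees -/

variable (G)

/-- the half tree behind the dart `p → z`. -/
def Hs (p z : V) : Set V := {y | p ≠ y ∧ nxt G y p = z}

variable [DecidableEq V] [G.LocallyFinite]

/-- children of `z` when coming from `p`. -/
def ch (p z : V) : Finset V := (G.neighborFinset z).erase p

/-- descendants at depth `k`. -/
def Sph : ℕ → V → V → Finset V
  | 0, _, z => {z}
  | k + 1, p, z => (ch G p z).biUnion fun c => Sph k z c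

/-- descendants at depth at most `k`. -/
def Tk (k : ℕ) (p z : V) : Finset V := (Finset.range (k + 1)).biUnion fun i => Sph G i p z

/-- all descendants -/
def Tinf (p z : V) : Set V := {y | ∃ k, y ∈ Sph G k p z}

variable {G}

lemma mem_ch {p z c : V} : c ∈ ch G p z ↔ c ≠ p ∧ G.Adj z c := by simp [ch]

lemma mem_Tk {k : ℕ} {p z y : V} : y ∈ Tk G k p z ↔ ∃ i ≤ k, y ∈ Sph G i p z := by
  simp [Tk]

lemma mem_Tk_succ {k : ℕ} {p z y : V} :
    y ∈ Tk G (k + 1) p z ↔ y = z ∨ ∃ c ∈ ch G p z, y ∈ Tk G k z c := by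
  simp only [mem_Tk]
  constructor
  · rintro ⟨i, hi, h⟩
    cases i with
    | zero => left; simpa [Sph] using h
    | succ i =>
      right
      simp only [Sph, Finset.mem_biUnion] at h
      obtain ⟨c, hc, h⟩ := h
      exact ⟨c, hc, i, by omega, h⟩
  · rintro (rfl | ⟨c, hc, i, hi, h⟩)
    · exact ⟨0, by omega, by simp [Sph]⟩
    · exact ⟨i + 1, by omega, by simp only [Sph, Finset.mem_biUnion]; exact ⟨c, hc, h⟩⟩

lemma Tk_zero (p z : V) : Tk G 0 p z = {z} := by simp [Tk, Sph]

lemma self_mem_Tk (k : ℕ) (p z : V) : z ∈ Tk G k p z := mem_Tk.2 ⟨0, by omega, by simp [Sph]⟩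

lemma Tk_mono {k l : ℕ} (h : k ≤ l) (p z : V) : Tk G k p z ⊆ Tk G l p z := fun _ hy => by
  obtain ⟨i, hi, hy⟩ := mem_Tk.1 hy
  exact mem_Tk.2 ⟨i, hi.trans h, hy⟩

lemma Tk_ch {k : ℕ} {p z c : V} (hc : c ∈ ch G p z) : Tk G k z c ⊆ Tk G (k + 1) p z :=
  fun _ hy => mem_Tk_succ.2 (Or.inr ⟨c, hc, hy⟩)

lemma mem_Tinf {p z y : V} : y ∈ Tinf G p z ↔ ∃ k, y ∈ Tk G k p z :=
  ⟨fun ⟨k, h⟩ => ⟨k, mem_Tk.2 ⟨k, le_rfl, h⟩⟩, fun ⟨_, h⟩ => by
    obtain ⟨i, _, h⟩ := mem_Tk.1 h; exact ⟨i, h⟩⟩

lemma Tk_sub_Tinf {k : ℕ} {p z y : V} (h : y ∈ Tk G k p z) : y ∈ Tinf G p z := mem_Tinf.2 ⟨k, h⟩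

lemma self_mem_Tinf (p z : V) : z ∈ Tinf G p z := Tk_sub_Tinf (self_mem_Tk 0 p z)

lemma Tinf_ch {p z c : V} (hc : c ∈ ch G p z) : Tinf G z c ⊆ Tinf G p z := fun _ hy => by
  obtain ⟨k, hy⟩ := mem_Tinf.1 hy
  exact Tk_sub_Tinf (Tk_ch hc hy)

lemma ch_iso (g : G ≃g G) (p z : V) : ch G (g p) (g z) = (ch G p z).map g.toEquiv.toEmbedding := by
  ext c
  obtain ⟨c, rfl⟩ := g.surjective c
  rw [show g c = g.toEquiv.toEmbedding c from rfl, Finset.mem_map', mem_ch, mem_ch]
  simp [g.map_adj_iff]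

lemma sum_ch_iso (g : G ≃g G) (p z : V) (f : V → ℝ) :
    ∑ c ∈ ch G (g p) (g z), f c = ∑ c ∈ ch G p z, f (g c) := by
  rw [ch_iso, Finset.sum_map]; rfl

lemma mem_Sph_iso (g : G ≃g G) (k : ℕ) (p z y : V) :
    g y ∈ Sph G k (g p) (g z) ↔ y ∈ Sph G k p z := by
  induction k generalizing p z with
  | zero => simp [Sph]
  | succ k ih =>
    simp only [Sph, Finset.mem_biUnion, ch_iso, Finset.mem_map]
    constructor
    · rintro ⟨_, ⟨c, hc, rfl⟩, h⟩
      exact ⟨c, hc, (ih z c).1 h⟩
    · rintro ⟨c, hc, h⟩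
      exact ⟨_, ⟨c, hc, rfl⟩, (ih z c).2 h⟩

lemma mem_Tk_iso (g : G ≃g G) (k : ℕ) (p z y : V) :
    g y ∈ Tk G k (g p) (g z) ↔ y ∈ Tk G k p z := by
  simp only [mem_Tk, mem_Sph_iso]

section Tree2

variable (hT : G.IsTree)
include hT

lemma Sph_spec {k : ℕ} {p z y : V} (hp : G.Adj p z) (h : y ∈ Sph G k p z) :
    G.dist z y = k ∧ G.dist p y = k + 1 := by
  induction k generalizing p z with
  | zero =>
    simp only [Sph, Finset.mem_singleton] at h
    subst h
    simp [dist_eq_one_iff_adj.2 hp]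
  | succ k ih =>
    simp only [Sph, Finset.mem_biUnion] at h
    obtain ⟨c, hc, h⟩ := h
    obtain ⟨hcp, hzc⟩ := mem_ch.1 hc
    obtain ⟨h1, h2⟩ := ih hzc h
    refine ⟨h2, ?_⟩
    rw [dist_of_ne_nxt hT hp.symm, h2]
    rw [nxt_eq hT hzc (by omega)]; exact hcp

lemma Sph_dist {k : ℕ} {p z y : V} (h : y ∈ Sph G k p z) : G.dist z y = k := by
  cases k with
  | zero =>
    simp only [Sph, Finset.mem_singleton] at h
    subst h; simp
  | succ k =>
    simp only [Sph, Finset.mem_biUnion] at h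
    obtain ⟨c, hc, h⟩ := h
    exact (Sph_spec hT (mem_ch.1 hc).2 h).2

lemma nxt_of_mem_Sph {k : ℕ} {p z y : V} (hp : G.Adj p z) (h : y ∈ Sph G k p z) :
    nxt G y p = z := by
  obtain ⟨h1, h2⟩ := Sph_spec hT hp h
  exact nxt_eq hT hp (by omega)

lemma nxt_of_mem_Tinf {p z y : V} (hp : G.Adj p z) (h : y ∈ Tinf G p z) : nxt G y p = z :=
  nxt_of_mem_Sph hT hp h.choose_spec

lemma not_mem_Tinf {p z : V} (hp : G.Adj p z) : p ∉ Tinf G p z := fun h => by
  have := nxt_of_mem_Tinf hT hp h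
  rw [nxt_self] at this
  exact hp.ne this

lemma Tinf_disj {z c c' y : V} (hc : G.Adj z c) (hc' : G.Adj z c') (h : y ∈ Tinf G z c)
    (h' : y ∈ Tinf G z c') : c = c' :=
  (nxt_of_mem_Tinf hT hc h).symm.trans (nxt_of_mem_Tinf hT hc' h')

lemma Tinf_disj_rev {p z y : V} (hp : G.Adj p z) (h : y ∈ Tinf G p z) : y ∉ Tinf G z p := by
  rintro ⟨k', h'⟩
  obtain ⟨k, h⟩ := h
  have := Sph_spec hT hp h
  have := Sph_spec hT hp.symm h'
  omega

lemma mem_Sph_of_dist {k : ℕ} {p z y : V} (hd : G.dist z y = k) (hp : k ≠ 0 → nxt G y z ≠ p) :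
    y ∈ Sph G k p z := by
  induction k generalizing p z with
  | zero => simp [Sph, (dist_eq_zero' hT).1 hd]
  | succ k ih =>
    have hz : z ≠ y := by rintro rfl; simp at hd
    obtain ⟨h1, h2⟩ := nxt_spec hT hz
    simp only [Sph, Finset.mem_biUnion]
    refine ⟨nxt G y z, mem_ch.2 ⟨hp (by omega), h1⟩, ih (by omega) fun hk h => ?_⟩
    have hc : nxt G y z ≠ y := by intro h'; rw [h'] at h2; simp at h2; omega
    have := (nxt_spec hT hc).2
    rw [h] at this; omega

lemma mem_Sph_self (z y : V) : y ∈ Sph G (G.dist z y) z z :=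
  mem_Sph_of_dist hT rfl fun hk => by
    have hz : z ≠ y := by rintro rfl; simp at hk
    exact (nxt_spec hT hz).1.ne'

lemma mem_Tinf_self (z y : V) : y ∈ Tinf G z z := ⟨_, mem_Sph_self hT z y⟩

lemma mem_Tk_self {k : ℕ} {z y : V} : y ∈ Tk G k z z ↔ G.dist z y ≤ k :=
  ⟨fun h => by obtain ⟨i, hi, h⟩ := mem_Tk.1 h; rwa [Sph_dist hT h],
    fun h => mem_Tk.2 ⟨_, h, mem_Sph_self hT z y⟩⟩

lemma countable_V : Countable V := by
  obtain ⟨z⟩ := hT.connected.nonempty
  have : (Set.univ : Set V) = ⋃ k, (Sph G k z z : Set V) := by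
    ext y; simpa [Tinf] using mem_Tinf_self hT z y
  exact Set.countable_univ_iff.1 (this ▸ Set.countable_iUnion fun k => Finset.countable_toSet _)

lemma Sph_succ_nxt {k : ℕ} {p z y : V} (h : y ∈ Sph G (k + 1) p z) :
    nxt G y z ∈ ch G p z ∧ y ∈ Sph G k z (nxt G y z) := by
  simp only [Sph, Finset.mem_biUnion] at h
  obtain ⟨c, hc, h⟩ := h
  rw [nxt_of_mem_Sph hT (mem_ch.1 hc).2 h]
  exact ⟨hc, h⟩

lemma sum_Sph_succ (k : ℕ) (p z : V) (f : V → ℝ) :
    ∑ y ∈ Sph G (k + 1) p z, f y = ∑ c ∈ ch G p z, ∑ y ∈ Sph G k z c, f y := by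
  rw [Sph, Finset.sum_biUnion]
  intro c hc c' hc' hne
  exact Finset.disjoint_left.2 fun y h h' =>
    hne (Tinf_disj hT (mem_ch.1 hc).2 (mem_ch.1 hc').2 ⟨k, h⟩ ⟨k, h'⟩)

lemma sum_Tk (k : ℕ) (p z : V) (f : V → ℝ) :
    ∑ y ∈ Tk G k p z, f y = ∑ i ∈ Finset.range (k + 1), ∑ y ∈ Sph G i p z, f y := by
  rw [Tk, Finset.sum_biUnion]
  intro i _ j _ hne
  exact Finset.disjoint_left.2 fun y h h' => hne ((Sph_dist hT h).symm.trans (Sph_dist hT h'))

lemma prod_Tk_succ (k : ℕ) (p z : V) (f : V → ℝ) :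
    ∏ y ∈ Tk G (k + 1) p z, f y = f z * ∏ c ∈ ch G p z, ∏ y ∈ Tk G k z c, f y := by
  have : Tk G (k + 1) p z = insert z ((ch G p z).biUnion fun c => Tk G k z c) := by
    ext y; simp [mem_Tk_succ]
  rw [this, Finset.prod_insert, Finset.prod_biUnion]
  · intro c hc c' hc' hne
    exact Finset.disjoint_left.2 fun y h h' =>
      hne (Tinf_disj hT (mem_ch.1 hc).2 (mem_ch.1 hc').2 (Tk_sub_Tinf h) (Tk_sub_Tinf h'))
  · simp only [Finset.mem_biUnion, not_exists, not_and]
    exact fun c hc h => not_mem_Tinf hT (mem_ch.1 hc).2 (Tk_sub_Tinf h)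

end Tree2

section Regular

variable {d : ℕ} (hreg : G.IsRegularOfDegree d)
include hreg

lemma card_ch_adj {p z : V} (hp : G.Adj p z) : (ch G p z).card = d - 1 := by
  rw [ch, Finset.card_erase_of_mem (by simpa using hp.symm), card_neighborFinset_eq_degree, hreg.degree_eq]

lemma card_ch_le (p z : V) : (ch G p z).card ≤ d := by
  rw [← hreg.degree_eq z, ← card_neighborFinset_eq_degree]
  exact Finset.card_erase_le

lemma card_Sph_adj (hT : G.IsTree) (k : ℕ) {p z : V} (hp : G.Adj p z) :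
    ((Sph G k p z).card : ℝ) = ((d - 1 : ℕ) : ℝ) ^ k := by
  induction k generalizing p z with
  | zero => simp [Sph]
  | succ k ih =>
    have := sum_Sph_succ hT k p z (fun _ => 1)
    simp only [Finset.sum_const, nsmul_eq_mul, mul_one] at this
    rw [this, Finset.sum_congr rfl fun c hc => ih (mem_ch.1 hc).2, Finset.sum_const,
      card_ch_adj hreg hp, nsmul_eq_mul, pow_succ']

lemma card_Sph_le (hT : G.IsTree) (hd : 3 ≤ d) (k : ℕ) (p z : V) :
    ((Sph G k p z).card : ℝ) ≤ 2 * ((d - 1 : ℕ) : ℝ) ^ k := by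
  cases k with
  | zero => simp [Sph]
  | succ k =>
    have := sum_Sph_succ hT k p z (fun _ => 1)
    simp only [Finset.sum_const, nsmul_eq_mul, mul_one] at this
    rw [this, Finset.sum_congr rfl fun c hc => card_Sph_adj hreg hT k (mem_ch.1 hc).2,
      Finset.sum_const, nsmul_eq_mul, pow_succ', ← mul_assoc]
    gcongr
    have h1 := card_ch_le hreg p z
    have : (ch G p z).card ≤ 2 * (d - 1) := by omega
    exact_mod_cast this

lemma exists_side (hd : 3 ≤ d) (z a b : V) : ∃ c, G.Adj z c ∧ c ≠ a ∧ c ≠ b := by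
  have h1 : ((ch G a z).erase b).card ≥ 1 := by
    have := Finset.pred_card_le_card_erase (s := ch G a z) (a := b)
    have h2 := Finset.pred_card_le_card_erase (s := G.neighborFinset z) (a := a)
    rw [card_neighborFinset_eq_degree, hreg.degree_eq] at h2
    unfold ch at *
    omega
  obtain ⟨c, hc⟩ := Finset.card_pos.1 h1
  rw [Finset.mem_erase, mem_ch] at hc
  exact ⟨c, hc.2.2, hc.2.1, hc.1⟩

end Regular

end Crest.Agent.R160
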